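import Mathlib

/-!
# P254 tail-flow route: one-dimensional cone comparison for the first moment

Paper: `v = r^2` on `[0, a]` with `r ≥ 0` concave.  If `v 0 = 0` the claim is trivial.
Otherwise put `c = 3 * (∫ v) / v 0`; concavity gives `r t ≥ r 0 * (1 - t/a)`, hence `c ≥ a`.
The cone profile `v0 t = v 0 * (1 - t/c)^2` on `[0, c]` has the same integral as `v` on `[0, a]`
and `r - r 0 * (1 - t/c)` is concave on `[0, a]` and vanishes at `0`: it is `≥ 0` up to some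
point `s` and `≤ 0` after it, and beyond `a` the profile `v` is replaced by zero.  Hence
`∫_0^a (t - s) v ≤ ∫_0^c (t - s) v0`, and `∫_0^a t v ≤ ∫_0^c t v0 = v 0 * c^2 / 12`, which is the
claim.  Template: `sqrt_concave_half_line` in `Sym/Berwald1D.lean` (same hypotheses, second
moment instead of the value at zero).
-/

open MeasureTheory Set

namespace Vale.Agent.Lib.P254.TF

/-- Three-point chord inequality for a concave function. -/
theorem bw_chord_le {f : ℝ → ℝ} {s : Set ℝ} (hf : ConcaveOn ℝ s f) {x y z : ℝ}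
    (hx : x ∈ s) (hz : z ∈ s) (hxy : x ≤ y) (hyz : y ≤ z) :
    (z - y) * f x + (y - x) * f z ≤ (z - x) * f y := by
  rcases eq_or_lt_of_le (hxy.trans hyz) with h | h
  · have hy : y = x := le_antisymm (h ▸ hyz) hxy
    subst hy
    subst h
    simp
  · have hzx : 0 < z - x := sub_pos.mpr h
    have hne : z - x ≠ 0 := hzx.ne'
    have hsum : (z - y) / (z - x) + (y - x) / (z - x) = 1 := by
      rw [← add_div, div_eq_one_iff_eq hne]; ring
    have key := hf.2 hx hz (div_nonneg (sub_nonneg.mpr hyz) hzx.le)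
      (div_nonneg (sub_nonneg.mpr hxy) hzx.le) hsum
    have e : ((z - y) / (z - x)) • x + ((y - x) / (z - x)) • z = y := by
      simp only [smul_eq_mul]
      field_simp
      ring
    rw [e] at key
    simp only [smul_eq_mul] at key
    have h2 := mul_le_mul_of_nonneg_left key hzx.le
    have e2 : (z - x) * ((z - y) / (z - x) * f x + (y - x) / (z - x) * f z)
        = (z - y) * f x + (y - x) * f z := by
      field_simp
    linarith

/-- Integral of a quartic polynomial. -/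
theorem bw_int_quartic (c0 c1 c2 c3 c4 x y : ℝ) :
    ∫ t in x..y, (c0 + c1 * t + c2 * t ^ 2 + c3 * t ^ 3 + c4 * t ^ 4) =
      c0 * (y - x) + c1 * (y ^ 2 - x ^ 2) / 2 + c2 * (y ^ 3 - x ^ 3) / 3
        + c3 * (y ^ 4 - x ^ 4) / 4 + c4 * (y ^ 5 - x ^ 5) / 5 := by
  have hd : ∀ t ∈ Set.uIcc x y,
      HasDerivAt (fun t : ℝ => c0 * t + c1 * t ^ 2 / 2 + c2 * t ^ 3 / 3 + c3 * t ^ 4 / 4
          + c4 * t ^ 5 / 5)
        (c0 + c1 * t + c2 * t ^ 2 + c3 * t ^ 3 + c4 * t ^ 4) t := by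
    intro t _
    have h1 : HasDerivAt (fun t : ℝ => c0 * t) c0 t := by
      simpa using (hasDerivAt_id t).const_mul c0
    have h2 : HasDerivAt (fun t : ℝ => c1 * t ^ 2 / 2) (c1 * t) t := by
      have := ((hasDerivAt_pow 2 t).const_mul c1).div_const 2
      exact this.congr_deriv (by norm_num; ring)
    have h3 : HasDerivAt (fun t : ℝ => c2 * t ^ 3 / 3) (c2 * t ^ 2) t := by
      have := ((hasDerivAt_pow 3 t).const_mul c2).div_const 3
      exact this.congr_deriv (by norm_num; ring)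
    have h4 : HasDerivAt (fun t : ℝ => c3 * t ^ 4 / 4) (c3 * t ^ 3) t := by
      have := ((hasDerivAt_pow 4 t).const_mul c3).div_const 4
      exact this.congr_deriv (by norm_num; ring)
    have h5 : HasDerivAt (fun t : ℝ => c4 * t ^ 5 / 5) (c4 * t ^ 4) t := by
      have := ((hasDerivAt_pow 5 t).const_mul c4).div_const 5
      exact this.congr_deriv (by norm_num; ring)
    exact (((h1.add h2).add h3).add h4).add h5
  rw [intervalIntegral.integral_eq_sub_of_hasDerivAt hd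
    (Continuous.intervalIntegrable (by fun_prop) _ _)]
  ring

/-- Integral of a quadratic weight against `v` in terms of the three moments. -/
theorem bw_int_quad_mul {v : ℝ → ℝ} {a : ℝ} (hv : IntervalIntegrable v volume 0 a)
    (p0 p1 p2 : ℝ) :
    ∫ t in (0:ℝ)..a, (p0 + p1 * t + p2 * t ^ 2) * v t =
      p0 * (∫ t in (0:ℝ)..a, v t) + p1 * (∫ t in (0:ℝ)..a, t * v t)
        + p2 * (∫ t in (0:ℝ)..a, t ^ 2 * v t) := by
  have h1 : IntervalIntegrable (fun t : ℝ => t * v t) volume 0 a :=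
    hv.continuousOn_mul (g := fun t : ℝ => t) continuous_id.continuousOn
  have h2 : IntervalIntegrable (fun t : ℝ => t ^ 2 * v t) volume 0 a :=
    hv.continuousOn_mul (g := fun t : ℝ => t ^ 2) (continuous_pow 2).continuousOn
  have e : (fun t : ℝ => (p0 + p1 * t + p2 * t ^ 2) * v t)
      = fun t : ℝ => (p0 * v t + p1 * (t * v t)) + p2 * (t ^ 2 * v t) := by
    funext t; ring
  rw [e, intervalIntegral.integral_add ((hv.const_mul p0).add (h1.const_mul p1)) (h2.const_mul p2),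
    intervalIntegral.integral_add (hv.const_mul p0) (h1.const_mul p1),
    intervalIntegral.integral_const_mul, intervalIntegral.integral_const_mul,
    intervalIntegral.integral_const_mul]

/-- A concave function on `[0, a]` that is nonnegative at `0` is nonnegative up to some point
and negative after it. -/
theorem bw_cross_zero {D : ℝ → ℝ} {a : ℝ} (ha : 0 ≤ a) (hD : ConcaveOn ℝ (Icc 0 a) D)
    (hD0 : 0 ≤ D 0) :
    ∃ s : ℝ, 0 ≤ s ∧ s ≤ a ∧ ∀ t ∈ Icc 0 a, (t - s) * D t ≤ 0 := by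
  have h0mem : (0:ℝ) ∈ Icc 0 a := ⟨le_rfl, ha⟩
  have h0S : (0:ℝ) ∈ {t ∈ Icc 0 a | 0 ≤ D t} := ⟨h0mem, hD0⟩
  have hne : {t ∈ Icc 0 a | 0 ≤ D t}.Nonempty := ⟨0, h0S⟩
  have hba : BddAbove {t ∈ Icc 0 a | 0 ≤ D t} := ⟨a, fun t ht => ht.1.2⟩
  refine ⟨sSup {t ∈ Icc 0 a | 0 ≤ D t}, le_csSup hba h0S,
    csSup_le hne (fun t ht => ht.1.2), fun t ht => ?_⟩
  rcases lt_trichotomy t (sSup {t ∈ Icc 0 a | 0 ≤ D t}) with h | h | h
  · obtain ⟨p, hp, htp⟩ := exists_lt_of_lt_csSup hne h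
    have hc := bw_chord_le hD h0mem hp.1 ht.1 htp.le
    have hp0 : 0 < p := lt_of_le_of_lt ht.1 htp
    have hDt : 0 ≤ D t := by
      have h1 : 0 ≤ (p - t) * D 0 := mul_nonneg (by linarith) hD0
      have h2 : 0 ≤ (t - 0) * D p := mul_nonneg (by linarith [ht.1]) hp.2
      have h3 : 0 ≤ p * D t := by linarith
      by_contra hneg
      push Not at hneg
      nlinarith [mul_pos hp0 (neg_pos.mpr hneg)]
    exact mul_nonpos_of_nonpos_of_nonneg (by linarith) hDt
  · rw [h]; simp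
  · have hDt : D t < 0 := by
      by_contra hneg
      push Not at hneg
      have hmem : t ∈ {t ∈ Icc 0 a | 0 ≤ D t} := ⟨ht, hneg⟩
      exact absurd (le_csSup hba hmem) (not_le.mpr h)
    exact mul_nonpos_of_nonneg_of_nonpos (by linarith) hDt.le

/-- One-dimensional cone comparison for the first moment. -/
theorem sqrt_concave_first_moment (v r : ℝ → ℝ) (a : ℝ) (ha : 0 ≤ a)
    (hr0 : ∀ t, 0 ≤ r t) (hvr : ∀ t, v t = r t ^ 2) (hconc : ConcaveOn ℝ (Icc 0 a) r)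
    (hv : IntervalIntegrable v volume 0 a) :
    4 * (v 0 * ∫ t in (0:ℝ)..a, t * v t) ≤ 3 * (∫ t in (0:ℝ)..a, v t) ^ 2 := by
  have hv0 : ∀ t, 0 ≤ v t := fun t => by rw [hvr]; positivity
  set A := ∫ t in (0:ℝ)..a, v t with hA
  set B := ∫ t in (0:ℝ)..a, t * v t with hB
  set M := ∫ t in (0:ℝ)..a, t ^ 2 * v t with hM
  have hA0 : 0 ≤ A := intervalIntegral.integral_nonneg ha (fun t _ => hv0 t)
  rcases eq_or_lt_of_le (hv0 0) with hz | hvpos
  · rw [← hz]; nlinarith [sq_nonneg A]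
  rcases eq_or_lt_of_le ha with haz | hapos
  · have hBz : B = 0 := by rw [hB, ← haz]; simp
    rw [hBz]; nlinarith [sq_nonneg A]
  have h0mem : (0:ℝ) ∈ Icc 0 a := ⟨le_rfl, ha⟩
  have hamem : a ∈ Icc 0 a := ⟨ha, le_rfl⟩
  -- the cone is at least as long as the interval
  have hfact : a * v 0 ≤ 3 * A := by
    have hpt : ∀ t ∈ Icc 0 a, 0 ≤ a ^ 2 * v t - (a - t) ^ 2 * v 0 := by
      intro t ht
      rw [hvr t, hvr 0]
      have hc := bw_chord_le hconc h0mem hamem ht.1 ht.2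
      have h1 : (a - t) * r 0 ≤ a * r t := by
        nlinarith [mul_nonneg ht.1 (hr0 a)]
      have h1' : 0 ≤ (a - t) * r 0 := mul_nonneg (by linarith [ht.2]) (hr0 0)
      have h2 : ((a - t) * r 0) ^ 2 ≤ (a * r t) ^ 2 := pow_le_pow_left₀ h1' h1 2
      nlinarith [h2]
    have hint := intervalIntegral.integral_nonneg (μ := volume) ha hpt
    have e : (fun t : ℝ => a ^ 2 * v t - (a - t) ^ 2 * v 0)
        = fun t : ℝ => (a ^ 2 + 0 * t + 0 * t ^ 2) * v t
            - (v 0 * a ^ 2 + (-(2 * a * v 0)) * t + v 0 * t ^ 2 + 0 * t ^ 3 + 0 * t ^ 4) := by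
      funext t; ring
    rw [e, intervalIntegral.integral_sub
      (hv.continuousOn_mul (g := fun t : ℝ => a ^ 2 + 0 * t + 0 * t ^ 2) (by fun_prop))
      (Continuous.intervalIntegrable (by fun_prop) _ _),
      bw_int_quad_mul hv, bw_int_quartic, ← hA, ← hB, ← hM] at hint
    have h2 : 0 ≤ a ^ 2 * (3 * A - a * v 0) := by
      have e2 : a ^ 2 * (3 * A - a * v 0) = 3 * (a ^ 2 * A + 0 * B + 0 * M
          - (v 0 * a ^ 2 * (a - 0) + -(2 * a * v 0) * (a ^ 2 - 0 ^ 2) / 2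
            + v 0 * (a ^ 3 - 0 ^ 3) / 3 + 0 * (a ^ 4 - 0 ^ 4) / 4
            + 0 * (a ^ 5 - 0 ^ 5) / 5)) := by
        ring
      rw [e2]
      exact mul_nonneg (by norm_num) hint
    by_contra hneg
    push Not at hneg
    have hpos : 0 < a ^ 2 := by positivity
    nlinarith [mul_pos hpos (sub_pos.mpr hneg)]
  set c := 3 * A / v 0 with hc
  have hcv : c * v 0 = 3 * A := by
    rw [hc]; field_simp
  have hca : a ≤ c := by
    rw [hc, le_div_iff₀ hvpos]; exact hfact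
  have hcpos : 0 < c := lt_of_lt_of_le hapos hca
  set γ := r 0 / c with hγ
  have hγc : γ * c = r 0 := by
    rw [hγ]; field_simp
  have hγ0 : 0 ≤ γ := div_nonneg (hr0 0) hcpos.le
  have hαc : γ ^ 2 * c ^ 2 = v 0 := by
    rw [hvr 0, ← hγc]; ring
  have hαc3 : γ ^ 2 * c ^ 3 = 3 * A := by
    have e0 : γ ^ 2 * c ^ 3 = c * (γ ^ 2 * c ^ 2) := by ring
    rw [e0, hαc]; exact hcv
  -- single crossing
  have hDconc : ConcaveOn ℝ (Icc 0 a) (fun t => r t - γ * (c - t)) := by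
    refine hconc.sub ⟨convex_Icc 0 a, ?_⟩
    intro x _ y _ p q _ _ hpq
    have hq : q = 1 - p := by linarith
    subst hq
    simp only [smul_eq_mul]
    apply le_of_eq
    ring
  have hD0 : 0 ≤ r 0 - γ * (c - 0) := by
    rw [sub_zero, hγc, sub_self]
  obtain ⟨s, hs0, hsa, hcross⟩ := bw_cross_zero ha hDconc hD0
  have hcross2 : ∀ t ∈ Icc 0 a, (t - s) * (v t - γ ^ 2 * (c - t) ^ 2) ≤ 0 := by
    intro t ht
    have e : (t - s) * (v t - γ ^ 2 * (c - t) ^ 2)
        = ((t - s) * (r t - γ * (c - t))) * (r t + γ * (c - t)) := by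
      rw [hvr t]; ring
    rw [e]
    have hS : 0 ≤ r t + γ * (c - t) :=
      add_nonneg (hr0 t) (mul_nonneg hγ0 (by linarith [ht.2]))
    exact mul_nonpos_of_nonpos_of_nonneg (hcross t ht) hS
  have hI1 : 0 ≤ ∫ t in (0:ℝ)..a, -((t - s) * (v t - γ ^ 2 * (c - t) ^ 2)) :=
    intervalIntegral.integral_nonneg ha (fun t ht => neg_nonneg.mpr (hcross2 t ht))
  have e1 : (fun t : ℝ => -((t - s) * (v t - γ ^ 2 * (c - t) ^ 2)))
      = fun t : ℝ => (γ ^ 2 * (-(s * c ^ 2)) + γ ^ 2 * (c ^ 2 + 2 * c * s) * t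
            + γ ^ 2 * (-(2 * c) - s) * t ^ 2 + γ ^ 2 * t ^ 3 + 0 * t ^ 4)
          - (-s + 1 * t + 0 * t ^ 2) * v t := by
    funext t; ring
  rw [e1, intervalIntegral.integral_sub
    (Continuous.intervalIntegrable (by fun_prop) _ _)
    (hv.continuousOn_mul (g := fun t : ℝ => -s + 1 * t + 0 * t ^ 2) (by fun_prop)),
    bw_int_quad_mul hv, bw_int_quartic, ← hA, ← hB, ← hM] at hI1
  have hI2 : 0 ≤ ∫ t in a..c, (γ ^ 2 * (-(s * c ^ 2)) + γ ^ 2 * (c ^ 2 + 2 * c * s) * t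
            + γ ^ 2 * (-(2 * c) - s) * t ^ 2 + γ ^ 2 * t ^ 3 + 0 * t ^ 4) := by
    refine intervalIntegral.integral_nonneg hca (fun t ht => ?_)
    have e : γ ^ 2 * (-(s * c ^ 2)) + γ ^ 2 * (c ^ 2 + 2 * c * s) * t
            + γ ^ 2 * (-(2 * c) - s) * t ^ 2 + γ ^ 2 * t ^ 3 + 0 * t ^ 4
          = γ ^ 2 * ((t - s) * (c - t) ^ 2) := by ring
    rw [e]
    exact mul_nonneg (sq_nonneg γ) (mul_nonneg (by linarith [ht.1]) (sq_nonneg _))
  rw [bw_int_quartic] at hI2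
  have hsum : 0 ≤ (γ ^ 2 * c ^ 3) * c / 12 - (γ ^ 2 * c ^ 3) * s / 3 + s * A - B := by
    have e4 : (γ ^ 2 * c ^ 3) * c / 12 - (γ ^ 2 * c ^ 3) * s / 3 + s * A - B
        = (γ ^ 2 * -(s * c ^ 2) * (a - 0) + γ ^ 2 * (c ^ 2 + 2 * c * s) * (a ^ 2 - 0 ^ 2) / 2
              + γ ^ 2 * (-(2 * c) - s) * (a ^ 3 - 0 ^ 3) / 3 + γ ^ 2 * (a ^ 4 - 0 ^ 4) / 4
              + 0 * (a ^ 5 - 0 ^ 5) / 5 - (-s * A + 1 * B + 0 * M))
          + (γ ^ 2 * -(s * c ^ 2) * (c - a) + γ ^ 2 * (c ^ 2 + 2 * c * s) * (c ^ 2 - a ^ 2) / 2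
              + γ ^ 2 * (-(2 * c) - s) * (c ^ 3 - a ^ 3) / 3 + γ ^ 2 * (c ^ 4 - a ^ 4) / 4
              + 0 * (c ^ 5 - a ^ 5) / 5) := by
      ring
    rw [e4]
    exact add_nonneg hI1 hI2
  rw [hαc3] at hsum
  have hkey : 4 * B ≤ A * c := by nlinarith [hsum]
  have h5 : 4 * (v 0 * B) ≤ v 0 * (A * c) := by
    nlinarith [mul_le_mul_of_nonneg_left hkey hvpos.le]
  have e3 : v 0 * (A * c) = 3 * A ^ 2 := by
    have e5 : v 0 * (A * c) = A * (c * v 0) := by ring
    rw [e5, hcv]; ring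
  linarith

end Vale.Agent.Lib.P254.TF
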