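import Vale.Agent.Lib.P254.TF.Defs
import Vale.Agent.Lib.P254.TF.Berw1D
import Vale.Agent.Lib.P254.Sym.BM2

/-!
# P254 tail-flow route: the centroid height of a corner (Berwald, cone comparison)

Paper: `v t = vol (sec K t)` on `[0, top K]`; `r = sqrt v` is concave there by
`sec_sqrt_concave` of `Sym/BM2.lean` (all sections at heights in `[0, top K]` are nonempty:
they contain the origin); `vol K = ∫_0^top v` (`vol_slice`) and `∫_K x 0 = ∫_0^top t v`
(`integral_slice`); then `sqrt_concave_first_moment`.
-/

open MeasureTheory Set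

namespace Vale.Agent.Lib.P254.TF

variable {K : Set (Fin 3 → ℝ)}

/-- First moment of the first coordinate by slices. -/
lemma bg_moment_zero_slice (hK : IsCompact K) :
    ∫ x in K, x 0 = ∫ t, t * vol (sec K t) := by
  rw [integral_slice hK (fun x => x 0) (continuous_apply 0)]
  congr 1
  ext t
  simp only [Fin.cons_zero]
  rw [setIntegral_const]
  simp [vol, Measure.real, mul_comm]

/-- An integral over the line of a function vanishing off `[0, T]` is an interval integral. -/
lemma bg_integral_eq_interval {f : ℝ → ℝ} {T : ℝ} (hT : 0 ≤ T)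
    (hf : ∀ t, t ∉ Icc 0 T → f t = 0) :
    ∫ t, f t = ∫ t in (0:ℝ)..T, f t := by
  rw [← setIntegral_eq_integral_of_forall_compl_eq_zero (s := Icc 0 T) hf,
    integral_Icc_eq_integral_Ioc, intervalIntegral.integral_of_le hT]

/-- The centroid height of a corner is at most `3/4` of its mean height. -/
theorem eps_le_half (hK : Corner K) :
    4 * (vol (sec K 0) * ∫ x in K, x 0) ≤ 3 * (vol K) ^ 2 := by
  obtain ⟨hcomp, hconv, hnn, hdown⟩ := hK
  rcases K.eq_empty_or_nonempty with hemp | hne
  · subst hemp
    simp [vol]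
  have hPc : IsCompact ((fun x : Fin 3 → ℝ => x 0) '' K) := hcomp.image (continuous_apply 0)
  have hPne : ((fun x : Fin 3 → ℝ => x 0) '' K).Nonempty := hne.image _
  set T := sSup ((fun x : Fin 3 → ℝ => x 0) '' K) with hTdef
  obtain ⟨p, hpK, hpT⟩ := hPc.sSup_mem hPne
  have hpT' : p 0 = T := hpT
  have hle : ∀ x ∈ K, x 0 ≤ T := fun x hx => le_csSup hPc.bddAbove ⟨x, hx, rfl⟩
  have hT : 0 ≤ T := by
    rw [← hpT']
    exact hnn p hpK 0
  -- sections at heights in `[0, T]` contain the origin
  have hsec_ne : ∀ t ∈ Icc (0:ℝ) T, (sec K t).Nonempty := by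
    intro t ht
    refine ⟨0, ?_⟩
    rw [mem_sec]
    refine hdown p hpK _ ?_ ?_
    · intro i
      refine Fin.cases ?_ ?_ i
      · simpa using ht.1
      · intro j
        simp
    · intro i
      refine Fin.cases ?_ ?_ i
      · simp only [Fin.cons_zero]
        rw [hpT']
        exact ht.2
      · intro j
        simp only [Fin.cons_succ, Pi.zero_apply]
        exact hnn p hpK _
  -- sections at heights outside `[0, T]` are empty
  have hsec_zero : ∀ t, t ∉ Icc (0:ℝ) T → vol (sec K t) = 0 := by
    intro t ht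
    have hemp : sec K t = ∅ := by
      rw [eq_empty_iff_forall_notMem]
      intro y hy
      rw [mem_sec] at hy
      apply ht
      refine ⟨?_, ?_⟩
      · have h := hnn _ hy 0
        simpa using h
      · have h := hle _ hy
        simpa using h
    rw [hemp]
    simp [vol]
  have hvnn : ∀ t, 0 ≤ vol (sec K t) := fun t => ENNReal.toReal_nonneg
  have hconc : ConcaveOn ℝ (Icc 0 T) (fun t => Real.sqrt (vol (sec K t))) := by
    refine ⟨convex_Icc 0 T, ?_⟩
    intro s hs t ht a b ha hb hab
    simp only [smul_eq_mul]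
    exact sec_sqrt_concave hcomp hconv ha hb hab (hsec_ne s hs) (hsec_ne t ht)
  have hint : IntervalIntegrable (fun t => vol (sec K t)) volume 0 T := by
    obtain ⟨M, hM⟩ := vol_sec_bounded hcomp
    rw [intervalIntegrable_iff_integrableOn_Ioc_of_le hT]
    refine Measure.integrableOn_of_bounded (M := M) measure_Ioc_lt_top.ne
      (measurable_vol_sec hcomp).aestronglyMeasurable ?_
    refine Filter.Eventually.of_forall fun t => ?_
    rw [Real.norm_eq_abs, abs_of_nonneg (hvnn t)]
    exact hM t
  have h := sqrt_concave_first_moment (fun t => vol (sec K t))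
    (fun t => Real.sqrt (vol (sec K t))) T hT (fun t => Real.sqrt_nonneg _)
    (fun t => (Real.sq_sqrt (hvnn t)).symm) hconc hint
  have h1 : vol K = ∫ t in (0:ℝ)..T, vol (sec K t) := by
    rw [vol_slice hcomp]
    exact bg_integral_eq_interval hT hsec_zero
  have h2 : ∫ x in K, x 0 = ∫ t in (0:ℝ)..T, t * vol (sec K t) := by
    rw [bg_moment_zero_slice hcomp]
    refine bg_integral_eq_interval hT ?_
    intro t ht
    rw [hsec_zero t ht, mul_zero]
  rw [h1, h2]
  exact h

end Vale.Agent.Lib.P254.TF
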