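import Vale.Agent.Lib.P254.TF.Hgt

/-!
# P254 tail-flow route: the Cauchy-Schwarz step

Paper: on the base `F = sec K 0` with `h = hgt K`, `A = vol F`, `M j = ∫_F y j`, `V = ∫_F h`,
`Q j = ∫_F y j * h`, `2 R = ∫_F h^2`.  Cauchy-Schwarz for the two functions
`a0 (A y 0 - M 0) + a1 (A y 1 - M 1)` and `A h - V` on `F`, multiplied out.
-/

open MeasureTheory Set

namespace Vale.Agent.Lib.P254.TF

variable {K : Set (Fin 3 → ℝ)}

/-- Integral of a linear combination of three integrable functions. -/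
lemma bs_three {α : Type*} [MeasurableSpace α] (μ : Measure α) (f1 f2 f3 : α → ℝ)
    (h1 : Integrable f1 μ) (h2 : Integrable f2 μ) (h3 : Integrable f3 μ) (c1 c2 c3 : ℝ) :
    ∫ x, (c1 * f1 x + c2 * f2 x + c3 * f3 x) ∂μ =
      c1 * ∫ x, f1 x ∂μ + c2 * ∫ x, f2 x ∂μ + c3 * ∫ x, f3 x ∂μ := by
  have e1 : Integrable (fun x => c1 * f1 x) μ := h1.const_mul c1
  have e2 : Integrable (fun x => c2 * f2 x) μ := h2.const_mul c2
  have e3 : Integrable (fun x => c3 * f3 x) μ := h3.const_mul c3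
  have e12 : Integrable (fun x => c1 * f1 x + c2 * f2 x) μ := e1.add e2
  rw [integral_add e12 e3, integral_add e1 e2, integral_const_mul, integral_const_mul,
    integral_const_mul]

/-- Integral of a linear combination of six integrable functions. -/
lemma bs_six {α : Type*} [MeasurableSpace α] (μ : Measure α) (f1 f2 f3 f4 f5 f6 : α → ℝ)
    (h1 : Integrable f1 μ) (h2 : Integrable f2 μ) (h3 : Integrable f3 μ)
    (h4 : Integrable f4 μ) (h5 : Integrable f5 μ) (h6 : Integrable f6 μ)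
    (c1 c2 c3 c4 c5 c6 : ℝ) :
    ∫ x, ((c1 * f1 x + c2 * f2 x + c3 * f3 x) + (c4 * f4 x + c5 * f5 x + c6 * f6 x)) ∂μ =
      (c1 * ∫ x, f1 x ∂μ + c2 * ∫ x, f2 x ∂μ + c3 * ∫ x, f3 x ∂μ) +
        (c4 * ∫ x, f4 x ∂μ + c5 * ∫ x, f5 x ∂μ + c6 * ∫ x, f6 x ∂μ) := by
  have a : Integrable (fun x => c1 * f1 x + c2 * f2 x + c3 * f3 x) μ :=
    ((h1.const_mul c1).add (h2.const_mul c2)).add (h3.const_mul c3)
  have b : Integrable (fun x => c4 * f4 x + c5 * f5 x + c6 * f6 x) μ :=
    ((h4.const_mul c4).add (h5.const_mul c5)).add (h6.const_mul c6)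
  rw [integral_add a b, bs_three μ f1 f2 f3 h1 h2 h3, bs_three μ f4 f5 f6 h4 h5 h6]

/-- A measurable function bounded on a compact set is integrable on it. -/
lemma bs_int {F : Set (Fin 2 → ℝ)} (hF : IsCompact F) {f : (Fin 2 → ℝ) → ℝ}
    (hf : Measurable f) (C : ℝ) (hC : ∀ y ∈ F, |f y| ≤ C) : IntegrableOn f F := by
  have : IsFiniteMeasure (volume.restrict F) :=
    isFiniteMeasure_restrict.2 hF.measure_lt_top.ne
  refine Integrable.of_bound hf.aestronglyMeasurable C ?_
  refine (ae_restrict_iff' hF.measurableSet).2 (Filter.Eventually.of_forall fun y hy => ?_)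
  rw [Real.norm_eq_abs]
  exact hC y hy

/-- Cauchy-Schwarz against the constant function on a set of finite measure. -/
lemma bs_var {F : Set (Fin 2 → ℝ)} (hFf : volume F ≠ ⊤) (u : (Fin 2 → ℝ) → ℝ)
    (hu : IntegrableOn u F) (hu2 : IntegrableOn (fun y => u y ^ 2) F) :
    (∫ y in F, u y) ^ 2 ≤ (volume F).toReal * ∫ y in F, u y ^ 2 := by
  have h1 : IntegrableOn (fun _ : Fin 2 → ℝ => (1:ℝ)) F :=
    integrableOn_const hFf
  have hone : ∫ _y in F, (1:ℝ) = (volume F).toReal := by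
    rw [setIntegral_const, smul_eq_mul, mul_one]
    rfl
  have key : 0 ≤ ∫ y in F, ((volume F).toReal * u y - ∫ z in F, u z) ^ 2 :=
    integral_nonneg fun y => sq_nonneg _
  have hexp : ∫ y in F, ((volume F).toReal * u y - ∫ z in F, u z) ^ 2 =
      (volume F).toReal ^ 2 * (∫ y in F, u y ^ 2) +
        (-(2 * (volume F).toReal * ∫ z in F, u z)) * (∫ y in F, u y) +
        (∫ z in F, u z) ^ 2 * (volume F).toReal := by
    have e : (fun y => ((volume F).toReal * u y - ∫ z in F, u z) ^ 2) =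
        fun y => (volume F).toReal ^ 2 * u y ^ 2 +
          (-(2 * (volume F).toReal * ∫ z in F, u z)) * u y + (∫ z in F, u z) ^ 2 * 1 := by
      funext y
      ring
    rw [e, bs_three _ _ _ _ hu2 hu h1, hone]
  rw [hexp] at key
  have hA0 : 0 ≤ (volume F).toReal := ENNReal.toReal_nonneg
  rcases hA0.eq_or_lt with h0 | hpos
  · have hvol : volume F = 0 := by
      rcases (ENNReal.toReal_eq_zero_iff _).1 h0.symm with h | h
      · exact h
      · exact absurd h hFf
    have hU0 : ∫ y in F, u y = 0 := by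
      rw [Measure.restrict_eq_zero.2 hvol, integral_zero_measure]
    rw [hU0, ← h0]
    simp
  · have h2 : 0 ≤ (volume F).toReal *
        ((volume F).toReal * (∫ y in F, u y ^ 2) - (∫ y in F, u y) ^ 2) := by
      nlinarith [key]
    have h3 := nonneg_of_mul_nonneg_right h2 hpos
    linarith

/-- The height function and its square are integrable on the base. -/
lemma bs_hgt_int (hK : Corner K) :
    IntegrableOn (hgt K) (sec K 0) ∧ IntegrableOn (fun y => hgt K y ^ 2) (sec K 0) := by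
  have hFc : IsCompact (sec K 0) := isCompact_sec hK.1 0
  have hm : Measurable (hgt K) := measurable_hgt hK
  have habs : ∀ y, |hgt K y| ≤ top K := fun y => by
    rw [abs_of_nonneg (hgt_nonneg K y)]
    exact hgt_le_top hK y
  refine ⟨bs_int hFc hm (top K) fun y _ => habs y,
    bs_int hFc (hm.pow_const 2) (top K ^ 2) fun y _ => ?_⟩
  rw [abs_pow]
  exact pow_le_pow_left₀ (abs_nonneg _) (habs y) 2

/-- The square of the mean of `h` is at most the mean of `h^2` on the base. -/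
theorem eps_nonneg (hK : Corner K) :
    (vol K) ^ 2 ≤ 2 * (vol (sec K 0) * ∫ x in K, x 0) := by
  have hFc : IsCompact (sec K 0) := isCompact_sec hK.1 0
  obtain ⟨hh, hh2⟩ := bs_hgt_int hK
  have hv := bs_var hFc.measure_lt_top.ne (hgt K) hh hh2
  have e : ∫ y in sec K 0, hgt K y ^ 2 / 2 = (∫ y in sec K 0, hgt K y ^ 2) / 2 :=
    integral_div _ _
  rw [vol_eq_hgt hK, mom0_eq_hgt hK, e]
  unfold vol
  linarith

/-- Cauchy-Schwarz on the base, multiplied out (no divisions). -/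
theorem bessel (hK : Corner K) (a0 a1 : ℝ) :
    (a0 * (vol (sec K 0) * (∫ x in K, x 1) - (∫ y in sec K 0, y 0) * vol K) +
        a1 * (vol (sec K 0) * (∫ x in K, x 2) - (∫ y in sec K 0, y 1) * vol K)) ^ 2 ≤
      (a0 ^ 2 * (vol (sec K 0) * (∫ y in sec K 0, (y 0) ^ 2) - (∫ y in sec K 0, y 0) ^ 2) +
          2 * (a0 * a1) * (vol (sec K 0) * (∫ y in sec K 0, y 0 * y 1) -
            (∫ y in sec K 0, y 0) * (∫ y in sec K 0, y 1)) +
          a1 ^ 2 * (vol (sec K 0) * (∫ y in sec K 0, (y 1) ^ 2) - (∫ y in sec K 0, y 1) ^ 2)) *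
        (2 * (vol (sec K 0) * ∫ x in K, x 0) - (vol K) ^ 2) := by
  have hFc : IsCompact (sec K 0) := isCompact_sec hK.1 0
  obtain ⟨hh, hh2⟩ := bs_hgt_int hK
  have hm : Measurable (hgt K) := measurable_hgt hK
  have habs : ∀ y, |hgt K y| ≤ top K := fun y => by
    rw [abs_of_nonneg (hgt_nonneg K y)]
    exact hgt_le_top hK y
  obtain ⟨C, hC⟩ := hFc.isBounded.exists_norm_le
  have hp : ∀ j : Fin 2, ∀ y ∈ sec K 0, |y j| ≤ C := fun j y hy => by
    rw [← Real.norm_eq_abs]
    exact (norm_le_pi_norm y j).trans (hC y hy)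
  have hmp : ∀ j : Fin 2, Measurable (fun y : Fin 2 → ℝ => y j) := fun j =>
    measurable_pi_apply j
  have hp0 : IntegrableOn (fun y : Fin 2 → ℝ => y 0) (sec K 0) := bs_int hFc (hmp 0) C (hp 0)
  have hp1 : IntegrableOn (fun y : Fin 2 → ℝ => y 1) (sec K 0) := bs_int hFc (hmp 1) C (hp 1)
  have hpp : ∀ i j : Fin 2, IntegrableOn (fun y : Fin 2 → ℝ => y i * y j) (sec K 0) :=
    fun i j => bs_int hFc ((hmp i).mul (hmp j)) (C * C) fun y hy => by
      rw [abs_mul]
      exact mul_le_mul (hp i y hy) (hp j y hy) (abs_nonneg _)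
        ((abs_nonneg _).trans (hp i y hy))
  have hph : ∀ j : Fin 2, IntegrableOn (fun y : Fin 2 → ℝ => y j * hgt K y) (sec K 0) :=
    fun j => bs_int hFc ((hmp j).mul hm) (C * top K) fun y hy => by
      rw [abs_mul]
      exact mul_le_mul (hp j y hy) (habs y) (abs_nonneg _)
        ((abs_nonneg _).trans (hp j y hy))
  have h00 : IntegrableOn (fun y : Fin 2 → ℝ => (y 0) ^ 2) (sec K 0) := by
    have e : (fun y : Fin 2 → ℝ => (y 0) ^ 2) = fun y => y 0 * y 0 := by
      funext y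
      ring
    rw [e]
    exact hpp 0 0
  have h11 : IntegrableOn (fun y : Fin 2 → ℝ => (y 1) ^ 2) (sec K 0) := by
    have e : (fun y : Fin 2 → ℝ => (y 1) ^ 2) = fun y => y 1 * y 1 := by
      funext y
      ring
    rw [e]
    exact hpp 1 1
  have hQ0 : ∫ x in K, x 1 = ∫ y in sec K 0, y 0 * hgt K y := momj_eq_hgt hK 0
  have hQ1 : ∫ x in K, x 2 = ∫ y in sec K 0, y 1 * hgt K y := momj_eq_hgt hK 1
  have hR : ∫ x in K, x 0 = (∫ y in sec K 0, hgt K y ^ 2) / 2 := by
    rw [mom0_eq_hgt hK]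
    exact integral_div _ _
  have hA : vol (sec K 0) = (volume (sec K 0)).toReal := rfl
  rw [hQ0, hQ1, hR, vol_eq_hgt hK, hA]
  have hquad : ∀ t : ℝ, 0 ≤
      (a0 ^ 2 * ((volume (sec K 0)).toReal * (∫ y in sec K 0, (y 0) ^ 2) -
            (∫ y in sec K 0, y 0) ^ 2) +
          2 * (a0 * a1) * ((volume (sec K 0)).toReal * (∫ y in sec K 0, y 0 * y 1) -
            (∫ y in sec K 0, y 0) * (∫ y in sec K 0, y 1)) +
          a1 ^ 2 * ((volume (sec K 0)).toReal * (∫ y in sec K 0, (y 1) ^ 2) -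
            (∫ y in sec K 0, y 1) ^ 2)) * (t * t) +
        (2 * (a0 * ((volume (sec K 0)).toReal * (∫ y in sec K 0, y 0 * hgt K y) -
            (∫ y in sec K 0, y 0) * ∫ y in sec K 0, hgt K y) +
          a1 * ((volume (sec K 0)).toReal * (∫ y in sec K 0, y 1 * hgt K y) -
            (∫ y in sec K 0, y 1) * ∫ y in sec K 0, hgt K y))) * t +
        (2 * ((volume (sec K 0)).toReal * ((∫ y in sec K 0, hgt K y ^ 2) / 2)) -
          (∫ y in sec K 0, hgt K y) ^ 2) := by
    intro t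
    have eq1 : (fun y : Fin 2 → ℝ => t * (a0 * y 0 + a1 * y 1) + hgt K y) =
        fun y => (t * a0) * y 0 + (t * a1) * y 1 + 1 * hgt K y := by
      funext y
      ring
    have eq2 : (fun y : Fin 2 → ℝ => (t * (a0 * y 0 + a1 * y 1) + hgt K y) ^ 2) =
        fun y => ((t * a0) ^ 2 * (y 0) ^ 2 + (2 * (t * a0) * (t * a1)) * (y 0 * y 1) +
            (t * a1) ^ 2 * (y 1) ^ 2) +
          ((2 * (t * a0)) * (y 0 * hgt K y) + (2 * (t * a1)) * (y 1 * hgt K y) +
            1 * hgt K y ^ 2) := by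
      funext y
      ring
    have hu : IntegrableOn (fun y : Fin 2 → ℝ => t * (a0 * y 0 + a1 * y 1) + hgt K y)
        (sec K 0) := by
      rw [eq1]
      exact ((hp0.const_mul _).add (hp1.const_mul _)).add (hh.const_mul 1)
    have hu2 : IntegrableOn
        (fun y : Fin 2 → ℝ => (t * (a0 * y 0 + a1 * y 1) + hgt K y) ^ 2) (sec K 0) := by
      rw [eq2]
      exact (((h00.const_mul _).add ((hpp 0 1).const_mul _)).add (h11.const_mul _)).add
        ((((hph 0).const_mul _).add ((hph 1).const_mul _)).add (hh2.const_mul 1))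
    have hv := bs_var hFc.measure_lt_top.ne _ hu hu2
    have e1 : ∫ y in sec K 0, (t * (a0 * y 0 + a1 * y 1) + hgt K y) =
        (t * a0) * (∫ y in sec K 0, y 0) + (t * a1) * (∫ y in sec K 0, y 1) +
          1 * ∫ y in sec K 0, hgt K y := by
      rw [eq1, bs_three _ _ _ _ hp0 hp1 hh]
    have e2 : ∫ y in sec K 0, (t * (a0 * y 0 + a1 * y 1) + hgt K y) ^ 2 =
        ((t * a0) ^ 2 * (∫ y in sec K 0, (y 0) ^ 2) +
            (2 * (t * a0) * (t * a1)) * (∫ y in sec K 0, y 0 * y 1) +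
            (t * a1) ^ 2 * (∫ y in sec K 0, (y 1) ^ 2)) +
          ((2 * (t * a0)) * (∫ y in sec K 0, y 0 * hgt K y) +
            (2 * (t * a1)) * (∫ y in sec K 0, y 1 * hgt K y) +
            1 * ∫ y in sec K 0, hgt K y ^ 2) := by
      rw [eq2, bs_six _ _ _ _ _ _ _ h00 (hpp 0 1) h11 (hph 0) (hph 1) hh2]
    rw [e1, e2] at hv
    nlinarith [hv]
  have hd := discrim_le_zero hquad
  unfold discrim at hd
  nlinarith [hd]

end Vale.Agent.Lib.P254.TF
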