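import Vale.Agent.Lib.P254.TF.Defs

/-!
# P254 tail-flow route: the centroid box (trivial lower bound)

Paper: the centroid `b` of a corner `K` of positive volume lies in `K` (convexity), so the box
`[0, b]` lies in `K` (down-closedness) and `vol K ≥ b 0 * b 1 * b 2`.
-/

open MeasureTheory Set

namespace Vale.Agent.Lib.P254.TF

variable {K : Set (Fin 3 → ℝ)}

/-- The centroid of a corner of positive volume is a point of the corner. -/
theorem bx_centroid_mem (hK : Corner K) (hV : 0 < vol K) :
    (fun i : Fin 3 => (vol K)⁻¹ * ∫ x in K, x i) ∈ K := by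
  obtain ⟨hc, hconv, -, -⟩ := hK
  have hne : volume K ≠ 0 := by
    intro h0
    unfold vol at hV
    rw [h0] at hV
    simp at hV
  have hfin : volume K ≠ ⊤ := hc.measure_lt_top.ne
  have hint : IntegrableOn (fun x : Fin 3 → ℝ => x) K volume :=
    continuousOn_id.integrableOn_compact hc
  have hmem : (⨍ x in K, x ∂(volume : Measure (Fin 3 → ℝ))) ∈ K :=
    hconv.set_average_mem hc.isClosed hne hfin (ae_restrict_mem hc.measurableSet) hint
  have heq : (⨍ x in K, x ∂(volume : Measure (Fin 3 → ℝ)))
      = fun i : Fin 3 => (vol K)⁻¹ * ∫ x in K, x i := by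
    funext i
    rw [setAverage_eq]
    have h1 := ContinuousLinearMap.integral_comp_comm
      (ContinuousLinearMap.proj (R := ℝ) (φ := fun _ : Fin 3 => ℝ) i) hint
    simp only [ContinuousLinearMap.proj_apply] at h1
    rw [Pi.smul_apply, smul_eq_mul, ← h1]
    rfl
  rw [← heq]
  exact hmem

theorem corner_box (hK : Corner K) :
    (∫ x in K, x 0) * (∫ x in K, x 1) * (∫ x in K, x 2) ≤ (vol K) ^ 4 := by
  have hV0 : 0 ≤ vol K := ENNReal.toReal_nonneg
  rcases hV0.eq_or_lt with hV | hV
  · have hc := hK.1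
    have h0 : volume K = 0 := by
      unfold vol at hV
      rcases (ENNReal.toReal_eq_zero_iff _).1 hV.symm with h | h
      · exact h
      · exact absurd h hc.measure_lt_top.ne
    have hr : (volume : Measure (Fin 3 → ℝ)).restrict K = 0 := Measure.restrict_eq_zero.2 h0
    rw [hr, ← hV]
    simp
  · have hb := bx_centroid_mem hK hV
    set b : Fin 3 → ℝ := fun i : Fin 3 => (vol K)⁻¹ * ∫ x in K, x i with hbdef
    have hb0 : ∀ i, 0 ≤ b i := hK.2.2.1 b hb
    have hsub : Icc (0 : Fin 3 → ℝ) b ⊆ K := by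
      intro y hy
      exact hK.2.2.2 b hb y (fun i => hy.1 i) (fun i => hy.2 i)
    have hvol : (volume (Icc (0 : Fin 3 → ℝ) b)).toReal ≤ vol K :=
      ENNReal.toReal_mono hK.1.measure_lt_top.ne (measure_mono hsub)
    rw [Real.volume_Icc_pi_toReal (show (0 : Fin 3 → ℝ) ≤ b from fun i => hb0 i),
      Fin.prod_univ_three] at hvol
    simp only [Pi.zero_apply, sub_zero] at hvol
    have e : ∀ i : Fin 3, (∫ x in K, x i) = vol K * b i := by
      intro i
      rw [hbdef]
      field_simp
    rw [e 0, e 1, e 2]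
    have h3 : 0 ≤ vol K ^ 3 := by positivity
    nlinarith [mul_le_mul_of_nonneg_left hvol h3]

end Vale.Agent.Lib.P254.TF
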