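import Vale.Agent.Lib.P254.Unc.Defs
import Vale.Agent.Lib.P254.Sym.Slice

/-!
# P254, convex corners in dimension three: definitions for the tail-flow route

Coordinate `0` of a point of `ℝ^3` is the height `t`; the section `sec K t` is a planar set in
the coordinates `1, 2` (written `y 0, y 1` inside the section).  The base of `K` is `sec K 0`.
-/

open MeasureTheory Set

namespace Vale.Agent.Lib.P254.TF

/-- The part of `K` above the height `c`, moved down by `c`. -/
def tailBody (K : Set (Fin 3 → ℝ)) (c : ℝ) : Set (Fin 3 → ℝ) :=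
  {x | 0 ≤ x 0 ∧ Function.update x 0 (x 0 + c) ∈ K}

/-- The largest height of a point of `K` (zero for the empty set). -/
noncomputable def top (K : Set (Fin 3 → ℝ)) : ℝ :=
  sSup ((fun x : Fin 3 → ℝ => x 0) '' K)

/-- The area of the section of `K` at height `t`. -/
noncomputable def sv (K : Set (Fin 3 → ℝ)) (t : ℝ) : ℝ :=
  vol (sec K t)

/-- The first moment of the coordinate `j` over the section of `K` at height `t`. -/
noncomputable def sm (K : Set (Fin 3 → ℝ)) (j : Fin 2) (t : ℝ) : ℝ :=
  ∫ y in sec K t, y j

/-- The length of the fibre of `K` over the point `y` of the base plane. -/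
noncomputable def hgt (K : Set (Fin 3 → ℝ)) (y : Fin 2 → ℝ) : ℝ :=
  (volume {z : ℝ | (Fin.cons z y : Fin 3 → ℝ) ∈ K}).toReal

end Vale.Agent.Lib.P254.TF
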