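import Mathlib

/-!
# P254 / tail-flow route: nonnegativity of the Gram form of `1, f1, f2, h`

For real functions `f1, f2, h` on a measure space such that `1`, the three functions and their
six pairwise products are integrable, the quadratic form with the ten integrals as coefficients
is nonnegative: it is the integral of `(c0 + c1 f1 + c2 f2 + c3 h)^2`.
-/

namespace Vale.Agent.Lib.P254.TF

open MeasureTheory

theorem gram_nonneg {α : Type*} [MeasurableSpace α] (μ : Measure α) (f1 f2 h : α → ℝ)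
    (i0 : Integrable (fun _ : α => (1 : ℝ)) μ) (i1 : Integrable f1 μ) (i2 : Integrable f2 μ)
    (i3 : Integrable h μ) (i11 : Integrable (fun x => f1 x ^ 2) μ)
    (i22 : Integrable (fun x => f2 x ^ 2) μ) (i33 : Integrable (fun x => h x ^ 2) μ)
    (i12 : Integrable (fun x => f1 x * f2 x) μ) (i13 : Integrable (fun x => f1 x * h x) μ)
    (i23 : Integrable (fun x => f2 x * h x) μ) (c0 c1 c2 c3 : ℝ) :
    0 ≤ c0 ^ 2 * (∫ _x, (1 : ℝ) ∂μ) + c1 ^ 2 * (∫ x, f1 x ^ 2 ∂μ) + c2 ^ 2 * (∫ x, f2 x ^ 2 ∂μ)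
      + c3 ^ 2 * (∫ x, h x ^ 2 ∂μ)
      + 2 * (c0 * c1) * (∫ x, f1 x ∂μ) + 2 * (c0 * c2) * (∫ x, f2 x ∂μ)
      + 2 * (c0 * c3) * (∫ x, h x ∂μ)
      + 2 * (c1 * c2) * (∫ x, f1 x * f2 x ∂μ) + 2 * (c1 * c3) * (∫ x, f1 x * h x ∂μ)
      + 2 * (c2 * c3) * (∫ x, f2 x * h x ∂μ) := by
  have s1 : Integrable (fun _ : α => c0 ^ 2 * (1 : ℝ)) μ := i0.const_mul _
  have s2 : Integrable (fun x => c1 ^ 2 * f1 x ^ 2) μ := i11.const_mul _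
  have s3 : Integrable (fun x => c2 ^ 2 * f2 x ^ 2) μ := i22.const_mul _
  have s4 : Integrable (fun x => c3 ^ 2 * h x ^ 2) μ := i33.const_mul _
  have s5 : Integrable (fun x => 2 * (c0 * c1) * f1 x) μ := i1.const_mul _
  have s6 : Integrable (fun x => 2 * (c0 * c2) * f2 x) μ := i2.const_mul _
  have s7 : Integrable (fun x => 2 * (c0 * c3) * h x) μ := i3.const_mul _
  have s8 : Integrable (fun x => 2 * (c1 * c2) * (f1 x * f2 x)) μ := i12.const_mul _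
  have s9 : Integrable (fun x => 2 * (c1 * c3) * (f1 x * h x)) μ := i13.const_mul _
  have s10 : Integrable (fun x => 2 * (c2 * c3) * (f2 x * h x)) μ := i23.const_mul _
  have t2 : Integrable (fun x => c0 ^ 2 * (1 : ℝ) + c1 ^ 2 * f1 x ^ 2) μ := s1.add s2
  have t3 : Integrable (fun x => c0 ^ 2 * (1 : ℝ) + c1 ^ 2 * f1 x ^ 2 + c2 ^ 2 * f2 x ^ 2) μ :=
    t2.add s3
  have t4 : Integrable (fun x => c0 ^ 2 * (1 : ℝ) + c1 ^ 2 * f1 x ^ 2 + c2 ^ 2 * f2 x ^ 2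
      + c3 ^ 2 * h x ^ 2) μ := t3.add s4
  have t5 : Integrable (fun x => c0 ^ 2 * (1 : ℝ) + c1 ^ 2 * f1 x ^ 2 + c2 ^ 2 * f2 x ^ 2
      + c3 ^ 2 * h x ^ 2 + 2 * (c0 * c1) * f1 x) μ := t4.add s5
  have t6 : Integrable (fun x => c0 ^ 2 * (1 : ℝ) + c1 ^ 2 * f1 x ^ 2 + c2 ^ 2 * f2 x ^ 2
      + c3 ^ 2 * h x ^ 2 + 2 * (c0 * c1) * f1 x + 2 * (c0 * c2) * f2 x) μ := t5.add s6
  have t7 : Integrable (fun x => c0 ^ 2 * (1 : ℝ) + c1 ^ 2 * f1 x ^ 2 + c2 ^ 2 * f2 x ^ 2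
      + c3 ^ 2 * h x ^ 2 + 2 * (c0 * c1) * f1 x + 2 * (c0 * c2) * f2 x
      + 2 * (c0 * c3) * h x) μ := t6.add s7
  have t8 : Integrable (fun x => c0 ^ 2 * (1 : ℝ) + c1 ^ 2 * f1 x ^ 2 + c2 ^ 2 * f2 x ^ 2
      + c3 ^ 2 * h x ^ 2 + 2 * (c0 * c1) * f1 x + 2 * (c0 * c2) * f2 x
      + 2 * (c0 * c3) * h x + 2 * (c1 * c2) * (f1 x * f2 x)) μ := t7.add s8
  have t9 : Integrable (fun x => c0 ^ 2 * (1 : ℝ) + c1 ^ 2 * f1 x ^ 2 + c2 ^ 2 * f2 x ^ 2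
      + c3 ^ 2 * h x ^ 2 + 2 * (c0 * c1) * f1 x + 2 * (c0 * c2) * f2 x
      + 2 * (c0 * c3) * h x + 2 * (c1 * c2) * (f1 x * f2 x)
      + 2 * (c1 * c3) * (f1 x * h x)) μ := t8.add s9
  have key : ∫ x, (c0 + c1 * f1 x + c2 * f2 x + c3 * h x) ^ 2 ∂μ
      = c0 ^ 2 * (∫ _x, (1 : ℝ) ∂μ) + c1 ^ 2 * (∫ x, f1 x ^ 2 ∂μ) + c2 ^ 2 * (∫ x, f2 x ^ 2 ∂μ)
      + c3 ^ 2 * (∫ x, h x ^ 2 ∂μ)
      + 2 * (c0 * c1) * (∫ x, f1 x ∂μ) + 2 * (c0 * c2) * (∫ x, f2 x ∂μ)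
      + 2 * (c0 * c3) * (∫ x, h x ∂μ)
      + 2 * (c1 * c2) * (∫ x, f1 x * f2 x ∂μ) + 2 * (c1 * c3) * (∫ x, f1 x * h x ∂μ)
      + 2 * (c2 * c3) * (∫ x, f2 x * h x ∂μ) := by
    have e : (fun x => (c0 + c1 * f1 x + c2 * f2 x + c3 * h x) ^ 2)
        = fun x => c0 ^ 2 * (1 : ℝ) + c1 ^ 2 * f1 x ^ 2 + c2 ^ 2 * f2 x ^ 2
      + c3 ^ 2 * h x ^ 2 + 2 * (c0 * c1) * f1 x + 2 * (c0 * c2) * f2 x
      + 2 * (c0 * c3) * h x + 2 * (c1 * c2) * (f1 x * f2 x)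
      + 2 * (c1 * c3) * (f1 x * h x) + 2 * (c2 * c3) * (f2 x * h x) := by
      funext x
      ring
    rw [e, integral_add t9 s10, integral_add t8 s9, integral_add t7 s8, integral_add t6 s7,
      integral_add t5 s6, integral_add t4 s5, integral_add t3 s4, integral_add t2 s3,
      integral_add s1 s2]
    simp only [integral_const_mul]
  rw [← key]
  exact integral_nonneg (fun x => sq_nonneg _)

end Vale.Agent.Lib.P254.TF
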