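import Vale.Agent.Lib.P254.TF.Defs
import Vale.Agent.Lib.P254.Sym.BM2

/-!
# P254 tail-flow route: a corner as the region under its height function

Paper: for a corner `K` and `y` in the base `sec K 0` the fibre `{z | (z, y) ∈ K}` is the
interval `[0, hgt K y]`; it is empty for `y` outside the base.  Fubini (the product
`ℝ × (Fin 2 → ℝ)`, fibre integral inside) gives the three formulas.  `hgt K` is concave on the
base and nonincreasing in each coordinate.
-/

open MeasureTheory Set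

namespace Vale.Agent.Lib.P254.TF

variable {K : Set (Fin 3 → ℝ)}

theorem hgt_nonneg (K : Set (Fin 3 → ℝ)) (y : Fin 2 → ℝ) : 0 ≤ hgt K y :=
  ENNReal.toReal_nonneg

/-- The map `z ↦ (z, y)` is continuous. -/
theorem hg_continuous_cons (y : Fin 2 → ℝ) :
    Continuous (fun z : ℝ => (Fin.cons z y : Fin 3 → ℝ)) :=
  Continuous.finCons continuous_id continuous_const

/-- The height coordinate of a point of a corner is nonnegative. -/
theorem hg_height_nonneg (hK : Corner K) {z : ℝ} {y : Fin 2 → ℝ}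
    (h : (Fin.cons z y : Fin 3 → ℝ) ∈ K) : 0 ≤ z := by
  have h1 := hK.2.2.1 _ h 0
  rw [Fin.cons_zero] at h1
  exact h1

/-- The base coordinates of a point of a corner are nonnegative. -/
theorem hg_base_nonneg (hK : Corner K) {z : ℝ} {y : Fin 2 → ℝ}
    (h : (Fin.cons z y : Fin 3 → ℝ) ∈ K) (i : Fin 2) : 0 ≤ y i := by
  have h1 := hK.2.2.1 _ h i.succ
  rw [Fin.cons_succ] at h1
  exact h1

/-- A corner contains the points below its points. -/
theorem hg_down (hK : Corner K) {z z' : ℝ} {y y' : Fin 2 → ℝ}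
    (h : (Fin.cons z' y' : Fin 3 → ℝ) ∈ K) (hz0 : 0 ≤ z) (hz : z ≤ z')
    (hy0 : ∀ i, 0 ≤ y i) (hy : ∀ i, y i ≤ y' i) : (Fin.cons z y : Fin 3 → ℝ) ∈ K := by
  refine hK.2.2.2 _ h _ ?_ ?_
  · intro i
    refine Fin.cases ?_ ?_ i
    · rw [Fin.cons_zero]
      exact hz0
    · intro j
      rw [Fin.cons_succ]
      exact hy0 j
  · intro i
    refine Fin.cases ?_ ?_ i
    · rw [Fin.cons_zero, Fin.cons_zero]
      exact hz
    · intro j
      rw [Fin.cons_succ, Fin.cons_succ]
      exact hy j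

/-- The fibre over a point of the base is an interval starting at `0`. -/
theorem hg_fibre_Icc (hK : Corner K) {y : Fin 2 → ℝ} (hy : y ∈ sec K 0) :
    ∃ h : ℝ, 0 ≤ h ∧ {z : ℝ | (Fin.cons z y : Fin 3 → ℝ) ∈ K} = Icc 0 h := by
  have hy0 : ∀ i, 0 ≤ y i := hg_base_nonneg hK (mem_sec.1 hy)
  have hclosed : IsClosed {z : ℝ | (Fin.cons z y : Fin 3 → ℝ) ∈ K} :=
    hK.1.isClosed.preimage (hg_continuous_cons y)
  have h0F : (0:ℝ) ∈ {z : ℝ | (Fin.cons z y : Fin 3 → ℝ) ∈ K} := mem_sec.1 hy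
  have hnn : ∀ z ∈ {z : ℝ | (Fin.cons z y : Fin 3 → ℝ) ∈ K}, 0 ≤ z :=
    fun z hz => hg_height_nonneg hK hz
  have hbdd : BddAbove {z : ℝ | (Fin.cons z y : Fin 3 → ℝ) ∈ K} := by
    obtain ⟨r, hr⟩ := hK.1.isBounded.subset_closedBall (0 : Fin 3 → ℝ)
    refine ⟨r, fun z hz => ?_⟩
    have h1 := hr hz
    rw [mem_closedBall_zero_iff] at h1
    have h2 := norm_le_pi_norm (Fin.cons z y : Fin 3 → ℝ) 0
    rw [Fin.cons_zero, Real.norm_eq_abs] at h2
    exact le_trans (le_abs_self z) (le_trans h2 h1)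
  have hsup : sSup {z : ℝ | (Fin.cons z y : Fin 3 → ℝ) ∈ K}
      ∈ {z : ℝ | (Fin.cons z y : Fin 3 → ℝ) ∈ K} := hclosed.csSup_mem ⟨0, h0F⟩ hbdd
  refine ⟨sSup {z : ℝ | (Fin.cons z y : Fin 3 → ℝ) ∈ K}, hnn _ hsup, ?_⟩
  ext z
  constructor
  · intro hz
    exact ⟨hnn z hz, le_csSup hbdd hz⟩
  · intro hz
    exact hg_down hK hsup hz.1 hz.2 hy0 (fun i => le_refl _)

/-- The fibre over a point outside the base is empty. -/
theorem hg_fibre_empty (hK : Corner K) {y : Fin 2 → ℝ} (hy : y ∉ sec K 0) :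
    {z : ℝ | (Fin.cons z y : Fin 3 → ℝ) ∈ K} = ∅ := by
  rw [eq_empty_iff_forall_notMem]
  intro z hz
  apply hy
  rw [mem_sec]
  exact hg_down hK hz (le_refl 0) (hg_height_nonneg hK hz) (hg_base_nonneg hK hz)
    (fun i => le_refl _)

theorem measurable_hgt (hK : Corner K) : Measurable (hgt K) := by
  have hcont : Continuous (fun p : (Fin 2 → ℝ) × ℝ => (Fin.cons p.2 p.1 : Fin 3 → ℝ)) :=
    Continuous.finCons continuous_snd continuous_fst
  have hS : MeasurableSet {p : (Fin 2 → ℝ) × ℝ | (Fin.cons p.2 p.1 : Fin 3 → ℝ) ∈ K} :=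
    (hK.1.isClosed.preimage hcont).measurableSet
  have h := measurable_measure_prodMk_left (ν := (volume : Measure ℝ)) hS
  exact h.ennreal_toReal

theorem hgt_eq_zero (hK : Corner K) {y : Fin 2 → ℝ} (hy : y ∉ sec K 0) : hgt K y = 0 := by
  unfold hgt
  rw [hg_fibre_empty hK hy]
  simp

/-- The fibre over a point of the base is the interval from `0` to the height. -/
theorem fibre_eq (hK : Corner K) {y : Fin 2 → ℝ} (hy : y ∈ sec K 0) :
    {z : ℝ | (Fin.cons z y : Fin 3 → ℝ) ∈ K} = Icc 0 (hgt K y) := by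
  obtain ⟨h, h0, hF⟩ := hg_fibre_Icc hK hy
  have e : hgt K y = h := by
    unfold hgt
    rw [hF, Real.volume_Icc, sub_zero, ENNReal.toReal_ofReal h0]
  rw [e]
  exact hF

/-- The top point of the fibre over a point of the base lies in the corner. -/
theorem hg_top_mem (hK : Corner K) {y : Fin 2 → ℝ} (hy : y ∈ sec K 0) :
    (Fin.cons (hgt K y) y : Fin 3 → ℝ) ∈ K := by
  have h : hgt K y ∈ {z : ℝ | (Fin.cons z y : Fin 3 → ℝ) ∈ K} := by
    rw [fibre_eq hK hy]
    exact ⟨hgt_nonneg K y, le_refl _⟩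
  exact h

theorem hgt_le_top (hK : Corner K) (y : Fin 2 → ℝ) : hgt K y ≤ top K := by
  have hbdd : BddAbove ((fun x : Fin 3 → ℝ => x 0) '' K) :=
    (hK.1.image (continuous_apply 0)).bddAbove
  by_cases hy : y ∈ sec K 0
  · have hmem := hg_top_mem hK hy
    have h1 : hgt K y ∈ (fun x : Fin 3 → ℝ => x 0) '' K :=
      ⟨_, hmem, Fin.cons_zero _ _⟩
    exact le_csSup hbdd h1
  · rw [hgt_eq_zero hK hy]
    unfold top
    by_cases hne : K.Nonempty
    · obtain ⟨x, hx⟩ := hne
      exact le_trans (hK.2.2.1 x hx 0) (le_csSup hbdd ⟨x, hx, rfl⟩)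
    · rw [not_nonempty_iff_eq_empty] at hne
      rw [hne, image_empty, Real.sSup_empty]

theorem hgt_concaveOn (hK : Corner K) : ConcaveOn ℝ (sec K 0) (hgt K) := by
  have hconv : Convex ℝ (sec K 0) := convex_sec hK.2.1 0
  refine ⟨hconv, ?_⟩
  intro y hy y' hy' a b ha hb hab
  have hc := hK.2.1 (hg_top_mem hK hy) (hg_top_mem hK hy') ha hb hab
  have e : a • (Fin.cons (hgt K y) y : Fin 3 → ℝ) + b • (Fin.cons (hgt K y') y' : Fin 3 → ℝ)
      = Fin.cons (a * hgt K y + b * hgt K y') (a • y + b • y') := by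
    funext i
    refine Fin.cases ?_ ?_ i
    · simp
    · intro j
      simp
  rw [e] at hc
  have hyy : a • y + b • y' ∈ sec K 0 := hconv hy hy' ha hb hab
  have h1 : a * hgt K y + b * hgt K y'
      ∈ {z : ℝ | (Fin.cons z (a • y + b • y') : Fin 3 → ℝ) ∈ K} := hc
  rw [fibre_eq hK hyy] at h1
  rw [smul_eq_mul, smul_eq_mul]
  exact h1.2

theorem hgt_anti (hK : Corner K) {y y' : Fin 2 → ℝ} (hy' : y' ∈ sec K 0)
    (h0 : ∀ i, 0 ≤ y i) (hle : ∀ i, y i ≤ y' i) : hgt K y' ≤ hgt K y := by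
  have hmem := hg_top_mem hK hy'
  have h1 : (Fin.cons (hgt K y') y : Fin 3 → ℝ) ∈ K :=
    hg_down hK hmem (hgt_nonneg K y') (le_refl _) h0 hle
  have hy : y ∈ sec K 0 := by
    rw [mem_sec]
    exact hg_down hK hmem (le_refl 0) (hgt_nonneg K y') h0 hle
  have h2 : hgt K y' ∈ {z : ℝ | (Fin.cons z y : Fin 3 → ℝ) ∈ K} := h1
  rw [fibre_eq hK hy] at h2
  exact h2.2

/-- The inverse of the splitting of the coordinate `0` is `Fin.cons`. -/
theorem hg_symm_eq_cons (t : ℝ) (y : Fin 2 → ℝ) :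
    (MeasurableEquiv.piFinSuccAbove (fun _ : Fin 3 => ℝ) 0).symm (t, y) = Fin.cons t y := by
  ext i
  simp [MeasurableEquiv.piFinSuccAbove]

/-- Fubini with the fibre integral inside. -/
theorem integral_fibre (hK : Corner K) (f : (Fin 3 → ℝ) → ℝ) (hf : Continuous f) :
    ∫ x in K, f x = ∫ y in sec K 0, ∫ z in (0:ℝ)..hgt K y, f (Fin.cons z y) := by
  have hS := hK.1.measurableSet
  have he := volume_preserving_piFinSuccAbove (fun _ : Fin 3 => ℝ) 0
  rw [← integral_indicator hS]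
  have h1 : ∫ x, K.indicator f x = ∫ p : ℝ × (Fin 2 → ℝ), K.indicator f
      ((MeasurableEquiv.piFinSuccAbove (fun _ : Fin 3 => ℝ) 0).symm p) :=
    (he.symm.integral_comp
      (MeasurableEquiv.piFinSuccAbove (fun _ : Fin 3 => ℝ) 0).symm.measurableEmbedding
      _).symm
  have hint : Integrable (fun p : ℝ × (Fin 2 → ℝ) => K.indicator f
      ((MeasurableEquiv.piFinSuccAbove (fun _ : Fin 3 => ℝ) 0).symm p))
      ((volume : Measure ℝ).prod (volume : Measure (Fin 2 → ℝ))) := by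
    rw [← Measure.volume_eq_prod]
    exact (he.symm.integrable_comp_emb
      (MeasurableEquiv.piFinSuccAbove (fun _ : Fin 3 => ℝ) 0).symm.measurableEmbedding).2
      ((hf.continuousOn.integrableOn_compact hK.1).integrable_indicator hS)
  rw [h1, Measure.volume_eq_prod, integral_prod_symm _ hint,
    ← integral_indicator (isClosed_sec hK.1.isClosed 0).measurableSet]
  congr 1
  funext y
  have hfib : MeasurableSet {z : ℝ | (Fin.cons z y : Fin 3 → ℝ) ∈ K} :=
    (hK.1.isClosed.preimage (hg_continuous_cons y)).measurableSet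
  have e1 : ∀ t : ℝ, K.indicator f
        ((MeasurableEquiv.piFinSuccAbove (fun _ : Fin 3 => ℝ) 0).symm (t, y))
      = ({z : ℝ | (Fin.cons z y : Fin 3 → ℝ) ∈ K}).indicator
          (fun z => f (Fin.cons z y)) t := by
    intro t
    rw [hg_symm_eq_cons]
    have ht' : t ∈ {z : ℝ | (Fin.cons z y : Fin 3 → ℝ) ∈ K}
        ↔ (Fin.cons t y : Fin 3 → ℝ) ∈ K := Iff.rfl
    by_cases ht : (Fin.cons t y : Fin 3 → ℝ) ∈ K
    · rw [indicator_of_mem ht, indicator_of_mem (ht'.mpr ht)]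
    · rw [indicator_of_notMem ht, indicator_of_notMem (fun h => ht (ht'.mp h))]
  rw [integral_congr_ae (Filter.Eventually.of_forall e1), integral_indicator hfib]
  by_cases hy : y ∈ sec K 0
  · rw [indicator_of_mem hy, fibre_eq hK hy, integral_Icc_eq_integral_Ioc,
      ← intervalIntegral.integral_of_le (hgt_nonneg K y)]
  · rw [indicator_of_notMem hy, hg_fibre_empty hK hy]
    simp

theorem vol_eq_hgt (hK : Corner K) : vol K = ∫ y in sec K 0, hgt K y := by
  have h1 : vol K = ∫ _ in K, (1 : ℝ) := by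
    rw [setIntegral_const, smul_eq_mul, mul_one]
    rfl
  rw [h1, integral_fibre hK (fun _ => (1 : ℝ)) continuous_const]
  refine integral_congr_ae (Filter.Eventually.of_forall (fun y => ?_))
  simp

theorem mom0_eq_hgt (hK : Corner K) : ∫ x in K, x 0 = ∫ y in sec K 0, (hgt K y) ^ 2 / 2 := by
  rw [integral_fibre hK (fun x : Fin 3 → ℝ => x 0) (continuous_apply 0)]
  refine integral_congr_ae (Filter.Eventually.of_forall (fun y => ?_))
  simp only [Fin.cons_zero]
  rw [integral_id]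
  ring

theorem momj_eq_hgt (hK : Corner K) (j : Fin 2) :
    ∫ x in K, x j.succ = ∫ y in sec K 0, y j * hgt K y := by
  rw [integral_fibre hK (fun x : Fin 3 → ℝ => x j.succ) (continuous_apply _)]
  refine integral_congr_ae (Filter.Eventually.of_forall (fun y => ?_))
  simp only [Fin.cons_succ]
  rw [intervalIntegral.integral_const, smul_eq_mul, sub_zero, mul_comm]

end Vale.Agent.Lib.P254.TF
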