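import Mathlib

/-!
# P254 tail-flow route, range lemma: the fibre lemma

Paper (team doc `P254_I2`, entry h16-L1, Step 1).  Ramp identity: for `0 ≤ k < ξ` and
`r s = min 1 ((ξ - s)/(ξ - k))`,
`∫_0^ξ (s - c) r = (ξ - 3c)(ξ + c)/8 + (2k + ξ - 3c)^2/24`.
Case `c ≥ ξ`: `s - c ≤ 0` and `g ≤ g 0`, so the integral is at least
`g 0 * (ξ^2/2 - c ξ) = g 0 * ((ξ - 3c)(ξ + c)/8 + 3 (ξ - c)^2/8)`.
Case `c < ξ`, `g 0 > 0`: `q = g c ≥ g 0 (ξ - c)/ξ > 0`, `k = ξ - g 0 (ξ - c)/q` lies in `[0, c]`,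
and `0 ≤ (s - c) * (g s - g 0 * r s)` on `[0, ξ]`: for `s ≥ c`, `g s ≥ q (ξ - s)/(ξ - c)` (chord from
`c` to `ξ` and `g ξ ≥ 0`); for `k ≤ s ≤ c`, `g s ≤ q (ξ - s)/(ξ - c)` (three-point chord
inequality at `s ≤ c ≤ ξ`); for `s ≤ k`, `g s ≤ g 0`.  Integrate and use the ramp identity.

Here the integral is split at `k`: on `[0, k]` the integrand is compared with `g 0 * (s - c)`,
on `[k, ξ]` with `m * (ξ - s) * (s - c)`, `m = q / (ξ - c)`, `m * (ξ - k) = g 0`.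
-/

open MeasureTheory Set

namespace Vale.Agent.Lib.P254.TF

/-- Three-point chord inequality for a concave function. -/
lemma a1_chord_le {f : ℝ → ℝ} {s : Set ℝ} (hf : ConcaveOn ℝ s f) {x y z : ℝ}
    (hx : x ∈ s) (hz : z ∈ s) (hxy : x ≤ y) (hyz : y ≤ z) :
    (z - y) * f x + (y - x) * f z ≤ (z - x) * f y := by
  rcases eq_or_lt_of_le (hxy.trans hyz) with h | h
  · have hy : y = x := le_antisymm (h ▸ hyz) hxy
    subst hy
    subst h
    simp
  · have hzx : 0 < z - x := sub_pos.mpr h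
    have hne : z - x ≠ 0 := hzx.ne'
    have hsum : (z - y) / (z - x) + (y - x) / (z - x) = 1 := by
      rw [← add_div, div_eq_one_iff_eq hne]; ring
    have key := hf.2 hx hz (div_nonneg (sub_nonneg.mpr hyz) hzx.le)
      (div_nonneg (sub_nonneg.mpr hxy) hzx.le) hsum
    have e : ((z - y) / (z - x)) • x + ((y - x) / (z - x)) • z = y := by
      simp only [smul_eq_mul]
      field_simp
      ring
    rw [e] at key
    simp only [smul_eq_mul] at key
    have h2 := mul_le_mul_of_nonneg_left key hzx.le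
    have e2 : (z - x) * ((z - y) / (z - x) * f x + (y - x) / (z - x) * f z)
        = (z - y) * f x + (y - x) * f z := by
      field_simp
    linarith

/-- Integral of a quadratic polynomial. -/
lemma a1_int_quad (c0 c1 c2 x y : ℝ) :
    ∫ t in x..y, (c0 + c1 * t + c2 * t ^ 2) =
      c0 * (y - x) + c1 * (y ^ 2 - x ^ 2) / 2 + c2 * (y ^ 3 - x ^ 3) / 3 := by
  have hd : ∀ t ∈ Set.uIcc x y,
      HasDerivAt (fun t : ℝ => c0 * t + c1 * t ^ 2 / 2 + c2 * t ^ 3 / 3)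
        (c0 + c1 * t + c2 * t ^ 2) t := by
    intro t _
    have h1 : HasDerivAt (fun t : ℝ => c0 * t) c0 t := by
      simpa using (hasDerivAt_id t).const_mul c0
    have h2 : HasDerivAt (fun t : ℝ => c1 * t ^ 2 / 2) (c1 * t) t := by
      have := ((hasDerivAt_pow 2 t).const_mul c1).div_const 2
      exact this.congr_deriv (by norm_num; ring)
    have h3 : HasDerivAt (fun t : ℝ => c2 * t ^ 3 / 3) (c2 * t ^ 2) t := by
      have := ((hasDerivAt_pow 3 t).const_mul c2).div_const 3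
      exact this.congr_deriv (by norm_num; ring)
    exact (h1.add h2).add h3
  rw [intervalIntegral.integral_eq_sub_of_hasDerivAt hd
    (Continuous.intervalIntegrable (by fun_prop) _ _)]
  ring

/-- The easy case: the integrand dominates `g 0 * (s - c)` on the whole interval. -/
lemma a1_easy (g : ℝ → ℝ) (ξ c : ℝ) (hξ : 0 ≤ ξ) (hg0 : 0 ≤ g 0)
    (hI : IntervalIntegrable (fun s : ℝ => (s - c) * g s) volume 0 ξ)
    (hpt : ∀ s ∈ Icc (0:ℝ) ξ, (s - c) * g 0 ≤ (s - c) * g s) :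
    g 0 * ((ξ - 3 * c) * (ξ + c)) ≤ 8 * ∫ s in (0:ℝ)..ξ, (s - c) * g s := by
  have hcI : IntervalIntegrable (fun s : ℝ => (s - c) * g 0) volume 0 ξ :=
    Continuous.intervalIntegrable (by fun_prop) _ _
  have hmono := intervalIntegral.integral_mono_on hξ hcI hI hpt
  have e : (fun s : ℝ => (s - c) * g 0) = fun s : ℝ => -(c * g 0) + g 0 * s + 0 * s ^ 2 := by
    funext s; ring
  rw [e, a1_int_quad] at hmono
  nlinarith [mul_nonneg hg0 (sq_nonneg (ξ - c))]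

theorem fibre_lemma (g : ℝ → ℝ) (ξ c : ℝ) (hξ : 0 ≤ ξ) (hc : 0 ≤ c)
    (hconc : ConcaveOn ℝ (Icc 0 ξ) g) (hanti : AntitoneOn g (Icc 0 ξ))
    (h0 : ∀ s ∈ Icc 0 ξ, 0 ≤ g s) :
    g 0 * ((ξ - 3 * c) * (ξ + c)) ≤ 8 * ∫ s in (0:ℝ)..ξ, (s - c) * g s := by
  have h0m : (0:ℝ) ∈ Icc 0 ξ := ⟨le_rfl, hξ⟩
  have hξm : ξ ∈ Icc 0 ξ := ⟨hξ, le_rfl⟩
  have hg0 : 0 ≤ g 0 := h0 0 h0m
  have hgξ : 0 ≤ g ξ := h0 ξ hξm
  have hgi : IntervalIntegrable g volume 0 ξ := by
    apply AntitoneOn.intervalIntegrable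
    rwa [uIcc_of_le hξ]
  have hI : IntervalIntegrable (fun s : ℝ => (s - c) * g s) volume 0 ξ :=
    hgi.continuousOn_mul (g := fun s : ℝ => s - c) (by fun_prop)
  have hle0 : ∀ s ∈ Icc (0:ℝ) ξ, g s ≤ g 0 := fun s hs => hanti h0m hs hs.1
  rcases le_or_gt ξ c with hcξ | hcξ
  · refine a1_easy g ξ c hξ hg0 hI (fun s hs => ?_)
    exact mul_le_mul_of_nonpos_left (hle0 s hs) (by linarith [hs.2])
  have hcm : c ∈ Icc 0 ξ := ⟨hc, hcξ.le⟩
  have hξc : 0 < ξ - c := by linarith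
  have hq0 : 0 ≤ g c := h0 c hcm
  have hch0 := a1_chord_le hconc h0m hξm hc hcξ.le
  rcases eq_or_lt_of_le hq0 with hqz | hqpos
  · have hg00 : g 0 = 0 := by
      rw [← hqz] at hch0
      nlinarith [mul_nonneg hc hgξ, mul_nonneg hξc.le hg0]
    refine a1_easy g ξ c hξ hg0 hI (fun s hs => ?_)
    have hgs : g s = 0 := le_antisymm (by rw [← hg00]; exact hle0 s hs) (h0 s hs)
    rw [hgs, hg00]
  obtain ⟨m, hm⟩ : ∃ m : ℝ, m * (ξ - c) = g c := ⟨g c / (ξ - c), by field_simp⟩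
  have hmpos : 0 < m := by
    by_contra hneg
    push Not at hneg
    nlinarith [mul_nonneg (neg_nonneg.mpr hneg) hξc.le]
  obtain ⟨k, hk⟩ : ∃ k : ℝ, m * (ξ - k) = g 0 := ⟨ξ - g 0 / m, by field_simp; ring⟩
  have hqle : g c ≤ g 0 := hle0 c hcm
  have hkc : k ≤ c := by
    have h1 : m * (ξ - c) ≤ m * (ξ - k) := by rw [hm, hk]; exact hqle
    have h2 := le_of_mul_le_mul_left h1 hmpos
    linarith
  have hk0 : 0 ≤ k := by
    have h1 : (ξ - c) * (m * (ξ - k)) ≤ (ξ - c) * (m * ξ) := by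
      rw [hk]
      have e : (ξ - c) * (m * ξ) = ξ * (m * (ξ - c)) := by ring
      rw [e, hm]
      nlinarith [mul_nonneg hc hgξ]
    have h2 := le_of_mul_le_mul_left h1 hξc
    have h3 := le_of_mul_le_mul_left h2 hmpos
    linarith
  have hkξ : k ≤ ξ := by linarith
  have hI1 : IntervalIntegrable (fun s : ℝ => (s - c) * g s) volume 0 k :=
    hI.mono_set (by
      rw [uIcc_of_le hk0, uIcc_of_le hξ]
      exact Icc_subset_Icc le_rfl hkξ)
  have hI2 : IntervalIntegrable (fun s : ℝ => (s - c) * g s) volume k ξ :=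
    hI.mono_set (by
      rw [uIcc_of_le hkξ, uIcc_of_le hξ]
      exact Icc_subset_Icc hk0 le_rfl)
  have hadd := intervalIntegral.integral_add_adjacent_intervals hI1 hI2
  have hp1 : ∀ s ∈ Icc (0:ℝ) k, (s - c) * g 0 ≤ (s - c) * g s := by
    intro s hs
    have hsm : s ∈ Icc 0 ξ := ⟨hs.1, hs.2.trans hkξ⟩
    exact mul_le_mul_of_nonpos_left (hle0 s hsm) (by linarith [hs.2])
  have hp2 : ∀ s ∈ Icc k ξ, (s - c) * (m * (ξ - s)) ≤ (s - c) * g s := by
    intro s hs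
    have hsm : s ∈ Icc 0 ξ := ⟨hk0.trans hs.1, hs.2⟩
    rcases le_total s c with h1 | h1
    · have hch := a1_chord_le hconc hsm hξm h1 hcξ.le
      rw [← hm] at hch
      have h2 : (ξ - c) * g s ≤ (ξ - c) * (m * (ξ - s)) := by
        nlinarith [mul_nonneg (sub_nonneg.mpr h1) hgξ]
      have h3 := le_of_mul_le_mul_left h2 hξc
      exact mul_le_mul_of_nonpos_left h3 (by linarith)
    · have hch := a1_chord_le hconc hcm hξm h1 hs.2
      rw [← hm] at hch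
      have h2 : (ξ - c) * (m * (ξ - s)) ≤ (ξ - c) * g s := by
        nlinarith [mul_nonneg (sub_nonneg.mpr h1) hgξ]
      have h3 := le_of_mul_le_mul_left h2 hξc
      exact mul_le_mul_of_nonneg_left h3 (by linarith)
  have hc1 : IntervalIntegrable (fun s : ℝ => (s - c) * g 0) volume 0 k :=
    Continuous.intervalIntegrable (by fun_prop) _ _
  have hc2 : IntervalIntegrable (fun s : ℝ => (s - c) * (m * (ξ - s))) volume k ξ :=
    Continuous.intervalIntegrable (by fun_prop) _ _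
  have hm1 := intervalIntegral.integral_mono_on hk0 hc1 hI1 hp1
  have hm2 := intervalIntegral.integral_mono_on hkξ hc2 hI2 hp2
  have e1 : (fun s : ℝ => (s - c) * g 0) = fun s : ℝ => -(c * g 0) + g 0 * s + 0 * s ^ 2 := by
    funext s; ring
  have e2 : (fun s : ℝ => (s - c) * (m * (ξ - s)))
      = fun s : ℝ => -(m * c * ξ) + m * (ξ + c) * s + (-m) * s ^ 2 := by
    funext s; ring
  rw [e1, a1_int_quad] at hm1
  rw [e2, a1_int_quad] at hm2
  rw [← hk] at hm1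
  rw [← hk]
  have key : 8 * ((-(c * (m * (ξ - k))) * (k - 0) + m * (ξ - k) * (k ^ 2 - 0 ^ 2) / 2
        + 0 * (k ^ 3 - 0 ^ 3) / 3)
      + (-(m * c * ξ) * (ξ - k) + m * (ξ + c) * (ξ ^ 2 - k ^ 2) / 2
        + (-m) * (ξ ^ 3 - k ^ 3) / 3))
      - m * (ξ - k) * ((ξ - 3 * c) * (ξ + c))
      = m * (ξ - k) * (2 * k + ξ - 3 * c) ^ 2 / 3 := by ring
  have hnn : 0 ≤ m * (ξ - k) * (2 * k + ξ - 3 * c) ^ 2 / 3 :=
    div_nonneg (mul_nonneg (mul_nonneg hmpos.le (by linarith)) (sq_nonneg _)) (by norm_num)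
  linarith

end Vale.Agent.Lib.P254.TF
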