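import Vale.Agent.Lib.P254.TF.LemA2b

/-!
# P254 tail-flow route, range lemma: the outer Chebyshev step

Paper (team doc `P254_I2`, entry h16-L1, Steps 2 and 3).  `I1 = ∫ ξ > 0`, `I2 = ∫ ξ^2`,
`c = 3 I2 / (10 I1) ≥ 0`, `P t = (ξ t - 3c)(ξ t + c)`.  Since `ξ ≥ 0` and `c ≥ 0`, `P t ≥ 0`
exactly when `ξ t ≥ 3c`; `ξ` is nonincreasing, so `P ≥ 0` on an initial segment and `P ≤ 0`
after it.  With `γ` the infimum of `G` on that segment (or any value between the two parts;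
`G` is nonincreasing and `≥ 0`): `0 ≤ (G t - γ) * P t` for all `t`, hence
`∫ G P ≥ γ ∫ P`.  Finally `∫ P = I2 - 2 c I1 - 3 c^2 W` and, by `berwald_sq`
(`3 W I2 ≤ 4 I1^2`), `3 c^2 W = 27 I2^2 W / (100 I1^2) ≤ 9 I2 / 25`, so `∫ P ≥ I2 / 25 ≥ 0`.
-/

open MeasureTheory Set

namespace Vale.Agent.Lib.P254.TF

theorem outer_lemma (ξ G : ℝ → ℝ) (W : ℝ) (hW : 0 ≤ W) (hconc : ConcaveOn ℝ (Icc 0 W) ξ)
    (hanti : AntitoneOn ξ (Icc 0 W)) (h0 : ∀ t ∈ Icc 0 W, 0 ≤ ξ t)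
    (hG : AntitoneOn G (Icc 0 W)) (hG0 : ∀ t ∈ Icc 0 W, 0 ≤ G t) (c : ℝ)
    (hI : 0 < ∫ t in (0:ℝ)..W, ξ t)
    (hc : 10 * (c * ∫ t in (0:ℝ)..W, ξ t) = 3 * ∫ t in (0:ℝ)..W, (ξ t) ^ 2) :
    0 ≤ ∫ t in (0:ℝ)..W, G t * ((ξ t - 3 * c) * (ξ t + c)) := by
  have hu : uIcc 0 W = Icc 0 W := uIcc_of_le hW
  have h0mem : (0 : ℝ) ∈ Icc 0 W := ⟨le_rfl, hW⟩
  have hξi : IntervalIntegrable ξ volume 0 W := by
    apply AntitoneOn.intervalIntegrable
    rw [hu]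
    exact hanti
  have hsq_anti : AntitoneOn (fun t => (ξ t) ^ 2) (Icc 0 W) := by
    intro x hx y hy hxy
    exact pow_le_pow_left₀ (h0 y hy) (hanti hx hy hxy) 2
  have hξ2i : IntervalIntegrable (fun t => (ξ t) ^ 2) volume 0 W := by
    apply AntitoneOn.intervalIntegrable
    rw [hu]
    exact hsq_anti
  have hGi : IntervalIntegrable G volume 0 W := by
    apply AntitoneOn.intervalIntegrable
    rw [hu]
    exact hG
  have hGξ_anti : AntitoneOn (fun t => G t * ξ t) (Icc 0 W) := by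
    intro x hx y hy hxy
    exact mul_le_mul (hG hx hy hxy) (hanti hx hy hxy) (h0 y hy) (hG0 x hx)
  have hGξ2_anti : AntitoneOn (fun t => G t * (ξ t) ^ 2) (Icc 0 W) := by
    intro x hx y hy hxy
    exact mul_le_mul (hG hx hy hxy) (hsq_anti hx hy hxy) (sq_nonneg _) (hG0 x hx)
  have hGξi : IntervalIntegrable (fun t => G t * ξ t) volume 0 W := by
    apply AntitoneOn.intervalIntegrable
    rw [hu]
    exact hGξ_anti
  have hGξ2i : IntervalIntegrable (fun t => G t * (ξ t) ^ 2) volume 0 W := by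
    apply AntitoneOn.intervalIntegrable
    rw [hu]
    exact hGξ2_anti
  obtain ⟨I1, hI1⟩ : ∃ I1 : ℝ, I1 = ∫ t in (0:ℝ)..W, ξ t := ⟨_, rfl⟩
  obtain ⟨I2, hI2⟩ : ∃ I2 : ℝ, I2 = ∫ t in (0:ℝ)..W, (ξ t) ^ 2 := ⟨_, rfl⟩
  rw [← hI1] at hI hc
  rw [← hI2] at hc
  have hI2nn : 0 ≤ I2 := by
    rw [hI2]
    exact intervalIntegral.integral_nonneg hW (fun t _ => sq_nonneg _)
  have hc0 : 0 ≤ c := by
    by_contra h
    push Not at h
    have h1 : c * I1 < 0 := mul_neg_of_neg_of_pos h hI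
    linarith
  have hber : 3 * (W * I2) ≤ 4 * I1 ^ 2 := by
    rw [hI1, hI2]
    exact berwald_sq ξ W hW hconc hanti h0
  -- the integral of the quadratic
  have hPi : IntervalIntegrable (fun t => (ξ t - 3 * c) * (ξ t + c)) volume 0 W := by
    have e : (fun t => (ξ t - 3 * c) * (ξ t + c))
        = fun t => (ξ t) ^ 2 - 2 * c * ξ t - 3 * c ^ 2 := by
      funext t
      ring
    rw [e]
    exact (hξ2i.sub (hξi.const_mul _)).sub intervalIntegrable_const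
  have hP : ∫ t in (0:ℝ)..W, ((ξ t - 3 * c) * (ξ t + c)) = I2 - 2 * c * I1 - 3 * c ^ 2 * W := by
    have e : (fun t => (ξ t - 3 * c) * (ξ t + c))
        = fun t => (ξ t) ^ 2 - 2 * c * ξ t - 3 * c ^ 2 := by
      funext t
      ring
    rw [e, intervalIntegral.integral_sub (hξ2i.sub (hξi.const_mul _)) intervalIntegrable_const,
      intervalIntegral.integral_sub hξ2i (hξi.const_mul _), intervalIntegral.integral_const_mul,
      intervalIntegral.integral_const, ← hI1, ← hI2, smul_eq_mul]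
    ring
  have hPnn : 0 ≤ I2 - 2 * c * I1 - 3 * c ^ 2 * W := by
    have h1 : 0 ≤ 100 * I1 ^ 2 * (I2 - 2 * c * I1 - 3 * c ^ 2 * W) := by
      have e1 : 100 * I1 ^ 2 * (I2 - 2 * c * I1 - 3 * c ^ 2 * W)
          = 100 * I1 ^ 2 * I2 - 20 * I1 ^ 2 * (10 * (c * I1)) - 3 * W * (10 * (c * I1)) ^ 2 := by
        ring
      rw [e1, hc]
      have h2 : 9 * I2 * (3 * (W * I2)) ≤ 9 * I2 * (4 * I1 ^ 2) :=
        mul_le_mul_of_nonneg_left hber (mul_nonneg (by norm_num) hI2nn)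
      have h3 : 0 ≤ I1 ^ 2 * I2 := mul_nonneg (sq_nonneg I1) hI2nn
      nlinarith [h2, h3]
    have h2 : 0 < 100 * I1 ^ 2 := by positivity
    exact nonneg_of_mul_nonneg_right h1 h2
  -- the threshold value of G
  obtain ⟨γ, hγ0, hγ1, hγ2⟩ : ∃ γ : ℝ, 0 ≤ γ ∧ (∀ t ∈ Icc 0 W, 3 * c ≤ ξ t → γ ≤ G t) ∧
      (∀ t ∈ Icc 0 W, ξ t < 3 * c → G t ≤ γ) := by
    by_cases hS : ∃ s ∈ Icc 0 W, 3 * c ≤ ξ s
    · obtain ⟨s₀, hs₀, hs₀'⟩ := hS
      obtain ⟨S, hSdef⟩ : ∃ S : Set ℝ, S = {s ∈ Icc 0 W | 3 * c ≤ ξ s} := ⟨_, rfl⟩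
      have hSmem : ∀ s, s ∈ S ↔ s ∈ Icc 0 W ∧ 3 * c ≤ ξ s := by
        intro s
        rw [hSdef]
        exact Iff.rfl
      have hbdd : BddBelow (G '' S) := by
        refine ⟨0, ?_⟩
        rintro _ ⟨s, hs, rfl⟩
        exact hG0 s ((hSmem s).1 hs).1
      have hne : (G '' S).Nonempty := ⟨G s₀, s₀, (hSmem s₀).2 ⟨hs₀, hs₀'⟩, rfl⟩
      refine ⟨sInf (G '' S), le_csInf hne ?_, ?_, ?_⟩
      · rintro _ ⟨s, hs, rfl⟩
        exact hG0 s ((hSmem s).1 hs).1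
      · intro t ht h3
        exact csInf_le hbdd ⟨t, (hSmem t).2 ⟨ht, h3⟩, rfl⟩
      · intro t ht h3
        apply le_csInf hne
        rintro _ ⟨s, hs, rfl⟩
        have hs' := (hSmem s).1 hs
        have hst : s ≤ t := by
          by_contra hcon
          push Not at hcon
          have h4 := hanti ht hs'.1 hcon.le
          linarith [hs'.2]
        exact hG hs'.1 ht hst
    · push Not at hS
      refine ⟨G 0, hG0 0 h0mem, ?_, ?_⟩
      · intro t ht h3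
        exact absurd h3 (not_le.2 (hS t ht))
      · intro t ht _
        exact hG h0mem ht ht.1
  have hpt : ∀ t ∈ Icc 0 W, 0 ≤ (G t - γ) * ((ξ t - 3 * c) * (ξ t + c)) := by
    intro t ht
    rcases le_or_gt (3 * c) (ξ t) with h3 | h3
    · exact mul_nonneg (sub_nonneg.2 (hγ1 t ht h3))
        (mul_nonneg (sub_nonneg.2 h3) (add_nonneg (h0 t ht) hc0))
    · exact mul_nonneg_of_nonpos_of_nonpos (sub_nonpos.2 (hγ2 t ht h3))
        (mul_nonpos_of_nonpos_of_nonneg (sub_nonpos.2 h3.le) (add_nonneg (h0 t ht) hc0))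
  have hGPi : IntervalIntegrable (fun t => G t * ((ξ t - 3 * c) * (ξ t + c))) volume 0 W := by
    have e : (fun t => G t * ((ξ t - 3 * c) * (ξ t + c)))
        = fun t => G t * (ξ t) ^ 2 - 2 * c * (G t * ξ t) - 3 * c ^ 2 * G t := by
      funext t
      ring
    rw [e]
    exact (hGξ2i.sub (hGξi.const_mul _)).sub (hGi.const_mul _)
  have hint : 0 ≤ ∫ t in (0:ℝ)..W, (G t - γ) * ((ξ t - 3 * c) * (ξ t + c)) :=
    intervalIntegral.integral_nonneg hW hpt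
  have hsplit : ∫ t in (0:ℝ)..W, (G t - γ) * ((ξ t - 3 * c) * (ξ t + c))
      = (∫ t in (0:ℝ)..W, G t * ((ξ t - 3 * c) * (ξ t + c)))
        - γ * ∫ t in (0:ℝ)..W, ((ξ t - 3 * c) * (ξ t + c)) := by
    rw [← intervalIntegral.integral_const_mul, ← intervalIntegral.integral_sub hGPi
      (hPi.const_mul _)]
    congr 1
    funext t
    ring
  rw [hsplit, hP] at hint
  nlinarith [mul_nonneg hγ0 hPnn]

end Vale.Agent.Lib.P254.TF
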