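import Mathlib
import Vale.Agent.Lib.P254.TF.Berw1D

/-!
# P254 tail-flow route, range lemma: one-dimensional Berwald inequality for the square

Paper: `I = ∫_0^W ξ`; `l t = (2 I / W) (1 - t/W)` is linear with `l W = 0` and `∫ l = I`.
`D = ξ - l` is concave on `[0, W]` with `D W ≥ 0` and `∫ D = 0`, so `D ≤ 0` on `[0, s]` and
`D ≥ 0` on `[s, W]` for some `s`.  `ξ + l` is nonincreasing, hence
`D t * (ξ t + l t) ≤ D t * (ξ s + l s)` for all `t`, and
`∫ ξ^2 - ∫ l^2 = ∫ D (ξ + l) ≤ 0`; `∫ l^2 = 4 I^2 / (3 W)`.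
-/

open MeasureTheory Set

namespace Vale.Agent.Lib.P254.TF

/-- One crossing with a nonincreasing affine function: the pointwise estimate
`ξ^2 - l^2 ≤ c * (ξ - l)` on `[0, W]`, where `l t = a - b * t` with `b ≥ 0` and `ξ W ≥ l W`. -/
theorem ab_cross (ξ : ℝ → ℝ) (W a b : ℝ) (hW : 0 < W) (hconc : ConcaveOn ℝ (Icc 0 W) ξ)
    (hanti : AntitoneOn ξ (Icc 0 W)) (hb : 0 ≤ b) (hend : 0 ≤ ξ W - (a - b * W)) :
    ∃ c : ℝ, ∀ t ∈ Icc 0 W, (ξ t) ^ 2 - (a - b * t) ^ 2 ≤ c * (ξ t - (a - b * t)) := by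
  have hWmem : W ∈ Icc 0 W := ⟨hW.le, le_rfl⟩
  obtain ⟨S, hS⟩ : ∃ S : Set ℝ, S = {u ∈ Icc 0 W | 0 ≤ ξ u - (a - b * u)} := ⟨_, rfl⟩
  have hWS : W ∈ S := by rw [hS]; exact ⟨hWmem, hend⟩
  have hbdd : BddBelow S := ⟨0, fun u hu => by rw [hS] at hu; exact hu.1.1⟩
  have hs0 : 0 ≤ sInf S := le_csInf ⟨W, hWS⟩ (fun u hu => by rw [hS] at hu; exact hu.1.1)
  have hsW : sInf S ≤ W := csInf_le hbdd hWS
  have hsmem : sInf S ∈ Icc 0 W := ⟨hs0, hsW⟩
  refine ⟨ξ (sInf S) + (a - b * sInf S), ?_⟩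
  intro t ht
  rcases lt_trichotomy t (sInf S) with hlt | heq | hgt
  · have hneg : ξ t - (a - b * t) < 0 := by
      by_contra hcon
      have hmem : t ∈ S := by rw [hS]; exact ⟨ht, not_lt.1 hcon⟩
      exact absurd (csInf_le hbdd hmem) (not_le.2 hlt)
    have hg : ξ (sInf S) ≤ ξ t := hanti ht hsmem hlt.le
    have hb' : b * t ≤ b * sInf S := mul_le_mul_of_nonneg_left hlt.le hb
    have hgg : ξ (sInf S) + (a - b * sInf S) - (ξ t + (a - b * t)) ≤ 0 := by linarith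
    have hprod := mul_nonneg_of_nonpos_of_nonpos hneg.le hgg
    nlinarith [hprod]
  · rw [heq]
    exact le_of_eq (by ring)
  · obtain ⟨u, huS, hut⟩ := exists_lt_of_csInf_lt ⟨W, hWS⟩ hgt
    have huS' : u ∈ Icc 0 W ∧ 0 ≤ ξ u - (a - b * u) := by rw [hS] at huS; exact huS
    have hchord := bw_chord_le hconc huS'.1 hWmem hut.le ht.2
    have hpos : 0 ≤ ξ t - (a - b * t) := by
      have hWu : 0 < W - u := by linarith [ht.2]
      have h1 : 0 ≤ (W - t) * (ξ u - (a - b * u)) := mul_nonneg (by linarith [ht.2]) huS'.2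
      have h2 : 0 ≤ (t - u) * (ξ W - (a - b * W)) := mul_nonneg (by linarith) hend
      have h3 : 0 ≤ (W - u) * (ξ t - (a - b * t)) := by nlinarith [h1, h2, hchord]
      exact nonneg_of_mul_nonneg_right h3 hWu
    have hg : ξ t ≤ ξ (sInf S) := hanti hsmem ht hgt.le
    have hb' : b * sInf S ≤ b * t := mul_le_mul_of_nonneg_left hgt.le hb
    have hgg : 0 ≤ ξ (sInf S) + (a - b * sInf S) - (ξ t + (a - b * t)) := by linarith
    have hprod := mul_nonneg hpos hgg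
    nlinarith [hprod]

theorem berwald_sq (ξ : ℝ → ℝ) (W : ℝ) (hW : 0 ≤ W) (hconc : ConcaveOn ℝ (Icc 0 W) ξ)
    (hanti : AntitoneOn ξ (Icc 0 W)) (h0 : ∀ t ∈ Icc 0 W, 0 ≤ ξ t) :
    3 * (W * ∫ t in (0:ℝ)..W, (ξ t) ^ 2) ≤ 4 * (∫ t in (0:ℝ)..W, ξ t) ^ 2 := by
  rcases eq_or_lt_of_le hW with hW0 | hWpos
  · rw [← hW0]; simp
  have hWmem : W ∈ Icc 0 W := ⟨hW, le_rfl⟩
  have hu : uIcc 0 W = Icc 0 W := uIcc_of_le hW
  have hξi : IntervalIntegrable ξ volume 0 W := by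
    apply AntitoneOn.intervalIntegrable
    rw [hu]; exact hanti
  have hsq_anti : AntitoneOn (fun t => (ξ t) ^ 2) (Icc 0 W) := by
    intro x hx y hy hxy
    exact pow_le_pow_left₀ (h0 y hy) (hanti hx hy hxy) 2
  have hξ2i : IntervalIntegrable (fun t => (ξ t) ^ 2) volume 0 W := by
    apply AntitoneOn.intervalIntegrable
    rw [hu]; exact hsq_anti
  obtain ⟨I, hI⟩ : ∃ I : ℝ, I = ∫ t in (0:ℝ)..W, ξ t := ⟨_, rfl⟩
  have hI0 : 0 ≤ I := by
    rw [hI]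
    apply intervalIntegral.integral_nonneg hW
    intro t ht; exact h0 t ht
  obtain ⟨a, ha⟩ : ∃ a : ℝ, a = 2 * I / W := ⟨_, rfl⟩
  obtain ⟨b, hb⟩ : ∃ b : ℝ, b = a / W := ⟨_, rfl⟩
  have ha0 : 0 ≤ a := by rw [ha]; positivity
  have hb0 : 0 ≤ b := by rw [hb]; positivity
  have hbW : b * W = a := by rw [hb]; field_simp
  have haW : a * W = 2 * I := by rw [ha]; field_simp
  have hend : 0 ≤ ξ W - (a - b * W) := by
    rw [hbW]; simpa using h0 W hWmem
  obtain ⟨c, hc⟩ := ab_cross ξ W a b hWpos hconc hanti hb0 hend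
  have hl : ∫ t in (0:ℝ)..W, (a - b * t) = I := by
    have e : (fun t : ℝ => a - b * t)
        = fun t : ℝ => a + (-b) * t + 0 * t ^ 2 + 0 * t ^ 3 + 0 * t ^ 4 := by
      funext t; ring
    rw [e, bw_int_quartic]
    linear_combination (1 / 2) * haW - (W / 2) * hbW
  have hl2 : ∫ t in (0:ℝ)..W, (a - b * t) ^ 2 = a ^ 2 * W / 3 := by
    have e : (fun t : ℝ => (a - b * t) ^ 2)
        = fun t : ℝ => a ^ 2 + (-(2 * a * b)) * t + b ^ 2 * t ^ 2 + 0 * t ^ 3 + 0 * t ^ 4 := by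
      funext t; ring
    rw [e, bw_int_quartic]
    linear_combination (-(a * W) + (W / 3) * (b * W + a)) * hbW
  have hli : IntervalIntegrable (fun t : ℝ => a - b * t) volume 0 W :=
    Continuous.intervalIntegrable (by fun_prop) _ _
  have hl2i : IntervalIntegrable (fun t : ℝ => (a - b * t) ^ 2) volume 0 W :=
    Continuous.intervalIntegrable (by fun_prop) _ _
  have hmono : ∫ t in (0:ℝ)..W, ((ξ t) ^ 2 - (a - b * t) ^ 2)
      ≤ ∫ t in (0:ℝ)..W, c * (ξ t - (a - b * t)) := by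
    apply intervalIntegral.integral_mono_on hW (hξ2i.sub hl2i) ((hξi.sub hli).const_mul c)
    intro t ht; exact hc t ht
  rw [intervalIntegral.integral_sub hξ2i hl2i, intervalIntegral.integral_const_mul,
    intervalIntegral.integral_sub hξi hli, hl, hl2, ← hI, sub_self, mul_zero] at hmono
  rw [← hI]
  have h4 : (a * W) ^ 2 = 4 * I ^ 2 := by rw [haW]; ring
  have h5 := mul_le_mul_of_nonneg_left (sub_nonpos.1 hmono) (by positivity : (0:ℝ) ≤ 3 * W)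
  nlinarith [h5, h4]

end Vale.Agent.Lib.P254.TF
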