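import Vale.Agent.Lib.P254.TF.Defs

/-!
# P254 tail-flow route: a planar corner as the region under its profile

Paper: a planar corner `F` is `{(s, r) : 0 ≤ s ≤ wid F, 0 ≤ r ≤ prof F s}`; the fibre over `s`
is the interval from `0` to `prof F s` (empty for `s` outside `[0, wid F]`); `prof F` is
concave (convexity of `F`) and nonincreasing (down-closedness) on `[0, wid F]`.  Fubini on the
product `ℝ × ℝ` (the plane `Fin 2 → ℝ` is measure-equivalent to it).  The swap of the two
coordinates preserves Lebesgue measure and maps corners to corners.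
Templates: `Sym/Base2a.lean` (sections of planar sets), `Sym/Berwald3.lean` (swaps).
-/

open MeasureTheory Set

namespace Vale.Agent.Lib.P254.TF

/-- The length of the fibre of the planar set `F` over `s`. -/
noncomputable def prof (F : Set (Fin 2 → ℝ)) (s : ℝ) : ℝ :=
  (volume {r : ℝ | (![s, r] : Fin 2 → ℝ) ∈ F}).toReal

/-- The width of the planar set `F` in the first coordinate (zero for the empty set). -/
noncomputable def wid (F : Set (Fin 2 → ℝ)) : ℝ :=
  sSup ((fun y : Fin 2 → ℝ => y 0) '' F)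

/-- The planar set `F` with its two coordinates exchanged. -/
def swap2 (F : Set (Fin 2 → ℝ)) : Set (Fin 2 → ℝ) :=
  {y | (![y 1, y 0] : Fin 2 → ℝ) ∈ F}

variable {F : Set (Fin 2 → ℝ)}

theorem prof_nonneg (F : Set (Fin 2 → ℝ)) (s : ℝ) : 0 ≤ prof F s :=
  ENNReal.toReal_nonneg

theorem pp_wid_empty : wid (∅ : Set (Fin 2 → ℝ)) = 0 := by
  simp [wid]

theorem pp_prof_empty (s : ℝ) : prof (∅ : Set (Fin 2 → ℝ)) s = 0 := by
  simp [prof]

theorem pp_wid_mem (hF : Corner F) (hne : F.Nonempty) : ∃ p ∈ F, p 0 = wid F := by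
  have h := (hF.1.image (continuous_apply 0)).sSup_mem (hne.image _)
  obtain ⟨p, hp, hp0⟩ := h
  exact ⟨p, hp, hp0⟩

theorem pp_le_wid (hF : Corner F) {y : Fin 2 → ℝ} (hy : y ∈ F) : y 0 ≤ wid F :=
  le_csSup (hF.1.image (continuous_apply 0)).bddAbove (mem_image_of_mem _ hy)

theorem wid_nonneg (hF : Corner F) : 0 ≤ wid F := by
  rcases F.eq_empty_or_nonempty with hemp | hne
  · subst hemp
    rw [pp_wid_empty]
  · obtain ⟨y, hy⟩ := hne
    exact (hF.2.2.1 y hy 0).trans (pp_le_wid hF hy)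

theorem pp_base_mem (hF : Corner F) (hne : F.Nonempty) {s : ℝ} (hs : s ∈ Icc 0 (wid F)) :
    (![s, 0] : Fin 2 → ℝ) ∈ F := by
  obtain ⟨p, hp, hp0⟩ := pp_wid_mem hF hne
  refine hF.2.2.2 p hp _ (Fin.forall_fin_two.2 ⟨hs.1, le_refl _⟩) (Fin.forall_fin_two.2 ⟨?_, ?_⟩)
  · exact hs.2.trans_eq hp0.symm
  · exact hF.2.2.1 p hp 1

theorem pp_cont_cons (s : ℝ) : Continuous fun r : ℝ => (![s, r] : Fin 2 → ℝ) :=
  continuous_pi (Fin.forall_fin_two.2 ⟨continuous_const, continuous_id⟩)

theorem pp_fib_eq (hF : Corner F) (hne : F.Nonempty) {s : ℝ} (hs : s ∈ Icc 0 (wid F)) :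
    {r : ℝ | (![s, r] : Fin 2 → ℝ) ∈ F} = Icc 0 (prof F s) := by
  set A : Set ℝ := {r : ℝ | (![s, r] : Fin 2 → ℝ) ∈ F} with hA
  have hAcl : IsClosed A := hF.1.isClosed.preimage (pp_cont_cons s)
  have hsub : A ⊆ (fun y : Fin 2 → ℝ => y 1) '' F := fun r hr => ⟨![s, r], hr, rfl⟩
  have hAc : IsCompact A := (hF.1.image (continuous_apply 1)).of_isClosed_subset hAcl hsub
  have h0 : (0:ℝ) ∈ A := pp_base_mem hF hne hs
  have hc : sSup A ∈ A := hAc.sSup_mem ⟨0, h0⟩
  have hle : ∀ r ∈ A, r ≤ sSup A := fun r hr => le_csSup hAc.bddAbove hr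
  have hge : ∀ r ∈ A, 0 ≤ r := fun r hr => hF.2.2.1 _ hr 1
  have hIcc : A = Icc 0 (sSup A) := by
    ext r
    constructor
    · intro hr
      exact ⟨hge r hr, hle r hr⟩
    · intro hr
      exact hF.2.2.2 _ hc _ (Fin.forall_fin_two.2 ⟨hs.1, hr.1⟩)
        (Fin.forall_fin_two.2 ⟨le_refl s, hr.2⟩)
  have hprof : prof F s = sSup A := by
    have h1 : prof F s = (volume A).toReal := rfl
    rw [h1, hIcc, Real.volume_Icc, ENNReal.toReal_ofReal (by linarith [hge _ hc]), sub_zero]
    rw [← hIcc]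
  rw [hprof]
  exact hIcc

theorem pp_fib_empty (hF : Corner F) {s : ℝ} (hs : s ∉ Icc 0 (wid F)) (r : ℝ) :
    (![s, r] : Fin 2 → ℝ) ∉ F := by
  intro h
  exact hs ⟨hF.2.2.1 _ h 0, pp_le_wid hF h⟩

theorem pp_top_mem (hF : Corner F) (hne : F.Nonempty) {s : ℝ} (hs : s ∈ Icc 0 (wid F)) :
    (![s, prof F s] : Fin 2 → ℝ) ∈ F := by
  have h : prof F s ∈ {r : ℝ | (![s, r] : Fin 2 → ℝ) ∈ F} := by
    rw [pp_fib_eq hF hne hs]
    exact right_mem_Icc.2 (prof_nonneg F s)
  exact h

theorem pp_le_prof (hF : Corner F) (hne : F.Nonempty) {s : ℝ} (hs : s ∈ Icc 0 (wid F)) {r : ℝ}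
    (hr : (![s, r] : Fin 2 → ℝ) ∈ F) : r ≤ prof F s := by
  have h : r ∈ {r : ℝ | (![s, r] : Fin 2 → ℝ) ∈ F} := hr
  rw [pp_fib_eq hF hne hs] at h
  exact h.2

theorem prof_concaveOn (hF : Corner F) : ConcaveOn ℝ (Icc 0 (wid F)) (prof F) := by
  rcases F.eq_empty_or_nonempty with hemp | hne
  · subst hemp
    have h0 : prof (∅ : Set (Fin 2 → ℝ)) = fun _ => (0:ℝ) := funext pp_prof_empty
    rw [h0]
    exact concaveOn_const 0 (convex_Icc _ _)
  · refine ⟨convex_Icc _ _, ?_⟩
    intro s hs s' hs' a b ha hb hab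
    have hmem := hF.2.1 (pp_top_mem hF hne hs) (pp_top_mem hF hne hs') ha hb hab
    have heq : a • (![s, prof F s] : Fin 2 → ℝ) + b • (![s', prof F s'] : Fin 2 → ℝ) =
        ![a • s + b • s', a • prof F s + b • prof F s'] := by
      funext i
      fin_cases i <;> simp
    rw [heq] at hmem
    exact pp_le_prof hF hne (convex_Icc _ _ hs hs' ha hb hab) hmem

theorem prof_antitoneOn (hF : Corner F) : AntitoneOn (prof F) (Icc 0 (wid F)) := by
  rcases F.eq_empty_or_nonempty with hemp | hne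
  · subst hemp
    intro s _ s' _ _
    rw [pp_prof_empty, pp_prof_empty]
  · intro s hs s' hs' hss'
    have h1 := pp_top_mem hF hne hs'
    have h2 : (![s, prof F s'] : Fin 2 → ℝ) ∈ F :=
      hF.2.2.2 _ h1 _ (Fin.forall_fin_two.2 ⟨hs.1, prof_nonneg F s'⟩)
        (Fin.forall_fin_two.2 ⟨hss', le_refl _⟩)
    exact pp_le_prof hF hne hs h2

theorem pp_symm_apply (s r : ℝ) :
    ((MeasurableEquiv.finTwoArrow (α := ℝ)).symm (s, r) : Fin 2 → ℝ) = ![s, r] := by
  funext i
  fin_cases i <;> rfl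

/-- Fubini on the plane for the indicator of a measurable set. -/
theorem pp_fubini_raw (hFm : MeasurableSet F) (g : (Fin 2 → ℝ) → ℝ) (hg : IntegrableOn g F) :
    ∫ y in F, g y = ∫ s : ℝ, ∫ r : ℝ, F.indicator g ![s, r] := by
  have hmp := (volume_preserving_finTwoArrow ℝ).symm
  rw [← integral_indicator hFm]
  have h1 : ∫ y, F.indicator g y =
      ∫ p : ℝ × ℝ, F.indicator g ((MeasurableEquiv.finTwoArrow (α := ℝ)).symm p) :=
    (hmp.integral_comp' (F.indicator g)).symm
  rw [h1]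
  have hint : Integrable
      (fun p : ℝ × ℝ => F.indicator g ((MeasurableEquiv.finTwoArrow (α := ℝ)).symm p))
      ((volume : Measure ℝ).prod (volume : Measure ℝ)) := by
    have h2 : Integrable (F.indicator g) volume := (integrable_indicator_iff hFm).2 hg
    exact (hmp.integrable_comp_emb (MeasurableEquiv.measurableEmbedding _)).2 h2
  have h3 := integral_prod _ hint
  rw [show (volume : Measure (ℝ × ℝ)) = (volume : Measure ℝ).prod (volume : Measure ℝ) from rfl,
    h3]
  refine integral_congr_ae (Filter.Eventually.of_forall fun s => ?_)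
  refine integral_congr_ae (Filter.Eventually.of_forall fun r => ?_)
  show F.indicator g ((MeasurableEquiv.finTwoArrow (α := ℝ)).symm (s, r)) = _
  rw [pp_symm_apply]

/-- Fubini for a planar corner, the fibre integral inside. -/
theorem planar_fubini (hF : Corner F) (g : (Fin 2 → ℝ) → ℝ) (hg : IntegrableOn g F) :
    ∫ y in F, g y = ∫ s in (0:ℝ)..wid F, ∫ r in (0:ℝ)..prof F s, g ![s, r] := by
  rcases F.eq_empty_or_nonempty with hemp | hne
  · subst hemp
    rw [pp_wid_empty]
    simp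
  · rw [pp_fubini_raw hF.1.measurableSet g hg]
    have hpt : ∀ s : ℝ, ∫ r : ℝ, F.indicator g ![s, r] =
        (Icc 0 (wid F)).indicator (fun s => ∫ r in (0:ℝ)..prof F s, g ![s, r]) s := by
      intro s
      by_cases hs : s ∈ Icc 0 (wid F)
      · rw [indicator_of_mem hs]
        have hAm : MeasurableSet {r : ℝ | (![s, r] : Fin 2 → ℝ) ∈ F} :=
          (hF.1.isClosed.preimage (pp_cont_cons s)).measurableSet
        have h1 : (fun r : ℝ => F.indicator g ![s, r]) =
            {r : ℝ | (![s, r] : Fin 2 → ℝ) ∈ F}.indicator (fun r => g ![s, r]) := by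
          funext r
          by_cases hr : (![s, r] : Fin 2 → ℝ) ∈ F
          · rw [indicator_of_mem hr,
              indicator_of_mem (show r ∈ {r : ℝ | (![s, r] : Fin 2 → ℝ) ∈ F} from hr)]
          · rw [indicator_of_notMem hr,
              indicator_of_notMem (show r ∉ {r : ℝ | (![s, r] : Fin 2 → ℝ) ∈ F} from hr)]
        rw [h1, integral_indicator hAm, pp_fib_eq hF hne hs, integral_Icc_eq_integral_Ioc,
          ← intervalIntegral.integral_of_le (prof_nonneg F s)]
      · rw [indicator_of_notMem hs]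
        have h1 : (fun r : ℝ => F.indicator g ![s, r]) = fun _ => (0:ℝ) := by
          funext r
          exact indicator_of_notMem (pp_fib_empty hF hs r) _
        rw [h1, integral_zero]
    rw [show (fun s : ℝ => ∫ r : ℝ, F.indicator g ![s, r]) =
        (Icc 0 (wid F)).indicator (fun s => ∫ r in (0:ℝ)..prof F s, g ![s, r]) from funext hpt,
      integral_indicator measurableSet_Icc, integral_Icc_eq_integral_Ioc,
      ← intervalIntegral.integral_of_le (wid_nonneg hF)]

theorem planar_vol (hF : Corner F) : vol F = ∫ s in (0:ℝ)..wid F, prof F s := by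
  have hg : IntegrableOn (fun _ : Fin 2 → ℝ => (1:ℝ)) F :=
    continuousOn_const.integrableOn_compact hF.1
  have h := planar_fubini hF (fun _ => (1:ℝ)) hg
  have h1 : ∫ _y in F, (1:ℝ) = vol F := by
    rw [setIntegral_const, smul_eq_mul, mul_one]
    rfl
  rw [h1] at h
  rw [h]
  refine intervalIntegral.integral_congr (fun s _ => ?_)
  simp

theorem planar_m0 (hF : Corner F) : ∫ y in F, y 0 = ∫ s in (0:ℝ)..wid F, s * prof F s := by
  have hg : IntegrableOn (fun y : Fin 2 → ℝ => y 0) F :=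
    (continuous_apply 0).continuousOn.integrableOn_compact hF.1
  rw [planar_fubini hF (fun y => y 0) hg]
  refine intervalIntegral.integral_congr (fun s _ => ?_)
  simp [mul_comm]

theorem planar_m1 (hF : Corner F) :
    ∫ y in F, y 1 = ∫ s in (0:ℝ)..wid F, (prof F s) ^ 2 / 2 := by
  have hg : IntegrableOn (fun y : Fin 2 → ℝ => y 1) F :=
    (continuous_apply 1).continuousOn.integrableOn_compact hF.1
  rw [planar_fubini hF (fun y => y 1) hg]
  refine intervalIntegral.integral_congr (fun s _ => ?_)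
  simp

theorem planar_m00 (hF : Corner F) :
    ∫ y in F, (y 0) ^ 2 = ∫ s in (0:ℝ)..wid F, s ^ 2 * prof F s := by
  have hg : IntegrableOn (fun y : Fin 2 → ℝ => (y 0) ^ 2) F :=
    ((continuous_apply 0).pow 2).continuousOn.integrableOn_compact hF.1
  rw [planar_fubini hF (fun y => (y 0) ^ 2) hg]
  refine intervalIntegral.integral_congr (fun s _ => ?_)
  simp [mul_comm]

theorem planar_m01 (hF : Corner F) :
    ∫ y in F, y 0 * y 1 = ∫ s in (0:ℝ)..wid F, s * (prof F s) ^ 2 / 2 := by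
  have hg : IntegrableOn (fun y : Fin 2 → ℝ => y 0 * y 1) F :=
    ((continuous_apply 0).mul (continuous_apply 1)).continuousOn.integrableOn_compact hF.1
  rw [planar_fubini hF (fun y => y 0 * y 1) hg]
  refine intervalIntegral.integral_congr (fun s _ => ?_)
  have h1 : ∫ r in (0:ℝ)..prof F s, (![s, r] : Fin 2 → ℝ) 0 * (![s, r] : Fin 2 → ℝ) 1 =
      ∫ r in (0:ℝ)..prof F s, s * r := rfl
  show ∫ r in (0:ℝ)..prof F s, (![s, r] : Fin 2 → ℝ) 0 * (![s, r] : Fin 2 → ℝ) 1 = _
  rw [h1, intervalIntegral.integral_const_mul, integral_id]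
  ring

/-- The exchange of the two coordinates of the plane, as a measurable equivalence. -/
noncomputable def pp_swapEquiv : (Fin 2 → ℝ) ≃ᵐ (Fin 2 → ℝ) :=
  (MeasurableEquiv.finTwoArrow (α := ℝ)).trans
    (MeasurableEquiv.prodComm.trans (MeasurableEquiv.finTwoArrow (α := ℝ)).symm)

theorem pp_swapEquiv_apply (y : Fin 2 → ℝ) : pp_swapEquiv y = ![y 1, y 0] := by
  funext i
  fin_cases i <;> rfl

theorem pp_swapEquiv_mp : MeasurePreserving pp_swapEquiv volume volume := by
  have h1 := volume_preserving_finTwoArrow ℝ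
  have h2 : MeasurePreserving (MeasurableEquiv.prodComm : ℝ × ℝ ≃ᵐ ℝ × ℝ) volume volume :=
    Measure.measurePreserving_swap
  exact (h1.symm.comp h2).comp h1

theorem pp_swap_swap (y : Fin 2 → ℝ) :
    (![(![y 1, y 0] : Fin 2 → ℝ) 1, (![y 1, y 0] : Fin 2 → ℝ) 0] : Fin 2 → ℝ) = y := by
  funext i
  fin_cases i <;> rfl

theorem pp_swap2_eq_preimage (F : Set (Fin 2 → ℝ)) : swap2 F = pp_swapEquiv ⁻¹' F := by
  ext y
  rw [mem_preimage, pp_swapEquiv_apply]
  rfl

theorem corner_swap2 (hF : Corner F) : Corner (swap2 F) := by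
  have hcont : Continuous fun y : Fin 2 → ℝ => (![y 1, y 0] : Fin 2 → ℝ) :=
    continuous_pi (Fin.forall_fin_two.2 ⟨continuous_apply 1, continuous_apply 0⟩)
  have himg : swap2 F = (fun y : Fin 2 → ℝ => (![y 1, y 0] : Fin 2 → ℝ)) '' F := by
    ext y
    constructor
    · intro hy
      exact ⟨![y 1, y 0], hy, pp_swap_swap y⟩
    · rintro ⟨z, hz, rfl⟩
      show (![(![z 1, z 0] : Fin 2 → ℝ) 1, (![z 1, z 0] : Fin 2 → ℝ) 0] : Fin 2 → ℝ) ∈ F
      rw [pp_swap_swap]
      exact hz
  refine ⟨?_, ?_, ?_, ?_⟩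
  · rw [himg]
    exact hF.1.image hcont
  · intro x hx y hy a b ha hb hab
    have h := hF.2.1 hx hy ha hb hab
    have heq : a • (![x 1, x 0] : Fin 2 → ℝ) + b • (![y 1, y 0] : Fin 2 → ℝ) =
        ![(a • x + b • y) 1, (a • x + b • y) 0] := by
      funext i
      fin_cases i <;> simp
    rw [heq] at h
    exact h
  · intro x hx i
    have h := hF.2.2.1 _ hx
    fin_cases i
    · exact h 1
    · exact h 0
  · intro x hx y hy0 hyx
    exact hF.2.2.2 _ hx _ (Fin.forall_fin_two.2 ⟨hy0 1, hy0 0⟩)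
      (Fin.forall_fin_two.2 ⟨hyx 1, hyx 0⟩)

theorem integral_swap2 (F : Set (Fin 2 → ℝ)) (f : (Fin 2 → ℝ) → ℝ) :
    ∫ y in swap2 F, f y = ∫ y in F, f ![y 1, y 0] := by
  have h := MeasurePreserving.setIntegral_preimage_emb pp_swapEquiv_mp
    pp_swapEquiv.measurableEmbedding (fun y => f ![y 1, y 0]) F
  rw [← pp_swap2_eq_preimage] at h
  rw [← h]
  refine integral_congr_ae (Filter.Eventually.of_forall fun y => ?_)
  show f y = f ![(pp_swapEquiv y) 1, (pp_swapEquiv y) 0]
  rw [pp_swapEquiv_apply, pp_swap_swap]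

theorem vol_swap2 (F : Set (Fin 2 → ℝ)) : vol (swap2 F) = vol F := by
  unfold vol
  rw [pp_swap2_eq_preimage, pp_swapEquiv_mp.measure_preimage_equiv]

end Vale.Agent.Lib.P254.TF
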