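import Vale.Agent.Lib.P254.TF.LemmaA4
import Vale.Agent.Lib.P254.TF.PlanarProf

/-!
# P254 tail-flow route, range lemma, leaf 5: the planar form

A planar corner `F` with a bounded measurable weight `h ≥ 0`, concave on `F` and nonincreasing
in each coordinate: `∫_F y_1 h ≥ (3/5) β_1(F) ∫_F h`, in multiplied-out form.
-/

open MeasureTheory Set

namespace Vale.Agent.Lib.P254.TF

theorem la_planar {F : Set (Fin 2 → ℝ)} (hF : Corner F) (h : (Fin 2 → ℝ) → ℝ)
    (hm : Measurable h) (M : ℝ) (hM : ∀ y, h y ≤ M) (h0 : ∀ y, 0 ≤ h y)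
    (hconc : ConcaveOn ℝ F h)
    (hanti : ∀ y y' : Fin 2 → ℝ, y' ∈ F → (∀ i, 0 ≤ y i) → (∀ i, y i ≤ y' i) → h y' ≤ h y) :
    3 * ((∫ y in F, y 1) * ∫ y in F, h y) ≤ 5 * (vol F * ∫ y in F, y 1 * h y) := by
  rcases F.eq_empty_or_nonempty with hemp | hne
  · subst hemp
    simp
  · have hint : IntegrableOn h F := by
      refine Measure.integrableOn_of_bounded (M := M) hF.1.measure_lt_top.ne
        hm.aestronglyMeasurable ?_
      refine Filter.Eventually.of_forall fun y => ?_
      rw [Real.norm_eq_abs, abs_of_nonneg (h0 y)]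
      exact hM y
    have hint1 : IntegrableOn (fun y : Fin 2 → ℝ => y 1 * h y) F :=
      IntegrableOn.continuousOn_mul (continuous_apply 1).continuousOn hint hF.1
    have e0 : ∫ y in F, h y = ∫ t in (0:ℝ)..wid F, ∫ s in (0:ℝ)..prof F t, h ![t, s] :=
      planar_fubini hF h hint
    have e1 : ∫ y in F, y 1 * h y
        = ∫ t in (0:ℝ)..wid F, ∫ s in (0:ℝ)..prof F t, s * h ![t, s] :=
      planar_fubini hF (fun y => y 1 * h y) hint1
    have hmem : ∀ t ∈ Icc 0 (wid F), ∀ s ∈ Icc 0 (prof F t), (![t, s] : Fin 2 → ℝ) ∈ F := by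
      intro t ht s hs
      have h1 : s ∈ {r : ℝ | (![t, r] : Fin 2 → ℝ) ∈ F} := by
        rw [pp_fib_eq hF hne ht]
        exact hs
      exact h1
    rw [e0, e1, planar_m1 hF, planar_vol hF]
    refine la_core (wid F) (wid_nonneg hF) (prof F) (fun t s => h ![t, s]) (prof_concaveOn hF)
      (prof_antitoneOn hF) (fun t _ => prof_nonneg F t) (fun t _ s _ => h0 _) ?_ ?_ ?_
    · intro t ht
      refine ⟨convex_Icc _ _, ?_⟩
      intro s hs s' hs' a b ha hb hab
      have hc := hconc.2 (hmem t ht s hs) (hmem t ht s' hs') ha hb hab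
      have e : a • (![t, s] : Fin 2 → ℝ) + b • (![t, s'] : Fin 2 → ℝ)
          = ![t, a • s + b • s'] := by
        funext i
        fin_cases i
        · show a * t + b * t = t
          rw [← add_mul, hab, one_mul]
        · rfl
      rw [e] at hc
      exact hc
    · intro t ht s hs s' hs' hss'
      exact hanti ![t, s] ![t, s'] (hmem t ht s' hs') (Fin.forall_fin_two.2 ⟨ht.1, hs.1⟩)
        (Fin.forall_fin_two.2 ⟨le_rfl, hss'⟩)
    · intro t ht t' ht' htt' s hs
      exact hanti ![t, s] ![t', s] (hmem t' ht' s hs) (Fin.forall_fin_two.2 ⟨ht.1, hs.1⟩)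
        (Fin.forall_fin_two.2 ⟨htt', le_rfl⟩)

end Vale.Agent.Lib.P254.TF
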