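import Vale.Agent.Lib.P254.TF.Defs
import Vale.Agent.Lib.P254.Sym.BM2

/-!
# P254 tail-flow route: the tail bodies of a convex corner

Paper: the tail body `K^c = {(t - c, y) : (t, y) ∈ K, t ≥ c}` of a corner is a corner; its
sections are the sections of `K` moved down; volume and first moments are tail integrals of the
section area `sv K` and of the section moments `sm K j` (slice formula `integral_slice` and
translation invariance; for the height moment also `∫_c^T (t - c) v(t) dt = ∫_c^T ∫_τ^T v`).
-/

open MeasureTheory Set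

namespace Vale.Agent.Lib.P254.TF

variable {K : Set (Fin 3 → ℝ)}

theorem tailBody_zero (hK : Corner K) : tailBody K 0 = K := by
  ext x
  simp only [tailBody, mem_ofPred_eq, add_zero, Function.update_eq_self]
  exact ⟨fun h => h.2, fun h => ⟨hK.2.2.1 x h 0, h⟩⟩

/-- The tail body is the image of the upper part of `K` under the downward shift. -/
theorem tb_image (K : Set (Fin 3 → ℝ)) (c : ℝ) :
    tailBody K c =
      (fun y : Fin 3 → ℝ => Function.update y 0 (y 0 - c)) '' (K ∩ {y | c ≤ y 0}) := by
  ext x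
  simp only [tailBody, mem_ofPred_eq, mem_image, mem_inter_iff]
  constructor
  · rintro ⟨h0, hx⟩
    refine ⟨Function.update x 0 (x 0 + c), ⟨hx, ?_⟩, ?_⟩
    · rw [Function.update_self]
      linarith
    · rw [Function.update_self, Function.update_idem, add_sub_cancel_right,
        Function.update_eq_self]
  · rintro ⟨y, ⟨hy, hcy⟩, rfl⟩
    refine ⟨?_, ?_⟩
    · rw [Function.update_self]
      linarith
    · rw [Function.update_self, Function.update_idem, sub_add_cancel, Function.update_eq_self]
      exact hy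

theorem corner_tailBody (hK : Corner K) {c : ℝ} (hc : 0 ≤ c) : Corner (tailBody K c) := by
  obtain ⟨hcomp, hconv, hnn, hdown⟩ := hK
  refine ⟨?_, ?_, ?_, ?_⟩
  · rw [tb_image]
    have hcl : IsClosed {y : Fin 3 → ℝ | c ≤ y 0} :=
      isClosed_le continuous_const (continuous_apply 0)
    exact (hcomp.inter_right hcl).image
      (continuous_id.update 0 ((continuous_apply 0).sub continuous_const))
  · intro x hx y hy a b ha hb hab
    obtain ⟨hx0, hxK⟩ := hx
    obtain ⟨hy0, hyK⟩ := hy
    refine ⟨?_, ?_⟩
    · show 0 ≤ a * x 0 + b * y 0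
      exact add_nonneg (mul_nonneg ha hx0) (mul_nonneg hb hy0)
    · have e : Function.update (a • x + b • y) 0 ((a • x + b • y) 0 + c) =
          a • Function.update x 0 (x 0 + c) + b • Function.update y 0 (y 0 + c) := by
        funext i
        by_cases hi : i = 0
        · subst hi
          simp only [Function.update_self, Pi.add_apply, Pi.smul_apply, smul_eq_mul]
          linear_combination (-c) * hab
        · simp only [Function.update_of_ne hi, Pi.add_apply, Pi.smul_apply, smul_eq_mul]
      rw [e]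
      exact hconv hxK hyK ha hb hab
  · intro x hx i
    by_cases hi : i = 0
    · subst hi
      exact hx.1
    · have h := hnn _ hx.2 i
      rwa [Function.update_of_ne hi] at h
  · intro x hx y hy0 hyx
    refine ⟨hy0 0, ?_⟩
    refine hdown _ hx.2 _ (fun i => ?_) (fun i => ?_)
    · by_cases hi : i = 0
      · subst hi
        rw [Function.update_self]
        linarith [hy0 0]
      · rw [Function.update_of_ne hi]
        exact hy0 i
    · by_cases hi : i = 0
      · subst hi
        rw [Function.update_self, Function.update_self]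
        linarith [hyx 0]
      · rw [Function.update_of_ne hi, Function.update_of_ne hi]
        exact hyx i

theorem sec_tailBody (hK : Corner K) {c : ℝ} (hc : 0 ≤ c) {s : ℝ} (hs : 0 ≤ s) :
    sec (tailBody K c) s = sec K (s + c) := by
  ext y
  simp only [mem_sec, tailBody, mem_ofPred_eq, Fin.cons_zero, Fin.update_cons_zero]
  exact ⟨fun h => h.2, fun h => ⟨hs, h⟩⟩

/-- A section of a corner is a planar corner. -/
theorem corner_sec (hK : Corner K) (t : ℝ) : Corner (sec K t) := by
  obtain ⟨hcomp, hconv, hnn, hdown⟩ := hK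
  refine ⟨isCompact_sec hcomp t, convex_sec hconv t, ?_, ?_⟩
  · intro y hy i
    have h := hnn _ (mem_sec.1 hy) i.succ
    rwa [Fin.cons_succ] at h
  · intro y hy z hz0 hzy
    have ht : 0 ≤ t := by
      have h := hnn _ (mem_sec.1 hy) 0
      rwa [Fin.cons_zero] at h
    refine mem_sec.2 (hdown _ (mem_sec.1 hy) _ (fun i => ?_) (fun i => ?_))
    · refine Fin.cases ?_ (fun k => ?_) i
      · rw [Fin.cons_zero]
        exact ht
      · rw [Fin.cons_succ]
        exact hz0 k
    · refine Fin.cases ?_ (fun k => ?_) i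
      · rw [Fin.cons_zero, Fin.cons_zero]
      · rw [Fin.cons_succ, Fin.cons_succ]
        exact hzy k

/-- Below height zero the tail body has empty sections. -/
theorem tb_sec_neg (K : Set (Fin 3 → ℝ)) (c : ℝ) {s : ℝ} (hs : s < 0) :
    sec (tailBody K c) s = ∅ := by
  ext y
  simp only [mem_sec, tailBody, mem_ofPred_eq, Fin.cons_zero, mem_empty_iff_false, iff_false,
    not_and]
  intro h
  linarith

/-- Above the top the tail body has empty sections. -/
theorem tb_sec_top {c T : ℝ} (hT : ∀ x ∈ K, x 0 ≤ T) {s : ℝ} (hs : T - c < s) :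
    sec (tailBody K c) s = ∅ := by
  ext y
  simp only [mem_sec, tailBody, mem_ofPred_eq, Fin.cons_zero, Fin.update_cons_zero,
    mem_empty_iff_false, iff_false, not_and]
  intro _ h
  have h2 := hT _ h
  rw [Fin.cons_zero] at h2
  linarith

/-- An integral over the line of a function that lives on `[0, T - c]`, moved up by `c`. -/
theorem tb_shift {c T : ℝ} (hcT : c ≤ T) (g G : ℝ → ℝ) (h0 : ∀ s, s < 0 → g s = 0)
    (hT : ∀ s, T - c < s → g s = 0) (hG : ∀ s, 0 ≤ s → s ≤ T - c → g s = G (s + c)) :
    ∫ s, g s = ∫ τ in c..T, G τ := by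
  have h1 : ∫ s, g s = ∫ s in Icc 0 (T - c), g s := by
    symm
    apply setIntegral_eq_integral_of_forall_compl_eq_zero
    intro s hs
    rw [mem_Icc, not_and_or, not_le, not_le] at hs
    rcases hs with hs | hs
    · exact h0 s hs
    · exact hT s hs
  rw [h1, integral_Icc_eq_integral_Ioc, ← intervalIntegral.integral_of_le (by linarith)]
  have h2 : ∫ s in (0:ℝ)..(T - c), g s = ∫ s in (0:ℝ)..(T - c), G (s + c) := by
    apply intervalIntegral.integral_congr
    intro s hs
    rw [uIcc_of_le (by linarith)] at hs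
    exact hG s hs.1 hs.2
  rw [h2, intervalIntegral.integral_comp_add_right]
  simp

/-- Fubini on a triangle for a bounded measurable function. -/
theorem tb_triangle (v : ℝ → ℝ) (hv : Measurable v) (M : ℝ) (hvB : ∀ t, |v t| ≤ M) {c T : ℝ}
    (hcT : c ≤ T) :
    ∫ τ in c..T, (∫ σ in τ..T, v σ) = ∫ σ in c..T, (σ - c) * v σ := by
  have hM : 0 ≤ M := (abs_nonneg (v 0)).trans (hvB 0)
  have hInt : IntegrableOn (Function.uncurry (fun τ σ : ℝ => (Ioi τ).indicator v σ))
      (uIoc c T ×ˢ uIoc c T) := by
    have hmeas : Measurable (Function.uncurry (fun τ σ : ℝ => (Ioi τ).indicator v σ)) := by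
      have e : Function.uncurry (fun τ σ : ℝ => (Ioi τ).indicator v σ) =
          ({p : ℝ × ℝ | p.1 < p.2}).indicator (fun p => v p.2) := by
        funext p
        simp only [Function.uncurry, indicator, mem_Ioi, mem_ofPred_eq]
      rw [e]
      exact (hv.comp measurable_snd).indicator (measurableSet_lt measurable_fst measurable_snd)
    refine Measure.integrableOn_of_bounded (M := M) ?_ hmeas.aestronglyMeasurable ?_
    · have hsub : uIoc c T ×ˢ uIoc c T ⊆ Icc c T ×ˢ Icc c T := by
        rw [uIoc_of_le hcT]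
        exact prod_mono Ioc_subset_Icc_self Ioc_subset_Icc_self
      exact ((measure_mono hsub).trans_lt
        (isCompact_Icc.prod isCompact_Icc).measure_lt_top).ne
    · refine Filter.Eventually.of_forall (fun p => ?_)
      simp only [Function.uncurry, indicator]
      split_ifs
      · rw [Real.norm_eq_abs]
        exact hvB _
      · rw [norm_zero]
        exact hM
  have hsw := intervalIntegral_intervalIntegral_swap
    (F := fun τ σ : ℝ => (Ioi τ).indicator v σ) (a := c) (b := T) (c := c) (d := T) hInt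
  have hL : ∫ τ in c..T, (∫ σ in c..T, (Ioi τ).indicator v σ) =
      ∫ τ in c..T, (∫ σ in τ..T, v σ) := by
    apply intervalIntegral.integral_congr
    intro τ hτ
    rw [uIcc_of_le hcT] at hτ
    show ∫ σ in c..T, (Ioi τ).indicator v σ = ∫ σ in τ..T, v σ
    have hset : Ioc c T ∩ Ioi τ = Ioc τ T := by
      ext σ
      simp only [mem_inter_iff, mem_Ioc, mem_Ioi]
      constructor
      · rintro ⟨⟨_, h2⟩, h3⟩
        exact ⟨h3, h2⟩
      · rintro ⟨h1, h2⟩
        exact ⟨⟨lt_of_le_of_lt hτ.1 h1, h2⟩, h1⟩
    rw [intervalIntegral.integral_of_le hcT, intervalIntegral.integral_of_le hτ.2,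
      setIntegral_indicator measurableSet_Ioi, hset]
  have hR : ∫ σ in c..T, (∫ τ in c..T, (Ioi τ).indicator v σ) =
      ∫ σ in c..T, (σ - c) * v σ := by
    apply intervalIntegral.integral_congr
    intro σ hσ
    rw [uIcc_of_le hcT] at hσ
    show ∫ τ in c..T, (Ioi τ).indicator v σ = (σ - c) * v σ
    have e : (fun τ => (Ioi τ).indicator v σ) = (Iio σ).indicator (fun _ => v σ) := by
      funext τ
      simp only [indicator, mem_Ioi, mem_Iio]
    have hset : Ioc c T ∩ Iio σ = Ioo c σ := by
      ext τ
      simp only [mem_inter_iff, mem_Ioc, mem_Iio, mem_Ioo]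
      constructor
      · rintro ⟨⟨h1, _⟩, h3⟩
        exact ⟨h1, h3⟩
      · rintro ⟨h1, h2⟩
        exact ⟨⟨h1, h2.le.trans hσ.2⟩, h2⟩
    rw [intervalIntegral.integral_of_le hcT, e, setIntegral_indicator measurableSet_Iio,
      setIntegral_const, hset, Measure.real, Real.volume_Ioo,
      ENNReal.toReal_ofReal (by linarith [hσ.1]), smul_eq_mul]
  rw [← hL, hsw, hR]

theorem vol_tailBody (hK : Corner K) {c T : ℝ} (hc : 0 ≤ c) (hcT : c ≤ T)
    (hT : ∀ x ∈ K, x 0 ≤ T) :
    vol (tailBody K c) = ∫ τ in c..T, sv K τ := by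
  have hcomp := (corner_tailBody hK hc).1
  rw [vol_slice hcomp]
  refine tb_shift hcT _ (sv K) (fun s hs => ?_) (fun s hs => ?_) (fun s hs0 hsT => ?_)
  · show vol (sec (tailBody K c) s) = 0
    rw [tb_sec_neg K c hs]
    simp [vol]
  · show vol (sec (tailBody K c) s) = 0
    rw [tb_sec_top hT hs]
    simp [vol]
  · show vol (sec (tailBody K c) s) = sv K (s + c)
    rw [sec_tailBody hK hc hs0]
    rfl

theorem mom0_tailBody (hK : Corner K) {c T : ℝ} (hc : 0 ≤ c) (hcT : c ≤ T)
    (hT : ∀ x ∈ K, x 0 ≤ T) :
    ∫ x in tailBody K c, x 0 = ∫ τ in c..T, (∫ σ in τ..T, sv K σ) := by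
  have hcomp := (corner_tailBody hK hc).1
  rw [integral_slice hcomp (fun x => x 0) (continuous_apply _)]
  have h1 : ∫ s, (∫ y in sec (tailBody K c) s, (Fin.cons s y : Fin 3 → ℝ) 0) =
      ∫ τ in c..T, (τ - c) * sv K τ := by
    refine tb_shift hcT _ (fun τ => (τ - c) * sv K τ) (fun s hs => ?_) (fun s hs => ?_)
      (fun s hs0 hsT => ?_)
    · show ∫ y in sec (tailBody K c) s, (Fin.cons s y : Fin 3 → ℝ) 0 = 0
      rw [tb_sec_neg K c hs]
      simp
    · show ∫ y in sec (tailBody K c) s, (Fin.cons s y : Fin 3 → ℝ) 0 = 0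
      rw [tb_sec_top hT hs]
      simp
    · show ∫ y in sec (tailBody K c) s, (Fin.cons s y : Fin 3 → ℝ) 0 =
        (s + c - c) * sv K (s + c)
      rw [sec_tailBody hK hc hs0]
      simp only [Fin.cons_zero]
      rw [setIntegral_const, smul_eq_mul]
      have e : volume.real (sec K (s + c)) = sv K (s + c) := rfl
      rw [e]
      ring
  obtain ⟨M, hM⟩ := vol_sec_bounded hK.1
  have hvB : ∀ t, |sv K t| ≤ M := by
    intro t
    have h0 : 0 ≤ sv K t := ENNReal.toReal_nonneg
    rw [abs_of_nonneg h0]
    exact hM t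
  exact h1.trans (tb_triangle (sv K) (measurable_vol_sec hK.1) M hvB hcT).symm

theorem momj_tailBody (hK : Corner K) {c T : ℝ} (hc : 0 ≤ c) (hcT : c ≤ T)
    (hT : ∀ x ∈ K, x 0 ≤ T) (j : Fin 2) :
    ∫ x in tailBody K c, x j.succ = ∫ τ in c..T, sm K j τ := by
  have hcomp := (corner_tailBody hK hc).1
  rw [integral_slice hcomp (fun x => x j.succ) (continuous_apply _)]
  refine tb_shift hcT _ (sm K j) (fun s hs => ?_) (fun s hs => ?_) (fun s hs0 hsT => ?_)
  · show ∫ y in sec (tailBody K c) s, (Fin.cons s y : Fin 3 → ℝ) j.succ = 0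
    rw [tb_sec_neg K c hs]
    simp
  · show ∫ y in sec (tailBody K c) s, (Fin.cons s y : Fin 3 → ℝ) j.succ = 0
    rw [tb_sec_top hT hs]
    simp
  · show ∫ y in sec (tailBody K c) s, (Fin.cons s y : Fin 3 → ℝ) j.succ = sm K j (s + c)
    rw [sec_tailBody hK hc hs0]
    simp only [Fin.cons_succ]
    rfl

end Vale.Agent.Lib.P254.TF
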