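import Vale.Agent.Lib.P254.TF.Hgt
import Vale.Agent.Lib.P254.TF.TailBody
import Vale.Agent.Lib.P254.TF.LemmaA5

/-!
# P254 tail-flow route: the range lemma (centroid of the body against centroid of the base)

Paper: team doc `P254_I2`, entry (h16-L1): `b_j(K) ≥ (3/5) β_j(sec K 0)`.  Fibre lemma
(comparison with a ramp), Chebyshev in the other base coordinate, one-dimensional Berwald.

The analytic part is `la_planar` (files `LemmaA1` to `LemmaA5`); here it is applied to the base
`sec K 0` with the height function `hgt K`, directly for the second base coordinate and after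
exchanging the two base coordinates for the first one.
-/

open MeasureTheory Set

namespace Vale.Agent.Lib.P254.TF

variable {K : Set (Fin 3 → ℝ)}

/-- The range lemma for the second base coordinate. -/
theorem la_one (hK : Corner K) :
    3 * ((∫ y in sec K 0, y 1) * vol K)
      ≤ 5 * (vol (sec K 0) * ∫ x in K, x (1 : Fin 2).succ) := by
  have h := la_planar (corner_sec hK 0) (hgt K) (measurable_hgt hK) (top K) (hgt_le_top hK)
    (hgt_nonneg K) (hgt_concaveOn hK) (fun y y' hy' h0 hle => hgt_anti hK hy' h0 hle)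
  rw [vol_eq_hgt hK, momj_eq_hgt hK 1]
  exact h

/-- The range lemma for the first base coordinate, by exchanging the two base coordinates. -/
theorem la_zero (hK : Corner K) :
    3 * ((∫ y in sec K 0, y 0) * vol K)
      ≤ 5 * (vol (sec K 0) * ∫ x in K, x (0 : Fin 2).succ) := by
  have hF := corner_sec hK 0
  have hm : Measurable (fun y : Fin 2 → ℝ => hgt K ![y 1, y 0]) := by
    have h1 : (fun y : Fin 2 → ℝ => hgt K ![y 1, y 0]) = hgt K ∘ pp_swapEquiv := by
      funext y
      rw [Function.comp_apply, pp_swapEquiv_apply]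
    rw [h1]
    exact (measurable_hgt hK).comp pp_swapEquiv.measurable
  have hconc : ConcaveOn ℝ (swap2 (sec K 0)) (fun y : Fin 2 → ℝ => hgt K ![y 1, y 0]) := by
    refine ⟨(corner_swap2 hF).2.1, ?_⟩
    intro y hy y' hy' a b ha hb hab
    have hc := (hgt_concaveOn hK).2 hy hy' ha hb hab
    have e : (![(a • y + b • y') 1, (a • y + b • y') 0] : Fin 2 → ℝ)
        = a • (![y 1, y 0] : Fin 2 → ℝ) + b • (![y' 1, y' 0] : Fin 2 → ℝ) := by
      funext i
      fin_cases i <;> simp
    show a • hgt K ![y 1, y 0] + b • hgt K ![y' 1, y' 0]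
      ≤ hgt K ![(a • y + b • y') 1, (a • y + b • y') 0]
    rw [e]
    exact hc
  have hanti : ∀ y y' : Fin 2 → ℝ, y' ∈ swap2 (sec K 0) → (∀ i, 0 ≤ y i) →
      (∀ i, y i ≤ y' i) → hgt K ![y' 1, y' 0] ≤ hgt K ![y 1, y 0] := by
    intro y y' hy' h0 hle
    exact hgt_anti hK hy' (Fin.forall_fin_two.2 ⟨h0 1, h0 0⟩)
      (Fin.forall_fin_two.2 ⟨hle 1, hle 0⟩)
  have h := la_planar (corner_swap2 hF) (fun y : Fin 2 → ℝ => hgt K ![y 1, y 0]) hm (top K)
    (fun y => hgt_le_top hK _) (fun y => hgt_nonneg K _) hconc hanti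
  have eA : ∫ y in swap2 (sec K 0), y 1 = ∫ y in sec K 0, y 0 :=
    integral_swap2 (sec K 0) (fun y => y 1)
  have eB : ∫ y in swap2 (sec K 0), hgt K ![y 1, y 0] = ∫ y in sec K 0, hgt K y := by
    rw [integral_swap2 (sec K 0) (fun y => hgt K ![y 1, y 0])]
    refine integral_congr_ae (Filter.Eventually.of_forall fun y => ?_)
    show hgt K ![(![y 1, y 0] : Fin 2 → ℝ) 1, (![y 1, y 0] : Fin 2 → ℝ) 0] = hgt K y
    rw [pp_swap_swap]
  have eC : ∫ y in swap2 (sec K 0), y 1 * hgt K ![y 1, y 0]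
      = ∫ y in sec K 0, y 0 * hgt K y := by
    rw [integral_swap2 (sec K 0) (fun y => y 1 * hgt K ![y 1, y 0])]
    refine integral_congr_ae (Filter.Eventually.of_forall fun y => ?_)
    show (![y 1, y 0] : Fin 2 → ℝ) 1
        * hgt K ![(![y 1, y 0] : Fin 2 → ℝ) 1, (![y 1, y 0] : Fin 2 → ℝ) 0] = y 0 * hgt K y
    rw [pp_swap_swap]
    rfl
  rw [eA, eB, eC, vol_swap2] at h
  rw [vol_eq_hgt hK, momj_eq_hgt hK 0]
  exact h

theorem lemmaA (hK : Corner K) (j : Fin 2) :
    3 * ((∫ y in sec K 0, y j) * vol K) ≤ 5 * (vol (sec K 0) * ∫ x in K, x j.succ) := by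
  have hall : ∀ j : Fin 2,
      3 * ((∫ y in sec K 0, y j) * vol K) ≤ 5 * (vol (sec K 0) * ∫ x in K, x j.succ) :=
    Fin.forall_fin_two.2 ⟨la_zero hK, la_one hK⟩
  exact hall j

end Vale.Agent.Lib.P254.TF
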