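import Mathlib

/-!
# P254 tail-flow route, range lemma, leaf 1: the fibre lemma

For `g ≥ 0` concave and nonincreasing on `[0, x]` and `c ≥ 0`:
`∫_0^x (s - c) g(s) ds ≥ g(0) (x - 3c)(x + c)/8` (comparison with a ramp).
-/

open MeasureTheory Set

namespace Vale.Agent.Lib.P254.TF

/-- The integral of a linear weight times a constant. -/
private lemma la1_int_lin (a b c m : ℝ) :
    ∫ s in a..b, (s - c) * m = m * ((b ^ 2 - a ^ 2) / 2 - c * (b - a)) := by
  have hd : ∀ s ∈ uIcc a b,
      HasDerivAt (fun s : ℝ => m * (s ^ 2 / 2 - c * s)) ((s - c) * m) s := by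
    intro s _
    have h1 := (hasDerivAt_pow 2 s).div_const 2
    have h2 := (hasDerivAt_id s).const_mul c
    have h := (h1.sub h2).const_mul m
    refine HasDerivAt.congr_deriv h ?_
    norm_num
    ring
  have hint : IntervalIntegrable (fun s : ℝ => (s - c) * m) volume a b :=
    Continuous.intervalIntegrable (by fun_prop) _ _
  rw [intervalIntegral.integral_eq_sub_of_hasDerivAt hd hint]
  ring

/-- The integral of a linear weight times a ramp. -/
private lemma la1_int_ramp (k x c w : ℝ) :
    ∫ s in k..x, (s - c) * (w * (x - s)) =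
      w * ((x - c) * (x - k) ^ 2 / 2 - (x - k) ^ 3 / 3) := by
  have hd : ∀ s ∈ uIcc k x,
      HasDerivAt (fun s : ℝ => w * ((x + c) * (s ^ 2 / 2) - s ^ 3 / 3 - c * x * s))
        ((s - c) * (w * (x - s))) s := by
    intro s _
    have h1 := (hasDerivAt_pow 3 s).div_const 3
    have h2 := ((hasDerivAt_pow 2 s).div_const 2).const_mul (x + c)
    have h3 := (hasDerivAt_id s).const_mul (c * x)
    have h := ((h2.sub h1).sub h3).const_mul w
    refine HasDerivAt.congr_deriv h ?_
    norm_num
    ring
  have hint : IntervalIntegrable (fun s : ℝ => (s - c) * (w * (x - s))) volume k x :=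
    Continuous.intervalIntegrable (by fun_prop) _ _
  rw [intervalIntegral.integral_eq_sub_of_hasDerivAt hd hint]
  ring

/-- The three-point form of concavity. -/
private lemma la1_three (g : ℝ → ℝ) (S : Set ℝ) (hgc : ConcaveOn ℝ S g) {a t b : ℝ}
    (ha : a ∈ S) (hb : b ∈ S) (hat : a ≤ t) (htb : t ≤ b) (hab : a < b) :
    g a * (b - t) + g b * (t - a) ≤ g t * (b - a) := by
  have hba : 0 < b - a := sub_pos.mpr hab
  have hne : b - a ≠ 0 := hba.ne'
  have hsum : (b - t) / (b - a) + (t - a) / (b - a) = 1 := by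
    rw [← add_div, show b - t + (t - a) = b - a by ring, div_self hne]
  have h := hgc.2 ha hb (div_nonneg (sub_nonneg.mpr htb) hba.le)
    (div_nonneg (sub_nonneg.mpr hat) hba.le) hsum
  have e : ((b - t) / (b - a)) • a + ((t - a) / (b - a)) • b = t := by
    have e3 : ((b - t) / (b - a)) • a + ((t - a) / (b - a)) • b = t * (b - a) / (b - a) := by
      simp only [smul_eq_mul]
      ring
    rw [e3, mul_div_cancel_right₀ t hne]
  rw [e] at h
  simp only [smul_eq_mul] at h
  have h2 := mul_le_mul_of_nonneg_right h hba.le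
  have e2 : ((b - t) / (b - a) * g a + (t - a) / (b - a) * g b) * (b - a) =
      g a * (b - t) + g b * (t - a) := by
    have e3 : (b - t) / (b - a) * g a + (t - a) / (b - a) * g b =
        (g a * (b - t) + g b * (t - a)) / (b - a) := by ring
    rw [e3, div_mul_cancel₀ _ hne]
  rw [e2] at h2
  exact h2

theorem la_fibre (g : ℝ → ℝ) (x c : ℝ) (hx : 0 ≤ x) (hc : 0 ≤ c)
    (hg0 : ∀ s ∈ Icc 0 x, 0 ≤ g s) (hgc : ConcaveOn ℝ (Icc 0 x) g)
    (hga : AntitoneOn g (Icc 0 x)) :
    g 0 * ((x - 3 * c) * (x + c)) / 8 ≤ ∫ s in (0:ℝ)..x, (s - c) * g s := by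
  have hgi : IntervalIntegrable g volume 0 x := by
    apply AntitoneOn.intervalIntegrable
    rw [uIcc_of_le hx]
    exact hga
  have hwi : ∀ a b : ℝ, 0 ≤ a → a ≤ b → b ≤ x →
      IntervalIntegrable (fun s => (s - c) * g s) volume a b := by
    intro a b ha hab hb
    have h1 : IntervalIntegrable g volume a b := hgi.mono_set (by
      rw [uIcc_of_le hab, uIcc_of_le hx]
      exact Icc_subset_Icc ha hb)
    exact h1.continuousOn_mul (by fun_prop)
  have h0I : (0:ℝ) ∈ Icc (0:ℝ) x := ⟨le_rfl, hx⟩
  have hxI : x ∈ Icc (0:ℝ) x := ⟨hx, le_rfl⟩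
  have hg00 : 0 ≤ g 0 := hg0 0 h0I
  have hanti : ∀ s ∈ Icc (0:ℝ) x, g s ≤ g 0 := fun s hs => hga h0I hs hs.1
  rcases le_or_gt x c with hxc | hcx
  · have hmono : ∫ s in (0:ℝ)..x, (s - c) * g 0 ≤ ∫ s in (0:ℝ)..x, (s - c) * g s := by
      apply intervalIntegral.integral_mono_on hx
        (Continuous.intervalIntegrable (by fun_prop) _ _) (hwi 0 x le_rfl hx le_rfl)
      intro s hs
      have h1 : s - c ≤ 0 := by linarith [hs.2]
      exact mul_le_mul_of_nonpos_left (hanti s hs) h1
    rw [la1_int_lin] at hmono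
    nlinarith [mul_nonneg hg00 (sq_nonneg (x - c))]
  · have hxpos : 0 < x := lt_of_le_of_lt hc hcx
    rcases eq_or_lt_of_le hg00 with hz | hpos
    · have hzero : ∀ s ∈ uIcc (0:ℝ) x, (s - c) * g s = (0:ℝ) := by
        intro s hs
        rw [uIcc_of_le hx] at hs
        have h1 : g s ≤ 0 := by
          rw [hz]
          exact hanti s hs
        have h2 : g s = 0 := le_antisymm h1 (hg0 s hs)
        rw [h2, mul_zero]
      have e : ∫ s in (0:ℝ)..x, (s - c) * g s = ∫ _ in (0:ℝ)..x, (0:ℝ) :=
        intervalIntegral.integral_congr hzero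
      rw [e, intervalIntegral.integral_zero, ← hz]
      simp
    · have hcI : c ∈ Icc (0:ℝ) x := ⟨hc, hcx.le⟩
      have hgx : 0 ≤ g x := hg0 x hxI
      obtain ⟨q, hqdef⟩ : ∃ q : ℝ, q = g c := ⟨_, rfl⟩
      have hq0 : q ≤ g 0 := by
        rw [hqdef]
        exact hanti c hcI
      have hqx : g 0 * (x - c) ≤ q * x := by
        have h3 := la1_three g (Icc 0 x) hgc h0I hxI hc hcx.le hxpos
        rw [← hqdef] at h3
        nlinarith [mul_nonneg hgx hc]
      have hxc0 : 0 < x - c := sub_pos.mpr hcx
      have hqpos : 0 < q := by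
        by_contra hn
        have hn' : q ≤ 0 := not_lt.mp hn
        have h4 : q * x ≤ 0 := mul_nonpos_of_nonpos_of_nonneg hn' hx
        have h5 : 0 < g 0 * (x - c) := mul_pos hpos hxc0
        linarith
      obtain ⟨D, hDdef⟩ : ∃ D : ℝ, D = g 0 * (x - c) / q := ⟨_, rfl⟩
      have hD : 0 < D := by
        rw [hDdef]
        exact div_pos (mul_pos hpos hxc0) hqpos
      have hDq : D * q = g 0 * (x - c) := by
        rw [hDdef]
        exact div_mul_cancel₀ _ hqpos.ne'
      obtain ⟨k, hkdef⟩ : ∃ k : ℝ, k = x - D := ⟨_, rfl⟩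
      have hxk : x - k = D := by
        rw [hkdef]
        ring
      have hkx : k ≤ x := by linarith
      have hk0 : 0 ≤ k := by
        have h6 : D ≤ x := by
          apply le_of_mul_le_mul_right _ hqpos
          rw [hDq]
          linarith [mul_comm q x]
        linarith
      have hkc : k ≤ c := by
        have h6 : x - c ≤ D := by
          apply le_of_mul_le_mul_right _ hqpos
          rw [hDq]
          nlinarith
        linarith
      obtain ⟨w, hwdef⟩ : ∃ w : ℝ, w = g 0 / D := ⟨_, rfl⟩
      have hwD : w * D = g 0 := by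
        rw [hwdef]
        exact div_mul_cancel₀ _ hD.ne'
      have hwq : w * (x - c) = q := by
        have h7 : w * (x - c) * D = q * D := by
          calc w * (x - c) * D = (w * D) * (x - c) := by ring
            _ = g 0 * (x - c) := by rw [hwD]
            _ = q * D := by rw [← hDq, mul_comm]
        exact mul_right_cancel₀ hD.ne' h7
      have hA : ∀ s ∈ Icc (0:ℝ) x, (s - c) * (w * (x - s)) ≤ (s - c) * g s := by
        intro s hs
        rcases le_total c s with hcs | hsc
        · have h8 := la1_three g (Icc 0 x) hgc hcI hxI hcs hs.2 hcx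
          rw [← hqdef] at h8
          have h9 : w * (x - s) ≤ g s := by
            apply le_of_mul_le_mul_right _ hxc0
            have h10 : w * (x - s) * (x - c) = q * (x - s) := by
              rw [← hwq]
              ring
            rw [h10]
            nlinarith [mul_nonneg hgx (sub_nonneg.mpr hcs)]
          exact mul_le_mul_of_nonneg_left h9 (sub_nonneg.mpr hcs)
        · have hsx : s < x := lt_of_le_of_lt hsc hcx
          have h8 := la1_three g (Icc 0 x) hgc hs hxI hsc hcx.le hsx
          rw [← hqdef] at h8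
          have h9 : g s ≤ w * (x - s) := by
            apply le_of_mul_le_mul_right _ hxc0
            have h10 : w * (x - s) * (x - c) = q * (x - s) := by
              rw [← hwq]
              ring
            rw [h10]
            nlinarith [mul_nonneg hgx (sub_nonneg.mpr hsc)]
          exact mul_le_mul_of_nonpos_left h9 (sub_nonpos.mpr hsc)
      have hsplit : ∫ s in (0:ℝ)..x, (s - c) * g s =
          (∫ s in (0:ℝ)..k, (s - c) * g s) + ∫ s in k..x, (s - c) * g s :=
        (intervalIntegral.integral_add_adjacent_intervals (hwi 0 k le_rfl hk0 hkx)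
          (hwi k x hk0 hkx le_rfl)).symm
      have h1 : ∫ s in (0:ℝ)..k, (s - c) * g 0 ≤ ∫ s in (0:ℝ)..k, (s - c) * g s := by
        apply intervalIntegral.integral_mono_on hk0
          (Continuous.intervalIntegrable (by fun_prop) _ _) (hwi 0 k le_rfl hk0 hkx)
        intro s hs
        have h11 : s - c ≤ 0 := by linarith [hs.2]
        exact mul_le_mul_of_nonpos_left (hanti s ⟨hs.1, le_trans hs.2 hkx⟩) h11
      have h2 : ∫ s in k..x, (s - c) * (w * (x - s)) ≤ ∫ s in k..x, (s - c) * g s := by
        apply intervalIntegral.integral_mono_on hkx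
          (Continuous.intervalIntegrable (by fun_prop) _ _) (hwi k x hk0 hkx le_rfl)
        intro s hs
        exact hA s ⟨le_trans hk0 hs.1, hs.2⟩
      rw [la1_int_lin] at h1
      rw [la1_int_ramp] at h2
      have e2 : w * ((x - c) * (x - k) ^ 2 / 2 - (x - k) ^ 3 / 3) =
          g 0 * ((x - c) * (x - k) / 2 - (x - k) ^ 2 / 3) := by
        rw [← hwD, hxk]
        ring
      rw [e2] at h2
      rw [hsplit]
      nlinarith [mul_nonneg hpos.le (sq_nonneg (2 * k + x - 3 * c))]

end Vale.Agent.Lib.P254.TF
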