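import Mathlib

/-!
# P254 tail-flow route, range lemma, leaf 2: the threshold lemma (pointwise Chebyshev)

If `G` is nonincreasing on `[0, W]` and `P` is nonnegative on an initial part of `[0, W]` and
nonpositive after it, then `G(t*) P ≤ G P` pointwise for a suitable point `t*`.
-/

open MeasureTheory Set

namespace Vale.Agent.Lib.P254.TF

theorem la_threshold (W : ℝ) (hW : 0 ≤ W) (G P : ℝ → ℝ) (hG : AntitoneOn G (Icc 0 W))
    (hP : ∀ t₁ ∈ Icc 0 W, ∀ t₂ ∈ Icc 0 W, t₁ ≤ t₂ → P t₁ < 0 → P t₂ ≤ 0) :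
    ∃ k : ℝ, (∃ t ∈ Icc 0 W, k = G t) ∧ ∀ t ∈ Icc 0 W, k * P t ≤ G t * P t := by
  have h0W : (0:ℝ) ∈ Icc 0 W := left_mem_Icc.2 hW
  rcases (({t | t ∈ Icc 0 W ∧ 0 < P t} : Set ℝ)).eq_empty_or_nonempty with hemp | hne
  · refine ⟨G 0, ⟨0, h0W, rfl⟩, ?_⟩
    intro t ht
    have hPt : P t ≤ 0 := by
      by_contra hcon
      have hmem : t ∈ ({t | t ∈ Icc 0 W ∧ 0 < P t} : Set ℝ) := ⟨ht, not_le.1 hcon⟩
      rw [hemp] at hmem
      exact hmem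
    exact mul_le_mul_of_nonpos_right (hG h0W ht ht.1) hPt
  · have hbdd : BddAbove ({t | t ∈ Icc 0 W ∧ 0 < P t} : Set ℝ) := ⟨W, fun t ht => ht.1.2⟩
    obtain ⟨s0, hs0⟩ := hne
    have hstar : sSup ({t | t ∈ Icc 0 W ∧ 0 < P t} : Set ℝ) ∈ Icc 0 W :=
      ⟨le_trans hs0.1.1 (le_csSup hbdd hs0), csSup_le ⟨s0, hs0⟩ (fun t ht => ht.1.2)⟩
    refine ⟨G (sSup ({t | t ∈ Icc 0 W ∧ 0 < P t} : Set ℝ)), ⟨_, hstar, rfl⟩, ?_⟩
    intro t ht
    rcases lt_trichotomy t (sSup ({t | t ∈ Icc 0 W ∧ 0 < P t} : Set ℝ)) with hlt | heq | hgt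
    · obtain ⟨s, hs, hts⟩ := exists_lt_of_lt_csSup ⟨s0, hs0⟩ hlt
      have hPt : 0 ≤ P t := by
        by_contra hcon
        have h1 := hP t ht s hs.1 hts.le (not_le.1 hcon)
        exact absurd hs.2 (not_lt.2 h1)
      exact mul_le_mul_of_nonneg_right (hG ht hstar hlt.le) hPt
    · rw [heq]
    · have hPt : P t ≤ 0 := by
        by_contra hcon
        have hmem : t ∈ ({t | t ∈ Icc 0 W ∧ 0 < P t} : Set ℝ) := ⟨ht, not_le.1 hcon⟩
        exact absurd (le_csSup hbdd hmem) (not_le.2 hgt)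
      exact mul_le_mul_of_nonpos_right (hG hstar ht hgt.le) hPt

end Vale.Agent.Lib.P254.TF
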