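import Vale.Agent.Lib.P254.TF.LemmaA2

/-!
# P254 tail-flow route, range lemma, leaf 3: one-dimensional Berwald inequality

For `ξ ≥ 0` concave and nonincreasing on `[0, W]`: `W ∫ ξ^2 ≤ (4/3) (∫ ξ)^2`.
-/

open MeasureTheory Set

namespace Vale.Agent.Lib.P254.TF

theorem la3_lin (m c W : ℝ) :
    ∫ t in (0:ℝ)..W, (m - c * t) = m * W - c * (W ^ 2 / 2) := by
  have i1 : IntervalIntegrable (fun _ : ℝ => m) volume 0 W := intervalIntegrable_const
  have i2 : IntervalIntegrable (fun t : ℝ => c * t) volume 0 W :=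
    (continuous_const.mul continuous_id).intervalIntegrable _ _
  rw [intervalIntegral.integral_sub i1 i2,
    intervalIntegral.integral_const, intervalIntegral.integral_const_mul, integral_id]
  simp only [smul_eq_mul]
  ring

theorem la3_sq (m c W : ℝ) :
    ∫ t in (0:ℝ)..W, (m - c * t) ^ 2 = m ^ 2 * W - m * c * W ^ 2 + c ^ 2 * (W ^ 3 / 3) := by
  have h : ∀ t : ℝ, (m - c * t) ^ 2 = m ^ 2 - (2 * m * c) * t + c ^ 2 * t ^ 2 := by
    intro t
    ring
  simp only [h]
  have i1 : IntervalIntegrable (fun _ : ℝ => m ^ 2) volume 0 W := intervalIntegrable_const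
  have i2 : IntervalIntegrable (fun t : ℝ => (2 * m * c) * t) volume 0 W :=
    (continuous_const.mul continuous_id).intervalIntegrable _ _
  have i3 : IntervalIntegrable (fun t : ℝ => c ^ 2 * t ^ 2) volume 0 W :=
    (continuous_const.mul (continuous_id.pow 2)).intervalIntegrable _ _
  rw [intervalIntegral.integral_add (i1.sub i2) i3, intervalIntegral.integral_sub i1 i2,
    intervalIntegral.integral_const, intervalIntegral.integral_const_mul,
    intervalIntegral.integral_const_mul, integral_id, integral_pow]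
  simp only [smul_eq_mul]
  norm_num
  ring

theorem la_berwald (W : ℝ) (hW : 0 ≤ W) (ξ : ℝ → ℝ) (hξc : ConcaveOn ℝ (Icc 0 W) ξ)
    (hξa : AntitoneOn ξ (Icc 0 W)) (hξ0 : ∀ t ∈ Icc 0 W, 0 ≤ ξ t) :
    3 * (W * ∫ t in (0:ℝ)..W, ξ t ^ 2) ≤ 4 * (∫ t in (0:ℝ)..W, ξ t) ^ 2 := by
  rcases hW.eq_or_lt with hW0 | hWpos
  · subst hW0
    simp
  have hξi : IntervalIntegrable ξ volume 0 W := by
    apply AntitoneOn.intervalIntegrable
    rw [uIcc_of_le hW]
    exact hξa
  have hξ2a : AntitoneOn (fun t => ξ t ^ 2) (Icc 0 W) := by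
    intro s hs t ht hst
    exact pow_le_pow_left₀ (hξ0 t ht) (hξa hs ht hst) 2
  have hξ2i : IntervalIntegrable (fun t => ξ t ^ 2) volume 0 W := by
    apply AntitoneOn.intervalIntegrable
    rw [uIcc_of_le hW]
    exact hξ2a
  obtain ⟨A, hA⟩ : ∃ A : ℝ, A = ∫ t in (0:ℝ)..W, ξ t := ⟨_, rfl⟩
  rw [← hA]
  have hA0 : 0 ≤ A := by
    rw [hA]
    exact intervalIntegral.integral_nonneg hW hξ0
  obtain ⟨m, hm⟩ : ∃ m : ℝ, m = 2 * A / W := ⟨_, rfl⟩
  obtain ⟨c, hc⟩ : ∃ c : ℝ, c = m / W := ⟨_, rfl⟩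
  have hm0 : 0 ≤ m := by
    rw [hm]
    positivity
  have hc0 : 0 ≤ c := by
    rw [hc]
    positivity
  have hcW : c * W = m := by
    rw [hc]
    field_simp
  have hmW : m * W = 2 * A := by
    rw [hm]
    field_simp
  have hlamW : m - c * W = 0 := by linarith
  have hlin : ∫ t in (0:ℝ)..W, (m - c * t) = A := by
    rw [la3_lin]
    have e : c * (W ^ 2 / 2) = (c * W) * W / 2 := by ring
    rw [e, hcW]
    linarith
  have hsq : ∫ t in (0:ℝ)..W, (m - c * t) ^ 2 = m ^ 2 * W / 3 := by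
    rw [la3_sq]
    have e1 : m * c * W ^ 2 = m * (c * W) * W := by ring
    have e2 : c ^ 2 * (W ^ 3 / 3) = (c * W) ^ 2 * W / 3 := by ring
    rw [e1, e2, hcW]
    ring
  have hP : ∀ t₁ ∈ Icc 0 W, ∀ t₂ ∈ Icc 0 W, t₁ ≤ t₂ →
      (m - c * t₁) - ξ t₁ < 0 → (m - c * t₂) - ξ t₂ ≤ 0 := by
    intro t₁ h1 t₂ h2 h12 hneg
    rcases h1.2.eq_or_lt with h1W | h1W
    · have h21 : t₂ = t₁ := le_antisymm (by rw [h1W]; exact h2.2) h12
      rw [h21]
      exact hneg.le
    · have hd : 0 < W - t₁ := by linarith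
      obtain ⟨θ, hθ⟩ : ∃ θ : ℝ, θ = (t₂ - t₁) / (W - t₁) := ⟨_, rfl⟩
      have hθ0 : 0 ≤ θ := by
        rw [hθ]
        exact div_nonneg (by linarith) hd.le
      have hθ1 : θ ≤ 1 := by
        rw [hθ, div_le_one hd]
        linarith [h2.2]
      have hcomb : (1 - θ) * t₁ + θ * W = t₂ := by
        rw [hθ]
        field_simp
        ring
      have hconc := hξc.2 h1 (right_mem_Icc.2 hW) (by linarith : 0 ≤ 1 - θ) hθ0 (by ring)
      rw [smul_eq_mul, smul_eq_mul, smul_eq_mul, smul_eq_mul, hcomb] at hconc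
      have hξW : 0 ≤ ξ W := hξ0 W (right_mem_Icc.2 hW)
      have hlam2 : m - c * t₂ = (1 - θ) * (m - c * t₁) := by
        have e : m - c * t₂ = (1 - θ) * (m - c * t₁) + θ * (m - c * W) := by
          rw [← hcomb]
          ring
        rw [e, hlamW]
        ring
      rw [hlam2]
      have h3 : (1 - θ) * (m - c * t₁) ≤ (1 - θ) * ξ t₁ :=
        mul_le_mul_of_nonneg_left (by linarith) (by linarith)
      have h4 : 0 ≤ θ * ξ W := mul_nonneg hθ0 hξW
      linarith
  have hG : AntitoneOn (fun t => ξ t + (m - c * t)) (Icc 0 W) := by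
    intro s hs t ht hst
    have h1 := hξa hs ht hst
    have h2 : c * s ≤ c * t := mul_le_mul_of_nonneg_left hst hc0
    show ξ t + (m - c * t) ≤ ξ s + (m - c * s)
    linarith
  obtain ⟨k, -, hk⟩ := la_threshold W hW (fun t => ξ t + (m - c * t))
    (fun t => (m - c * t) - ξ t) hG hP
  have hlami : IntervalIntegrable (fun t : ℝ => m - c * t) volume 0 W :=
    (continuous_const.sub (continuous_const.mul continuous_id)).intervalIntegrable _ _
  have hlam2i : IntervalIntegrable (fun t : ℝ => (m - c * t) ^ 2) volume 0 W :=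
    ((continuous_const.sub (continuous_const.mul continuous_id)).pow 2).intervalIntegrable _ _
  have hint : ∫ t in (0:ℝ)..W, k * ((m - c * t) - ξ t)
      ≤ ∫ t in (0:ℝ)..W, ((m - c * t) ^ 2 - ξ t ^ 2) := by
    apply intervalIntegral.integral_mono_on hW ((hlami.sub hξi).const_mul k)
      (hlam2i.sub hξ2i)
    intro t ht
    have h := hk t ht
    have e : (ξ t + (m - c * t)) * ((m - c * t) - ξ t) = (m - c * t) ^ 2 - ξ t ^ 2 := by ring
    show k * ((m - c * t) - ξ t) ≤ (m - c * t) ^ 2 - ξ t ^ 2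
    rw [← e]
    exact h
  rw [intervalIntegral.integral_const_mul, intervalIntegral.integral_sub hlami hξi,
    intervalIntegral.integral_sub hlam2i hξ2i, hlin, hsq, ← hA] at hint
  have h5 : ∫ t in (0:ℝ)..W, ξ t ^ 2 ≤ m ^ 2 * W / 3 := by
    have e : k * (A - A) = 0 := by ring
    linarith
  have h6 : W * (∫ t in (0:ℝ)..W, ξ t ^ 2) ≤ W * (m ^ 2 * W / 3) :=
    mul_le_mul_of_nonneg_left h5 hW
  have h7 : W * (m ^ 2 * W / 3) = (m * W) ^ 2 / 3 := by ring
  have h8 : (2 * A) ^ 2 / 3 = 4 * A ^ 2 / 3 := by ring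
  rw [h7, hmW, h8] at h6
  linarith

end Vale.Agent.Lib.P254.TF
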