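import Vale.Agent.Lib.P254.TF.LemmaA1
import Vale.Agent.Lib.P254.TF.LemmaA2
import Vale.Agent.Lib.P254.TF.LemmaA3

/-!
# P254 tail-flow route, range lemma, leaf 4: the analytic core in iterated-integral form

Region `{0 ≤ t ≤ W, 0 ≤ s ≤ ξ t}` with `ξ ≥ 0` concave nonincreasing; weight `H t s ≥ 0`,
concave and nonincreasing in `s` on each fibre, nonincreasing in `t`.  Then
`∫∫ s H ≥ (3/5) β ∫∫ H` with `β = ∫ ξ^2 / (2 ∫ ξ)`, in multiplied-out form.
-/

open MeasureTheory Set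

namespace Vale.Agent.Lib.P254.TF

/-- Monotonicity of a weighted fibre integral in the fibre. -/
theorem la4_inner_mono (φ : ℝ → ℝ) (hφc : Continuous φ) (hφ0 : ∀ s, 0 ≤ s → 0 ≤ φ s)
    {x x' : ℝ} (hx' : 0 ≤ x') (hxx : x' ≤ x) (g g' : ℝ → ℝ)
    (hga : AntitoneOn g (Icc 0 x)) (hga' : AntitoneOn g' (Icc 0 x'))
    (hg0 : ∀ s ∈ Icc 0 x, 0 ≤ g s) (hle : ∀ s ∈ Icc 0 x', g' s ≤ g s) :
    ∫ s in (0:ℝ)..x', φ s * g' s ≤ ∫ s in (0:ℝ)..x, φ s * g s := by
  have hx : 0 ≤ x := hx'.trans hxx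
  have hgi : IntervalIntegrable g volume 0 x := by
    refine AntitoneOn.intervalIntegrable ?_
    rw [uIcc_of_le hx]
    exact hga
  have hgi' : IntervalIntegrable g' volume 0 x' := by
    refine AntitoneOn.intervalIntegrable ?_
    rw [uIcc_of_le hx']
    exact hga'
  have hg1 : IntervalIntegrable g volume 0 x' :=
    hgi.mono_set (by rw [uIcc_of_le hx', uIcc_of_le hx]; exact Icc_subset_Icc le_rfl hxx)
  have hg2 : IntervalIntegrable g volume x' x :=
    hgi.mono_set (by rw [uIcc_of_le hxx, uIcc_of_le hx]; exact Icc_subset_Icc hx' le_rfl)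
  have hφg1 : IntervalIntegrable (fun s => φ s * g s) volume 0 x' :=
    hg1.continuousOn_mul hφc.continuousOn
  have hφg2 : IntervalIntegrable (fun s => φ s * g s) volume x' x :=
    hg2.continuousOn_mul hφc.continuousOn
  have hφg' : IntervalIntegrable (fun s => φ s * g' s) volume 0 x' :=
    hgi'.continuousOn_mul hφc.continuousOn
  have h1 : ∫ s in (0:ℝ)..x', φ s * g' s ≤ ∫ s in (0:ℝ)..x', φ s * g s := by
    refine intervalIntegral.integral_mono_on hx' hφg' hφg1 (fun s hs => ?_)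
    exact mul_le_mul_of_nonneg_left (hle s hs) (hφ0 s hs.1)
  have h2 : 0 ≤ ∫ s in x'..x, φ s * g s := by
    refine intervalIntegral.integral_nonneg hxx (fun s hs => ?_)
    exact mul_nonneg (hφ0 s (hx'.trans hs.1)) (hg0 s ⟨hx'.trans hs.1, hs.2⟩)
  have h3 := intervalIntegral.integral_add_adjacent_intervals hφg1 hφg2
  linarith

/-- The product of two nonnegative nonincreasing functions is nonincreasing. -/
theorem la4_anti_mul {S : Set ℝ} {u v : ℝ → ℝ} (hu : AntitoneOn u S) (hv : AntitoneOn v S)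
    (hu0 : ∀ t ∈ S, 0 ≤ u t) (hv0 : ∀ t ∈ S, 0 ≤ v t) :
    AntitoneOn (fun t => u t * v t) S := by
  intro a ha b hb hab
  exact mul_le_mul (hu ha hb hab) (hv ha hb hab) (hv0 b hb) (hu0 a ha)

theorem la_core (W : ℝ) (hW : 0 ≤ W) (ξ : ℝ → ℝ) (H : ℝ → ℝ → ℝ)
    (hξc : ConcaveOn ℝ (Icc 0 W) ξ) (hξa : AntitoneOn ξ (Icc 0 W))
    (hξ0 : ∀ t ∈ Icc 0 W, 0 ≤ ξ t)
    (hH0 : ∀ t ∈ Icc 0 W, ∀ s ∈ Icc 0 (ξ t), 0 ≤ H t s)
    (hHc : ∀ t ∈ Icc 0 W, ConcaveOn ℝ (Icc 0 (ξ t)) (H t))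
    (hHa : ∀ t ∈ Icc 0 W, AntitoneOn (H t) (Icc 0 (ξ t)))
    (hHt : ∀ t ∈ Icc 0 W, ∀ t' ∈ Icc 0 W, t ≤ t' → ∀ s ∈ Icc 0 (ξ t'), H t' s ≤ H t s) :
    3 * ((∫ t in (0:ℝ)..W, ξ t ^ 2 / 2) * (∫ t in (0:ℝ)..W, ∫ s in (0:ℝ)..ξ t, H t s))
      ≤ 5 * ((∫ t in (0:ℝ)..W, ξ t) * (∫ t in (0:ℝ)..W, ∫ s in (0:ℝ)..ξ t, s * H t s)) := by
  have h0W : (0:ℝ) ∈ Icc 0 W := left_mem_Icc.2 hW
  have huIcc : uIcc (0:ℝ) W = Icc 0 W := uIcc_of_le hW
  -- monotonicity of the ingredients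
  have hξ2a : AntitoneOn (fun t => ξ t ^ 2) (Icc 0 W) := by
    intro a ha b hb hab
    exact pow_le_pow_left₀ (hξ0 b hb) (hξa ha hb hab) 2
  have hGa : AntitoneOn (fun t => H t 0) (Icc 0 W) := by
    intro a ha b hb hab
    exact hHt a ha b hb hab 0 ⟨le_rfl, hξ0 b hb⟩
  have hG0 : ∀ t ∈ Icc 0 W, 0 ≤ H t 0 := fun t ht => hH0 t ht 0 ⟨le_rfl, hξ0 t ht⟩
  have hI0a : AntitoneOn (fun t => ∫ s in (0:ℝ)..ξ t, H t s) (Icc 0 W) := by
    intro a ha b hb hab
    have h := la4_inner_mono (fun _ => (1:ℝ)) continuous_const (fun _ _ => zero_le_one)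
      (hξ0 b hb) (hξa ha hb hab) (H a) (H b) (hHa a ha) (hHa b hb) (hH0 a ha)
      (hHt a ha b hb hab)
    simpa using h
  have hI1a : AntitoneOn (fun t => ∫ s in (0:ℝ)..ξ t, s * H t s) (Icc 0 W) := by
    intro a ha b hb hab
    exact la4_inner_mono (fun s => s) continuous_id (fun _ hs => hs)
      (hξ0 b hb) (hξa ha hb hab) (H a) (H b) (hHa a ha) (hHa b hb) (hH0 a ha)
      (hHt a ha b hb hab)
  -- integrability
  have hint : ∀ {u : ℝ → ℝ}, AntitoneOn u (Icc 0 W) → IntervalIntegrable u volume 0 W := by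
    intro u hu
    refine AntitoneOn.intervalIntegrable ?_
    rw [huIcc]
    exact hu
  have hξi := hint hξa
  have hξ2i := hint hξ2a
  have hI0i := hint hI0a
  have hI1i := hint hI1a
  obtain ⟨A, hA⟩ : ∃ A : ℝ, ∫ t in (0:ℝ)..W, ξ t = A := ⟨_, rfl⟩
  obtain ⟨B, hB⟩ : ∃ B : ℝ, ∫ t in (0:ℝ)..W, ξ t ^ 2 = B := ⟨_, rfl⟩
  obtain ⟨S0, hS0⟩ : ∃ S0 : ℝ, ∫ t in (0:ℝ)..W, ∫ s in (0:ℝ)..ξ t, H t s = S0 := ⟨_, rfl⟩
  obtain ⟨S1, hS1⟩ : ∃ S1 : ℝ, ∫ t in (0:ℝ)..W, ∫ s in (0:ℝ)..ξ t, s * H t s = S1 := ⟨_, rfl⟩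
  have hBer : 3 * (W * B) ≤ 4 * A ^ 2 := by
    have h := la_berwald W hW ξ hξc hξa hξ0
    rw [hA, hB] at h
    exact h
  have hhalf : ∫ t in (0:ℝ)..W, ξ t ^ 2 / 2 = B / 2 := by
    rw [intervalIntegral.integral_div, hB]
  rw [hhalf, hA, hS0, hS1]
  have hA0 : 0 ≤ A := by
    rw [← hA]
    exact intervalIntegral.integral_nonneg hW hξ0
  have hB0 : 0 ≤ B := by
    rw [← hB]
    exact intervalIntegral.integral_nonneg hW (fun t _ => sq_nonneg _)
  have hS0nn : 0 ≤ S0 := by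
    rw [← hS0]
    refine intervalIntegral.integral_nonneg hW (fun t ht => ?_)
    exact intervalIntegral.integral_nonneg (hξ0 t ht) (hH0 t ht)
  have hS1nn : 0 ≤ S1 := by
    rw [← hS1]
    refine intervalIntegral.integral_nonneg hW (fun t ht => ?_)
    exact intervalIntegral.integral_nonneg (hξ0 t ht)
      (fun s hs => mul_nonneg hs.1 (hH0 t ht s hs))
  rcases hA0.eq_or_lt with hAz | hApos
  · -- the degenerate case: the base has no area
    have hBle : B ≤ ξ 0 * A := by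
      rw [← hA, ← hB, ← intervalIntegral.integral_const_mul]
      refine intervalIntegral.integral_mono_on hW hξ2i (hξi.const_mul _) (fun t ht => ?_)
      have h1 : ξ t ≤ ξ 0 := hξa h0W ht ht.1
      have h2 := hξ0 t ht
      nlinarith
    have hBz : B = 0 := by
      rw [← hAz, mul_zero] at hBle
      exact le_antisymm hBle hB0
    rw [hBz, ← hAz]
    simp
  · obtain ⟨c, hcdef⟩ : ∃ c : ℝ, c = 3 * B / (10 * A) := ⟨_, rfl⟩
    have hc0 : 0 ≤ c := by
      rw [hcdef]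
      positivity
    have hcA : c * A = 3 * B / 10 := by
      rw [hcdef]
      field_simp
    -- the fibre lemma on every fibre
    have hfib : ∀ t ∈ Icc 0 W,
        H t 0 * ((ξ t - 3 * c) * (ξ t + c)) / 8
          ≤ (∫ s in (0:ℝ)..ξ t, s * H t s) - c * ∫ s in (0:ℝ)..ξ t, H t s := by
      intro t ht
      have h := la_fibre (H t) (ξ t) c (hξ0 t ht) hc0 (hH0 t ht) (hHc t ht) (hHa t ht)
      have hHi : IntervalIntegrable (H t) volume 0 (ξ t) := by
        refine AntitoneOn.intervalIntegrable ?_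
        rw [uIcc_of_le (hξ0 t ht)]
        exact hHa t ht
      have hsHi : IntervalIntegrable (fun s => s * H t s) volume 0 (ξ t) :=
        hHi.continuousOn_mul continuous_id.continuousOn
      have e : ∫ s in (0:ℝ)..ξ t, (s - c) * H t s
          = (∫ s in (0:ℝ)..ξ t, s * H t s) - c * ∫ s in (0:ℝ)..ξ t, H t s := by
        rw [← intervalIntegral.integral_const_mul, ← intervalIntegral.integral_sub hsHi
          (hHi.const_mul c)]
        refine intervalIntegral.integral_congr (fun s _ => ?_)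
        show (s - c) * H t s = s * H t s - c * H t s
        ring
      rw [e] at h
      exact h
    -- the threshold lemma
    have hsign : ∀ t₁ ∈ Icc 0 W, ∀ t₂ ∈ Icc 0 W, t₁ ≤ t₂ →
        (ξ t₁ ^ 2 - 2 * c * ξ t₁ - 3 * c ^ 2) / 8 < 0 →
        (ξ t₂ ^ 2 - 2 * c * ξ t₂ - 3 * c ^ 2) / 8 ≤ 0 := by
      intro t₁ h1 t₂ h2 h12 hneg
      have hx1 := hξ0 t₁ h1
      have hx2 := hξ0 t₂ h2
      have hle : ξ t₂ ≤ ξ t₁ := hξa h1 h2 h12
      have hlt : ξ t₁ < 3 * c := by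
        by_contra hcon
        push Not at hcon
        have : 0 ≤ (ξ t₁ - 3 * c) * (ξ t₁ + c) := mul_nonneg (by linarith) (by linarith)
        nlinarith
      have : (ξ t₂ - 3 * c) * (ξ t₂ + c) ≤ 0 :=
        mul_nonpos_of_nonpos_of_nonneg (by linarith) (by linarith)
      nlinarith
    obtain ⟨k, ⟨ts, hts, hk⟩, hkP⟩ := la_threshold W hW (fun t => H t 0)
      (fun t => (ξ t ^ 2 - 2 * c * ξ t - 3 * c ^ 2) / 8) hGa hsign
    have hk0 : 0 ≤ k := by
      rw [hk]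
      exact hG0 ts hts
    -- integrate
    have hPi : IntervalIntegrable (fun t => (ξ t ^ 2 - 2 * c * ξ t - 3 * c ^ 2) / 8)
        volume 0 W :=
      ((hξ2i.sub (hξi.const_mul (2 * c))).sub intervalIntegrable_const).div_const 8
    have hPint : ∫ t in (0:ℝ)..W, (ξ t ^ 2 - 2 * c * ξ t - 3 * c ^ 2) / 8
        = (B - 2 * c * A - 3 * c ^ 2 * W) / 8 := by
      rw [intervalIntegral.integral_div,
        intervalIntegral.integral_sub (hξ2i.sub (hξi.const_mul (2 * c))) intervalIntegrable_const,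
        intervalIntegral.integral_sub hξ2i (hξi.const_mul (2 * c)),
        intervalIntegral.integral_const_mul, intervalIntegral.integral_const, hA, hB,
        smul_eq_mul, sub_zero]
      ring
    have hmono : ∫ t in (0:ℝ)..W, k * ((ξ t ^ 2 - 2 * c * ξ t - 3 * c ^ 2) / 8)
        ≤ ∫ t in (0:ℝ)..W, ((∫ s in (0:ℝ)..ξ t, s * H t s) - c * ∫ s in (0:ℝ)..ξ t, H t s) := by
      refine intervalIntegral.integral_mono_on hW (hPi.const_mul k)
        (hI1i.sub (hI0i.const_mul c)) (fun t ht => ?_)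
      have h1 := hkP t ht
      have h2 := hfib t ht
      have h3 : H t 0 * ((ξ t ^ 2 - 2 * c * ξ t - 3 * c ^ 2) / 8)
          = H t 0 * ((ξ t - 3 * c) * (ξ t + c)) / 8 := by ring
      have h4 : k * ((ξ t ^ 2 - 2 * c * ξ t - 3 * c ^ 2) / 8)
          ≤ H t 0 * ((ξ t ^ 2 - 2 * c * ξ t - 3 * c ^ 2) / 8) := h1
      linarith
    rw [intervalIntegral.integral_const_mul, hPint,
      intervalIntegral.integral_sub hI1i (hI0i.const_mul c),
      intervalIntegral.integral_const_mul, hS0, hS1] at hmono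
    -- the integral of the threshold polynomial is nonnegative
    have hX : 0 ≤ B - 2 * c * A - 3 * c ^ 2 * W := by
      have hexp : (B - 2 * c * A - 3 * c ^ 2 * W) * (100 * A ^ 2)
          = 100 * A ^ 2 * B - 200 * (c * A) * A ^ 2 - 300 * (c * A) ^ 2 * W := by ring
      rw [hcA] at hexp
      have h1 := mul_nonneg hB0 (sub_nonneg.2 hBer)
      have h2 := mul_nonneg (sq_nonneg A) hB0
      have h3 : 0 ≤ (B - 2 * c * A - 3 * c ^ 2 * W) * (100 * A ^ 2) := by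
        rw [hexp]
        nlinarith
      have h4 : (0:ℝ) < 100 * A ^ 2 := by positivity
      exact nonneg_of_mul_nonneg_left h3 h4
    have hfin : c * S0 ≤ S1 := by
      have h1 : 0 ≤ k * ((B - 2 * c * A - 3 * c ^ 2 * W) / 8) :=
        mul_nonneg hk0 (div_nonneg hX (by norm_num))
      linarith
    calc 3 * (B / 2 * S0) = 5 * (c * A * S0) := by
          rw [hcA]
          ring
      _ = 5 * (A * (c * S0)) := by ring
      _ ≤ 5 * (A * S1) := by
          have := mul_le_mul_of_nonneg_left hfin hApos.le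
          linarith

end Vale.Agent.Lib.P254.TF
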