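import Vale.Agent.Lib.P254.TF.Defs
import Vale.Agent.Lib.P254.PWJ.ProfileB

/-!
# P254 tail-flow route: continuity of the section functions

Paper: for `0 ≤ s < t < T' ≤ top K` put `lam = (t - s)/(T' - s)`.  Down-closedness gives
`sec K t ⊆ sec K s`; convexity with the point of `K` at height `T'` on the axis gives
`mu • sec K s ⊆ sec K t` with `mu = 1 - lam`.  Hence `mu^2 * sv K s ≤ sv K t ≤ sv K s` and
`mu^3 * sm K j s ≤ sm K j t ≤ sm K j s` (scaling of Lebesgue measure in the plane,
`vol_smul_two` in `Sym/BM2.lean` for the area), which gives continuity on the open interval from `0` to `top K`.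

Here both statements are read off from the profile lemmas of `PWJ/ProfileB.lean` (concavity of
the square root of the section area, and the Lipschitz comparison of the section moments with
the section area), applied with the point of the axis at the top height.
-/

open MeasureTheory Set

namespace Vale.Agent.Lib.P254.TF

variable {K : Set (Fin 3 → ℝ)}

/-- If the top height is positive, the point of the axis at the top height lies in the corner. -/
theorem sc_top_mem (hK : Corner K) (hpos : 0 < top K) :
    (![top K, 0, 0] : Fin 3 → ℝ) ∈ K := by
  have hne : K.Nonempty := by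
    by_contra hemp
    rw [not_nonempty_iff_eq_empty] at hemp
    have h0 : top K = 0 := by
      unfold top
      rw [hemp, image_empty, Real.sSup_empty]
    linarith
  have hPc : IsCompact ((fun x : Fin 3 → ℝ => x 0) '' K) := hK.1.image (continuous_apply 0)
  obtain ⟨p, hpK, hpa⟩ := hPc.sSup_mem (hne.image _)
  have hp0 : p 0 = top K := hpa
  refine hK.2.2.2 p hpK _ ?_ ?_
  · intro i
    fin_cases i
    · simpa using hpos.le
    · simp
    · simp
  · intro i
    fin_cases i
    · simp [hp0]
    · simpa using hK.2.2.1 p hpK 1
    · simpa using hK.2.2.1 p hpK 2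

theorem sv_continuousOn (hK : Corner K) : ContinuousOn (sv K) (Ioo 0 (top K)) := by
  rcases le_or_gt (top K) 0 with h0 | hpos
  · rw [Ioo_eq_empty (not_lt.2 h0)]
    exact continuousOn_empty _
  · exact profile_continuousOn hK (sc_top_mem hK hpos)

theorem sm_continuousOn (hK : Corner K) (j : Fin 2) :
    ContinuousOn (sm K j) (Ioo 0 (top K)) := by
  rcases le_or_gt (top K) 0 with h0 | hpos
  · rw [Ioo_eq_empty (not_lt.2 h0)]
    exact continuousOn_empty _
  · exact secMoment_continuousOn hK (sc_top_mem hK hpos) j

end Vale.Agent.Lib.P254.TF
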