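import Vale.Agent.Lib.P254.TF.Star
import Vale.Agent.Lib.P254.TF.SecCont
import Vale.Agent.Lib.P254.TF.Box
import Vale.Agent.Lib.P254.TailFlow

/-!
# P254 tail-flow route: the centroid inequality for convex corners in dimension three
-/

open MeasureTheory Set

namespace Vale.Agent.Lib.P254.TF

/-- The centroid inequality for convex corners in dimension three (tail-flow route). -/
theorem corner_I2_three_tf (K : Set (Fin 3 → ℝ)) (hK : Corner K) :
    8 * ((∫ x in K, x 0) * (∫ x in K, x 1) * (∫ x in K, x 2)) ≤ (vol K) ^ 4 := by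
  have hV0 : 0 ≤ vol K := ENNReal.toReal_nonneg
  rcases hV0.eq_or_lt with hV | hV
  · rw [mom_eq_zero_of_vol hK hV.symm 0, ← hV]
    simp
  set T := top K with hTdef
  have hT : 0 < T := top_pos hK hV
  have hle : ∀ x ∈ K, x 0 ≤ T := le_top hK
  set N : ℝ → ℝ := fun t => ∫ τ in t..T, sv K τ with hN
  set R : ℝ → ℝ := fun t => ∫ τ in t..T, N τ with hR
  set Q : Fin 2 → ℝ → ℝ := fun j t => ∫ τ in t..T, sm K j τ with hQ
  have hNpos : ∀ t, 0 ≤ t → t < T → 0 < N t := by
    intro t ht0 htT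
    exact intervalIntegral.intervalIntegral_pos_of_pos_on (sv_intervalIntegrable hK t T)
      (fun x hx => sv_pos hK hV ⟨ht0.trans hx.1.le, hx.2⟩) htT
  have key : ∀ t, 0 ≤ t → t < T →
      Corner (tailBody K t) ∧ vol (tailBody K t) = N t ∧ (∫ x in tailBody K t, x 0) = R t ∧
        (∫ x in tailBody K t, x 1) = Q 0 t ∧ (∫ x in tailBody K t, x 2) = Q 1 t ∧
        vol (sec (tailBody K t) 0) = sv K t ∧ (∫ y in sec (tailBody K t) 0, y 0) = sm K 0 t ∧
        (∫ y in sec (tailBody K t) 0, y 1) = sm K 1 t := by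
    intro t ht0 htT
    have hs : sec (tailBody K t) 0 = sec K t := by
      rw [sec_tailBody hK ht0 (le_refl 0), zero_add]
    refine ⟨corner_tailBody hK ht0, vol_tailBody hK ht0 htT.le hle,
      mom0_tailBody hK ht0 htT.le hle, momj_tailBody hK ht0 htT.le hle 0,
      momj_tailBody hK ht0 htT.le hle 1, ?_, ?_, ?_⟩
    · rw [hs]
      rfl
    · rw [hs]
      rfl
    · rw [hs]
      rfl
  have hpos : ∀ t, 0 ≤ t → t < T → 0 < R t ∧ 0 < Q 0 t ∧ 0 < Q 1 t := by
    intro t ht0 htT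
    obtain ⟨hc, e1, e2, e3, e4, -, -, -⟩ := key t ht0 htT
    have hVt : 0 < vol (tailBody K t) := by
      rw [e1]
      exact hNpos t ht0 htT
    refine ⟨?_, ?_, ?_⟩
    · rw [← e2]
      exact mom_pos hc hVt 0
    · rw [← e3]
      exact mom_pos hc hVt 1
    · rw [← e4]
      exact mom_pos hc hVt 2
  have H1 : ∀ t ∈ Ioo 0 T,
      N t ^ 2 / (sv K t * R t) + ∑ j, sm K j t * N t / (sv K t * Q j t) - ((2:ℕ) + 2 : ℝ) ≤
        ((2:ℕ) + 2 : ℝ) * Real.log (N t) - Real.log (2 * R t) -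
          ∑ j, Real.log (2 * Q j t) := by
    intro t ht
    obtain ⟨hc, e1, e2, e3, e4, e5, e6, e7⟩ := key t ht.1.le ht.2
    have hVt : 0 < vol (tailBody K t) := by
      rw [e1]
      exact hNpos t ht.1.le ht.2
    have h := star0 hc hVt
    rw [e1, e2, e3, e4, e5, e6, e7] at h
    simp only [Fin.sum_univ_two]
    norm_num
    linarith
  have H2 : ∀ t ∈ Ioo 0 T,
      -(3 * Real.log 2) ≤ ((2:ℕ) + 2 : ℝ) * Real.log (N t) - Real.log (2 * R t) -
          ∑ j, Real.log (2 * Q j t) := by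
    intro t ht
    obtain ⟨hc, e1, e2, e3, e4, -, -, -⟩ := key t ht.1.le ht.2
    obtain ⟨hR0, hQ0, hQ1⟩ := hpos t ht.1.le ht.2
    have hNt := hNpos t ht.1.le ht.2
    have hbox := corner_box hc
    rw [e1, e2, e3, e4] at hbox
    have hlog := Real.log_le_log (by positivity) hbox
    rw [Real.log_mul (by positivity) hQ1.ne', Real.log_mul hR0.ne' hQ0.ne', Real.log_pow] at hlog
    simp only [Fin.sum_univ_two]
    rw [Real.log_mul (by norm_num) hR0.ne', Real.log_mul (by norm_num) hQ0.ne',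
      Real.log_mul (by norm_num) hQ1.ne']
    push_cast at hlog ⊢
    linarith
  have hmain := Vale.Agent.P254.TailFlow.tail_flow 2 T hT (sv K) (sm K) (sv_continuousOn hK)
    (sv_intervalIntegrable hK 0 T) (fun t ht => sv_pos hK hV ⟨ht.1.le, ht.2⟩)
    (fun j => sm_continuousOn hK j) (fun j => sm_intervalIntegrable hK j 0 T)
    (fun j t ht => sm_pos hK hV j ⟨ht.1.le, ht.2⟩) N R Q (fun t => rfl) (fun t => rfl)
    (fun j t => rfl) (3 * Real.log 2) H1 H2
  obtain ⟨-, e1, e2, e3, e4, -, -, -⟩ := key 0 (le_refl 0) hT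
  rw [tailBody_zero hK] at e1 e2 e3 e4
  rw [e1, e2, e3, e4]
  simp only [Fin.prod_univ_two] at hmain
  norm_num at hmain
  linarith

end Vale.Agent.Lib.P254.TF
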