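import Mathlib
import Vale.Agent.Lib.P254.TailFlow

/-!
# P254, tail-flow route: planar corners in profile form

A planar convex corner `F = {0 ≤ y ≤ a, 0 ≤ z ≤ L y}` is described by its chord-length profile
`L`, concave, nonincreasing and nonnegative on `[0, a]`.  With
`V = ∫ L` (area), `A = ∫ y L` (first moment of `y`), `Q = ∫ L ^ 2` (twice the first moment
of `z`) and `X = ∫ y L ^ 2` (twice the mixed moment) we prove

* `p1_cheb`      : `V X ≤ A Q`                  (the covariance of the coordinates is `≤ 0`);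
* `p1_rp`        : `3 Q A ≤ V ^ 3 + V X`        (refined planar centroid inequality);
* `p1_bath`      : `4 V ^ 3 ≤ 9 A Q`            (bathtub bound for the area);
* `p1_cov_lower` : `3 / 4 * A * Q ≤ V X`        (the normalised covariance is `≥ -1/4`);
* `p1_I22`       : `2 Q A ≤ V ^ 3`              (planar centroid inequality `|F| ≥ 4 β₁ β₂`).
-/

namespace Vale.Agent.Lib.P254.TF

open MeasureTheory Set

/-- Chord-length profile of a planar convex corner: concave, nonincreasing, nonnegative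
on `[0, a]`, with `a > 0`. -/
structure Prof1 (a : ℝ) (L : ℝ → ℝ) : Prop where
  pos : 0 < a
  conc : ConcaveOn ℝ (Icc 0 a) L
  anti : AntitoneOn L (Icc 0 a)
  nonneg : ∀ y ∈ Icc 0 a, 0 ≤ L y

/-- The tail integral of the profile. -/
noncomputable def tl (a : ℝ) (L : ℝ → ℝ) (y : ℝ) : ℝ := ∫ u in y..a, L u

/-- Integral of a linear combination of four functions. -/
lemma p1_lin4 {f1 f2 f3 f4 : ℝ → ℝ} {u v : ℝ} (c1 c2 c3 c4 : ℝ)
    (h1 : IntervalIntegrable f1 volume u v) (h2 : IntervalIntegrable f2 volume u v)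
    (h3 : IntervalIntegrable f3 volume u v) (h4 : IntervalIntegrable f4 volume u v) :
    ∫ y in u..v, (c1 * f1 y + c2 * f2 y + c3 * f3 y + c4 * f4 y)
      = c1 * (∫ y in u..v, f1 y) + c2 * (∫ y in u..v, f2 y) + c3 * (∫ y in u..v, f3 y)
        + c4 * (∫ y in u..v, f4 y) := by
  rw [intervalIntegral.integral_add
      (((h1.const_mul c1).add (h2.const_mul c2)).add (h3.const_mul c3)) (h4.const_mul c4),
    intervalIntegral.integral_add ((h1.const_mul c1).add (h2.const_mul c2)) (h3.const_mul c3),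
    intervalIntegral.integral_add (h1.const_mul c1) (h2.const_mul c2)]
  simp only [intervalIntegral.integral_const_mul]

/-- Integral of an affine function. -/
lemma p1_affine (c0 c1 u v : ℝ) :
    ∫ x in u..v, (c0 + c1 * x) = c0 * (v - u) + c1 * ((v ^ 2 - u ^ 2) / 2) := by
  rw [intervalIntegral.integral_add (Continuous.intervalIntegrable (by fun_prop) _ _)
    (Continuous.intervalIntegrable (by fun_prop) _ _)]
  rw [intervalIntegral.integral_const_mul, integral_id]
  simp
  ring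

namespace Prof1

variable {a : ℝ} {L : ℝ → ℝ}

lemma zero_mem (h : Prof1 a L) : (0 : ℝ) ∈ Icc 0 a := ⟨le_rfl, h.pos.le⟩

lemma a_mem (h : Prof1 a L) : a ∈ Icc 0 a := ⟨h.pos.le, le_rfl⟩

lemma sub_Icc {u v : ℝ} (hu : u ∈ Icc 0 a) (hv : v ∈ Icc 0 a) : uIcc u v ⊆ Icc 0 a := by
  intro x hx
  rcases le_total u v with huv | huv
  · rw [uIcc_of_le huv] at hx
    exact ⟨hu.1.trans hx.1, hx.2.trans hv.2⟩
  · rw [uIcc_of_ge huv] at hx
    exact ⟨hv.1.trans hx.1, hx.2.trans hu.2⟩

lemma ii (h : Prof1 a L) {u v : ℝ} (hu : u ∈ Icc 0 a) (hv : v ∈ Icc 0 a) :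
    IntervalIntegrable L volume u v :=
  (h.anti.mono (sub_Icc hu hv)).intervalIntegrable

lemma sq_anti (h : Prof1 a L) : AntitoneOn (fun y => L y ^ 2) (Icc 0 a) := by
  intro s hs t ht hst
  exact pow_le_pow_left₀ (h.nonneg t ht) (h.anti hs ht hst) 2

lemma ii_sq (h : Prof1 a L) {u v : ℝ} (hu : u ∈ Icc 0 a) (hv : v ∈ Icc 0 a) :
    IntervalIntegrable (fun y => L y ^ 2) volume u v :=
  (h.sq_anti.mono (sub_Icc hu hv)).intervalIntegrable

lemma ii_id_mul (h : Prof1 a L) {u v : ℝ} (hu : u ∈ Icc 0 a) (hv : v ∈ Icc 0 a) :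
    IntervalIntegrable (fun y => y * L y) volume u v :=
  (h.ii hu hv).continuousOn_mul continuousOn_id

lemma ii_id_mul_sq (h : Prof1 a L) {u v : ℝ} (hu : u ∈ Icc 0 a) (hv : v ∈ Icc 0 a) :
    IntervalIntegrable (fun y => y * L y ^ 2) volume u v :=
  (h.ii_sq hu hv).continuousOn_mul continuousOn_id

lemma cont (h : Prof1 a L) : ContinuousOn L (Ioo 0 a) := by
  have h1 := h.conc.continuousOn_interior
  rwa [interior_Icc] at h1

lemma V_nonneg (h : Prof1 a L) : 0 ≤ ∫ y in (0:ℝ)..a, L y :=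
  intervalIntegral.integral_nonneg h.pos.le h.nonneg

lemma A_nonneg (h : Prof1 a L) : 0 ≤ ∫ y in (0:ℝ)..a, y * L y :=
  intervalIntegral.integral_nonneg h.pos.le (fun y hy => mul_nonneg hy.1 (h.nonneg y hy))

lemma Q_nonneg (h : Prof1 a L) : 0 ≤ ∫ y in (0:ℝ)..a, L y ^ 2 :=
  intervalIntegral.integral_nonneg h.pos.le (fun _ _ => sq_nonneg _)

lemma X_nonneg (h : Prof1 a L) : 0 ≤ ∫ y in (0:ℝ)..a, y * L y ^ 2 :=
  intervalIntegral.integral_nonneg h.pos.le (fun _ hy => mul_nonneg hy.1 (sq_nonneg _))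

lemma A_le (h : Prof1 a L) : ∫ y in (0:ℝ)..a, y * L y ≤ a * ∫ y in (0:ℝ)..a, L y := by
  rw [← intervalIntegral.integral_const_mul]
  exact intervalIntegral.integral_mono_on h.pos.le (h.ii_id_mul h.zero_mem h.a_mem)
    ((h.ii h.zero_mem h.a_mem).const_mul a)
    (fun y hy => mul_le_mul_of_nonneg_right hy.2 (h.nonneg y hy))

end Prof1

/-- **(4b)** Chebyshev: the two coordinates of a planar convex corner are negatively
correlated, `V X ≤ A Q`. -/
theorem p1_cheb {a : ℝ} {L : ℝ → ℝ} (h : Prof1 a L) :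
    (∫ y in (0:ℝ)..a, L y) * (∫ y in (0:ℝ)..a, y * L y ^ 2)
      ≤ (∫ y in (0:ℝ)..a, y * L y) * (∫ y in (0:ℝ)..a, L y ^ 2) := by
  have hV0 := h.V_nonneg
  have hA0 := h.A_nonneg
  have hQ0 := h.Q_nonneg
  rcases hV0.eq_or_lt with hV | hV
  · rw [← hV, zero_mul]
    exact mul_nonneg hA0 hQ0
  obtain ⟨p, hp⟩ : ∃ p : ℝ, p = (∫ y in (0:ℝ)..a, y * L y) / (∫ y in (0:ℝ)..a, L y) := ⟨_, rfl⟩
  have hp0 : 0 ≤ p := by rw [hp]; exact div_nonneg hA0 hV0
  have hpa : p ≤ a := by
    rw [hp, div_le_iff₀ hV]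
    exact h.A_le
  have hpm : p ∈ Icc 0 a := ⟨hp0, hpa⟩
  have hpV : p * (∫ y in (0:ℝ)..a, L y) = ∫ y in (0:ℝ)..a, y * L y := by
    rw [hp]
    field_simp
  have key : 0 ≤ ∫ y in (0:ℝ)..a,
      ((-1) * (y * L y ^ 2) + p * L y ^ 2 + L p * (y * L y) + (-(L p * p)) * L y) := by
    apply intervalIntegral.integral_nonneg h.pos.le
    intro y hy
    have e : (-1) * (y * L y ^ 2) + p * L y ^ 2 + L p * (y * L y) + (-(L p * p)) * L y
        = L y * ((p - y) * (L y - L p)) := by ring
    rw [e]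
    apply mul_nonneg (h.nonneg y hy)
    rcases le_total y p with hyp | hyp
    · exact mul_nonneg (by linarith) (by linarith [h.anti hy hpm hyp])
    · exact mul_nonneg_of_nonpos_of_nonpos (by linarith) (by linarith [h.anti hpm hy hyp])
  rw [p1_lin4 _ _ _ _ (h.ii_id_mul_sq h.zero_mem h.a_mem) (h.ii_sq h.zero_mem h.a_mem)
    (h.ii_id_mul h.zero_mem h.a_mem) (h.ii h.zero_mem h.a_mem)] at key
  have e1 : L p * p * (∫ y in (0:ℝ)..a, L y) = L p * (∫ y in (0:ℝ)..a, y * L y) := by
    rw [mul_assoc, hpV]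
  have h1 : (∫ y in (0:ℝ)..a, y * L y ^ 2) ≤ p * (∫ y in (0:ℝ)..a, L y ^ 2) := by
    linarith [key, e1]
  have h2 := mul_le_mul_of_nonneg_left h1 hV0
  have e2 : (∫ y in (0:ℝ)..a, L y) * (p * (∫ y in (0:ℝ)..a, L y ^ 2))
      = (∫ y in (0:ℝ)..a, y * L y) * (∫ y in (0:ℝ)..a, L y ^ 2) := by
    rw [← hpV]
    ring
  linarith [h2, e2]

namespace Prof1

variable {a : ℝ} {L : ℝ → ℝ}

lemma tl_cont (h : Prof1 a L) : ContinuousOn (tl a L) (Icc 0 a) :=
  Vale.Agent.P254.TailFlow.tail_cont h.pos (h.ii h.zero_mem h.a_mem)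

lemma tl_deriv (h : Prof1 a L) {y : ℝ} (hy : y ∈ Ioo 0 a) : HasDerivAt (tl a L) (-L y) y :=
  Vale.Agent.P254.TailFlow.tail_deriv h.pos (h.ii h.zero_mem h.a_mem) h.cont hy

lemma tl_a : tl a L a = 0 := by simp [tl]

lemma ii_tl (h : Prof1 a L) : IntervalIntegrable (tl a L) volume 0 a := by
  apply ContinuousOn.intervalIntegrable
  rw [uIcc_of_le h.pos.le]
  exact h.tl_cont

lemma ii_tl_mul (h : Prof1 a L) : IntervalIntegrable (fun y => tl a L y * L y) volume 0 a := by
  apply (h.ii h.zero_mem h.a_mem).continuousOn_mul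
  rw [uIcc_of_le h.pos.le]
  exact h.tl_cont

/-- `∫ S L = V ^ 2 / 2` for the tail integral `S`. -/
lemma int_tl_mul (h : Prof1 a L) :
    ∫ y in (0:ℝ)..a, tl a L y * L y = (∫ y in (0:ℝ)..a, L y) ^ 2 / 2 := by
  have hF : ∀ y ∈ Ioo 0 a, HasDerivAt (fun y => -(tl a L y ^ 2) / 2) (tl a L y * L y) y := by
    intro y hy
    refine ((((h.tl_deriv hy).pow 2).neg).div_const 2).congr_deriv ?_
    simp
    ring
  have hc : ContinuousOn (fun y => -(tl a L y ^ 2) / 2) (Icc 0 a) :=
    ((h.tl_cont.pow 2).neg).div_const 2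
  rw [intervalIntegral.integral_eq_sub_of_hasDerivAt_of_le h.pos.le hc hF h.ii_tl_mul, tl_a]
  simp only [tl]
  ring

/-- `∫ S = ∫ y L` for the tail integral `S`. -/
lemma int_tl (h : Prof1 a L) : ∫ y in (0:ℝ)..a, tl a L y = ∫ y in (0:ℝ)..a, y * L y := by
  have hF : ∀ y ∈ Ioo 0 a, HasDerivAt (fun y => y * tl a L y) (tl a L y - y * L y) y := by
    intro y hy
    refine ((hasDerivAt_id y).mul (h.tl_deriv hy)).congr_deriv ?_
    simp
    ring
  have hc : ContinuousOn (fun y => y * tl a L y) (Icc 0 a) := continuousOn_id.mul h.tl_cont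
  have hi : IntervalIntegrable (fun y => tl a L y - y * L y) volume 0 a :=
    h.ii_tl.sub (h.ii_id_mul h.zero_mem h.a_mem)
  have h1 := intervalIntegral.integral_eq_sub_of_hasDerivAt_of_le h.pos.le hc hF hi
  rw [intervalIntegral.integral_sub h.ii_tl (h.ii_id_mul h.zero_mem h.a_mem), tl_a] at h1
  simp at h1
  linarith

/-- The secant inequality: the product of `t - s`, `L s` and `L t` is at most twice
`S s * L t - S t * L s`, for `s ≤ t` and the tail integral `S`. -/
lemma secant (h : Prof1 a L) {s t : ℝ} (hs : s ∈ Icc 0 a) (ht : t ∈ Icc 0 a) (hst : s ≤ t) :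
    (t - s) * (L s * L t) ≤ 2 * (tl a L s * L t - tl a L t * L s) := by
  rcases hst.eq_or_lt with heq | hlt
  · rw [heq]
    simp
  have hh : 0 < t - s := sub_pos.2 hlt
  have hD : 0 ≤ L s - L t := sub_nonneg.2 (h.anti hs ht hst)
  have hLt := h.nonneg t ht
  have hsplit : tl a L s = (∫ u in s..t, L u) + tl a L t := by
    unfold tl
    rw [intervalIntegral.integral_add_adjacent_intervals (h.ii hs ht) (h.ii ht h.a_mem)]
  -- lower bound for the integral over `[s, t]`
  have hi : (t - s) ^ 2 / 2 * (L s + L t) ≤ (t - s) * ∫ u in s..t, L u := by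
    have hchord : ∀ u ∈ Icc s t, (t * L s - s * L t) + (L t - L s) * u ≤ (t - s) * L u := by
      intro u hu
      have hc := h.conc.2 hs ht (div_nonneg (sub_nonneg.2 hu.2) hh.le)
        (div_nonneg (sub_nonneg.2 hu.1) hh.le) (by field_simp; ring)
      simp only [smul_eq_mul] at hc
      have e : (t - u) / (t - s) * s + (u - s) / (t - s) * t = u := by
        field_simp
        ring
      rw [e] at hc
      have h2 := mul_le_mul_of_nonneg_left hc hh.le
      have e2 : (t - s) * ((t - u) / (t - s) * L s + (u - s) / (t - s) * L t)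
          = (t * L s - s * L t) + (L t - L s) * u := by
        field_simp
        ring
      rw [e2] at h2
      exact h2
    have hint := intervalIntegral.integral_mono_on hst
      (Continuous.intervalIntegrable (by fun_prop) _ _) ((h.ii hs ht).const_mul (t - s)) hchord
    rw [intervalIntegral.integral_const_mul, p1_affine] at hint
    have e3 : (t * L s - s * L t) * (t - s) + (L t - L s) * ((t ^ 2 - s ^ 2) / 2)
        = (t - s) ^ 2 / 2 * (L s + L t) := by ring
    linarith
  -- upper bound for the tail integral beyond `t`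
  have hii : (t - s) * tl a L t ≤ (t - s) * L t * (a - t) - (L s - L t) * (a - t) ^ 2 / 2 := by
    have hpt : ∀ u ∈ Icc t a, (t - s) * L u ≤ ((t - s) * L t + (L s - L t) * t)
        + (-(L s - L t)) * u := by
      intro u hu
      have hum : u ∈ Icc 0 a := ⟨ht.1.trans hu.1, hu.2⟩
      have hus : 0 < u - s := by linarith [hu.1]
      have hc := h.conc.2 hs hum (div_nonneg (sub_nonneg.2 hu.1) hus.le)
        (div_nonneg hh.le hus.le) (by field_simp; ring)
      simp only [smul_eq_mul] at hc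
      have e : (u - t) / (u - s) * s + (t - s) / (u - s) * u = t := by
        field_simp
        ring
      rw [e] at hc
      have h2 := mul_le_mul_of_nonneg_left hc hus.le
      have e2 : (u - s) * ((u - t) / (u - s) * L s + (t - s) / (u - s) * L u)
          = (u - t) * L s + (t - s) * L u := by
        field_simp
      rw [e2] at h2
      linarith
    have hint := intervalIntegral.integral_mono_on ht.2 ((h.ii ht h.a_mem).const_mul (t - s))
      (Continuous.intervalIntegrable (by fun_prop) _ _) hpt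
    rw [intervalIntegral.integral_const_mul, p1_affine] at hint
    have e3 : ((t - s) * L t + (L s - L t) * t) * (a - t) + (-(L s - L t)) * ((a ^ 2 - t ^ 2) / 2)
        = (t - s) * L t * (a - t) - (L s - L t) * (a - t) ^ 2 / 2 := by ring
    unfold tl
    linarith
  rw [hsplit]
  have h1 : (t - s) ^ 2 * (L s + L t) * L t ≤ (t - s) * (2 * (∫ u in s..t, L u) * L t) := by
    nlinarith [mul_le_mul_of_nonneg_right hi hLt]
  have h2 : 2 * (L s - L t) * ((t - s) * tl a L t) ≤ (t - s) ^ 2 * L t ^ 2 := by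
    have h3 := mul_le_mul_of_nonneg_left hii (by linarith : (0:ℝ) ≤ 2 * (L s - L t))
    nlinarith [sq_nonneg ((t - s) * L t - (L s - L t) * (a - t))]
  have h3 : (t - s) * ((t - s) * (L s * L t))
      ≤ (t - s) * (2 * (((∫ u in s..t, L u) + tl a L t) * L t - tl a L t * L s)) := by
    nlinarith
  exact le_of_mul_le_mul_left h3 hh

end Prof1

/-- **(RP)** refined planar centroid inequality in profile form: `3 Q A ≤ V ^ 3 + V X`. -/
theorem p1_rp {a : ℝ} {L : ℝ → ℝ} (h : Prof1 a L) :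
    3 * (∫ y in (0:ℝ)..a, L y ^ 2) * (∫ y in (0:ℝ)..a, y * L y)
      ≤ (∫ y in (0:ℝ)..a, L y) ^ 3
        + (∫ y in (0:ℝ)..a, L y) * (∫ y in (0:ℝ)..a, y * L y ^ 2) := by
  obtain ⟨P, hPdef⟩ : ∃ P : ℝ → ℝ, P = fun y => 2 * tl a L y + y * L y := ⟨_, rfl⟩
  have hPy : ∀ y, P y = 2 * tl a L y + y * L y := fun y => by rw [hPdef]
  have iL := h.ii h.zero_mem h.a_mem
  have iQ := h.ii_sq h.zero_mem h.a_mem
  have iA := h.ii_id_mul h.zero_mem h.a_mem
  have iX := h.ii_id_mul_sq h.zero_mem h.a_mem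
  have iP : IntervalIntegrable P volume 0 a := by
    rw [hPdef]
    exact (h.ii_tl.const_mul 2).add iA
  have iPL : IntervalIntegrable (fun y => P y * L y) volume 0 a := by
    have e : (fun y => P y * L y) = fun y => 2 * (tl a L y * L y) + y * L y ^ 2 := by
      funext y
      rw [hPy]
      ring
    rw [e]
    exact (h.ii_tl_mul.const_mul 2).add iX
  have hP : ∫ y in (0:ℝ)..a, P y = 3 * ∫ y in (0:ℝ)..a, y * L y := by
    rw [hPdef, intervalIntegral.integral_add (h.ii_tl.const_mul 2) iA,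
      intervalIntegral.integral_const_mul, h.int_tl]
    ring
  have hPL : ∫ y in (0:ℝ)..a, P y * L y
      = (∫ y in (0:ℝ)..a, L y) ^ 2 + ∫ y in (0:ℝ)..a, y * L y ^ 2 := by
    have e : (fun y => P y * L y) = fun y => 2 * (tl a L y * L y) + y * L y ^ 2 := by
      funext y
      rw [hPy]
      ring
    rw [e, intervalIntegral.integral_add (h.ii_tl_mul.const_mul 2) iX,
      intervalIntegral.integral_const_mul, h.int_tl_mul]
    ring
  have key : 0 ≤ ∫ s in (0:ℝ)..a, ∫ t in (0:ℝ)..a,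
      ((P s * L s) * L t + (-(P s)) * L t ^ 2 + (-(L s ^ 2)) * P t + L s * (P t * L t)) := by
    apply intervalIntegral.integral_nonneg h.pos.le
    intro s hs
    apply intervalIntegral.integral_nonneg h.pos.le
    intro t ht
    have e : (P s * L s) * L t + (-(P s)) * L t ^ 2 + (-(L s ^ 2)) * P t + L s * (P t * L t)
        = (P s * L t - P t * L s) * (L s - L t) := by ring
    rw [e]
    rcases le_total s t with hst | hst
    · have h1 := h.secant hs ht hst
      apply mul_nonneg _ (sub_nonneg.2 (h.anti hs ht hst))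
      rw [hPy, hPy]
      nlinarith
    · have h1 := h.secant ht hs hst
      apply mul_nonneg_of_nonpos_of_nonpos _ (sub_nonpos.2 (h.anti ht hs hst))
      rw [hPy, hPy]
      nlinarith
  have inner : ∀ s, ∫ t in (0:ℝ)..a,
      ((P s * L s) * L t + (-(P s)) * L t ^ 2 + (-(L s ^ 2)) * P t + L s * (P t * L t))
      = (∫ y in (0:ℝ)..a, L y) * (P s * L s) + (-(∫ y in (0:ℝ)..a, L y ^ 2)) * P s
        + (-(3 * ∫ y in (0:ℝ)..a, y * L y)) * L s ^ 2
        + ((∫ y in (0:ℝ)..a, L y) ^ 2 + ∫ y in (0:ℝ)..a, y * L y ^ 2) * L s := by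
    intro s
    rw [p1_lin4 _ _ _ _ iL iQ iP iPL, hP, hPL]
    ring
  simp only [inner] at key
  rw [p1_lin4 _ _ _ _ iPL iP iQ iL, hP, hPL] at key
  nlinarith [key]

/-- **Bathtub bound**: `V ≤ p A + q Q + 1 / (12 p q)` for all `p, q > 0`. -/
lemma p1_bath_pq {a : ℝ} {L : ℝ → ℝ} (h : Prof1 a L) {p q : ℝ} (hp : 0 < p) (hq : 0 < q) :
    (∫ y in (0:ℝ)..a, L y) ≤ p * (∫ y in (0:ℝ)..a, y * L y) + q * (∫ y in (0:ℝ)..a, L y ^ 2)
      + 1 / (12 * p * q) := by
  -- the pointwise bound
  have hpt : ∀ y : ℝ, L y ≤ p * (y * L y) + q * L y ^ 2 + (1 - p * y) ^ 2 / (4 * q) := by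
    intro y
    have e : p * (y * L y) + q * L y ^ 2 + (1 - p * y) ^ 2 / (4 * q) - L y
        = (2 * q * L y - (1 - p * y)) ^ 2 / (4 * q) := by
      field_simp
      ring
    have h1 : 0 ≤ (2 * q * L y - (1 - p * y)) ^ 2 / (4 * q) := by positivity
    linarith
  -- the integral of the quadratic
  have hquad : ∀ c : ℝ, ∫ y in (0:ℝ)..c, (1 - p * y) ^ 2 / (4 * q)
      = (1 - (1 - p * c) ^ 3) / (12 * p * q) := by
    intro c
    have hd : ∀ y ∈ uIcc 0 c, HasDerivAt (fun y : ℝ => -((1 - p * y) ^ 3) / (12 * p * q))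
        ((1 - p * y) ^ 2 / (4 * q)) y := by
      intro y _
      have h1 : HasDerivAt (fun y : ℝ => 1 - p * y) (-(p * 1)) y :=
        ((hasDerivAt_id y).const_mul p).const_sub 1
      refine (((h1.pow 3).neg).div_const (12 * p * q)).congr_deriv ?_
      field_simp
      ring
    rw [intervalIntegral.integral_eq_sub_of_hasDerivAt hd
      (Continuous.intervalIntegrable (by fun_prop) _ _)]
    field_simp
    ring
  have hcm : ∀ c ∈ Icc 0 a, IntervalIntegrable
      (fun y => p * (y * L y) + q * L y ^ 2 + (1 - p * y) ^ 2 / (4 * q)) volume 0 c := by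
    intro c hc
    exact (((h.ii_id_mul h.zero_mem hc).const_mul p).add ((h.ii_sq h.zero_mem hc).const_mul q)).add
      (Continuous.intervalIntegrable (by fun_prop) _ _)
  have hsum : ∀ c ∈ Icc 0 a, ∫ y in (0:ℝ)..c,
      (p * (y * L y) + q * L y ^ 2 + (1 - p * y) ^ 2 / (4 * q))
      = p * (∫ y in (0:ℝ)..c, y * L y) + q * (∫ y in (0:ℝ)..c, L y ^ 2)
        + (1 - (1 - p * c) ^ 3) / (12 * p * q) := by
    intro c hc
    rw [intervalIntegral.integral_add
        (((h.ii_id_mul h.zero_mem hc).const_mul p).add ((h.ii_sq h.zero_mem hc).const_mul q))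
        (Continuous.intervalIntegrable (by fun_prop) _ _),
      intervalIntegral.integral_add ((h.ii_id_mul h.zero_mem hc).const_mul p)
        ((h.ii_sq h.zero_mem hc).const_mul q),
      intervalIntegral.integral_const_mul, intervalIntegral.integral_const_mul, hquad c]
  have hpq : (0:ℝ) < 12 * p * q := by positivity
  rcases le_or_gt (p * a) 1 with hpa | hpa
  · -- the whole interval lies under the triangle
    have h1 := intervalIntegral.integral_mono_on h.pos.le (h.ii h.zero_mem h.a_mem)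
      (hcm a h.a_mem) (fun y _ => hpt y)
    rw [hsum a h.a_mem] at h1
    have h2 : (1 - (1 - p * a) ^ 3) / (12 * p * q) ≤ 1 / (12 * p * q) := by
      apply div_le_div_of_nonneg_right _ hpq.le
      have : 0 ≤ (1 - p * a) ^ 3 := pow_nonneg (by linarith) 3
      linarith
    linarith
  · -- split at `c = 1 / p`
    obtain ⟨c, hc⟩ : ∃ c : ℝ, c = 1 / p := ⟨_, rfl⟩
    have hc0 : 0 < c := by rw [hc]; positivity
    have hpc : p * c = 1 := by rw [hc]; field_simp
    have hca : c < a := by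
      rw [hc, div_lt_iff₀ hp]
      linarith
    have hcm' : c ∈ Icc 0 a := ⟨hc0.le, hca.le⟩
    have h1 := intervalIntegral.integral_mono_on hc0.le (h.ii h.zero_mem hcm')
      (hcm c hcm') (fun y _ => hpt y)
    rw [hsum c hcm'] at h1
    have e1 : (1 - (1 - p * c) ^ 3) / (12 * p * q) = 1 / (12 * p * q) := by
      rw [hpc]
      norm_num
    rw [e1] at h1
    have h2 : ∫ y in c..a, L y ≤ ∫ y in c..a, (p * (y * L y) + q * L y ^ 2) := by
      apply intervalIntegral.integral_mono_on hca.le (h.ii hcm' h.a_mem)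
        (((h.ii_id_mul hcm' h.a_mem).const_mul p).add ((h.ii_sq hcm' h.a_mem).const_mul q))
      intro y hy
      have hym : y ∈ Icc 0 a := ⟨hc0.le.trans hy.1, hy.2⟩
      have hLy := h.nonneg y hym
      have hpy : 1 ≤ p * y := by
        rw [← hpc]
        exact mul_le_mul_of_nonneg_left hy.1 hp.le
      nlinarith [mul_nonneg hq.le (sq_nonneg (L y)), mul_nonneg (by linarith : (0:ℝ) ≤ p * y - 1) hLy]
    rw [intervalIntegral.integral_add ((h.ii_id_mul hcm' h.a_mem).const_mul p)
      ((h.ii_sq hcm' h.a_mem).const_mul q), intervalIntegral.integral_const_mul,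
      intervalIntegral.integral_const_mul] at h2
    have s1 := intervalIntegral.integral_add_adjacent_intervals (h.ii h.zero_mem hcm')
      (h.ii hcm' h.a_mem)
    have s2 := intervalIntegral.integral_add_adjacent_intervals (h.ii_id_mul h.zero_mem hcm')
      (h.ii_id_mul hcm' h.a_mem)
    have s3 := intervalIntegral.integral_add_adjacent_intervals (h.ii_sq h.zero_mem hcm')
      (h.ii_sq hcm' h.a_mem)
    rw [← s1, ← s2, ← s3]
    linarith

/-- Algebra behind the bathtub bound. -/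
lemma p1_bath_alg {V A B : ℝ} (hV : 0 ≤ V) (hA : 0 ≤ A) (hB : 0 ≤ B)
    (h : ∀ p q : ℝ, 0 < p → 0 < q → V ≤ p * A + q * B + 1 / (12 * p * q)) :
    4 * V ^ 3 ≤ 9 * A * B := by
  by_contra hcon
  push Not at hcon
  have hAB : 0 ≤ A * B := mul_nonneg hA hB
  have hVpos : 0 < V := by
    rcases hV.eq_or_lt with h0 | h0
    · rw [← h0] at hcon
      norm_num at hcon
      linarith
    · exact h0
  rcases hA.eq_or_lt with hA0 | hA0
  · -- `A = 0`
    have h1 := h (3 * (B + 1) / (4 * V ^ 2)) (V / (3 * (B + 1))) (by positivity) (by positivity)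
    rw [← hA0] at h1
    have e1 : V / (3 * (B + 1)) * B ≤ V / 3 := by
      rw [div_mul_eq_mul_div, div_le_div_iff₀ (by positivity) (by norm_num)]
      nlinarith
    have e2 : 1 / (12 * (3 * (B + 1) / (4 * V ^ 2)) * (V / (3 * (B + 1)))) = V / 3 := by
      field_simp
      ring
    rw [e2] at h1
    linarith
  rcases hB.eq_or_lt with hB0 | hB0
  · -- `B = 0`
    have h1 := h (V / (3 * (A + 1))) (3 * (A + 1) / (4 * V ^ 2)) (by positivity) (by positivity)
    rw [← hB0] at h1
    have e1 : V / (3 * (A + 1)) * A ≤ V / 3 := by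
      rw [div_mul_eq_mul_div, div_le_div_iff₀ (by positivity) (by norm_num)]
      nlinarith
    have e2 : 1 / (12 * (V / (3 * (A + 1))) * (3 * (A + 1) / (4 * V ^ 2))) = V / 3 := by
      field_simp
      ring
    rw [e2] at h1
    linarith
  · have h1 := h (V / (3 * A)) (V / (3 * B)) (by positivity) (by positivity)
    have e1 : V / (3 * A) * A = V / 3 := by field_simp
    have e2 : V / (3 * B) * B = V / 3 := by field_simp
    have e3 : 1 / (12 * (V / (3 * A)) * (V / (3 * B))) = 3 * A * B / (4 * V ^ 2) := by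
      field_simp
      ring
    rw [e1, e2, e3] at h1
    have h2 : V / 3 ≤ 3 * A * B / (4 * V ^ 2) := by linarith
    rw [le_div_iff₀ (by positivity)] at h2
    nlinarith

/-- **Bathtub bound** for the area of a planar corner: `4 V ^ 3 ≤ 9 A Q`
(the area is at most `9/2` times the product of the centroid coordinates). -/
theorem p1_bath {a : ℝ} {L : ℝ → ℝ} (h : Prof1 a L) :
    4 * (∫ y in (0:ℝ)..a, L y) ^ 3
      ≤ 9 * (∫ y in (0:ℝ)..a, y * L y) * (∫ y in (0:ℝ)..a, L y ^ 2) :=
  p1_bath_alg h.V_nonneg h.A_nonneg h.Q_nonneg (fun _ _ hp hq => p1_bath_pq h hp hq)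

/-- **(4c)** lower bound for the mixed moment: `3 / 4 * A * Q ≤ V X`, that is
`E[y z] ≥ (3 / 4) β₁ β₂` for the uniform law on a planar convex corner. -/
theorem p1_cov_lower {a : ℝ} {L : ℝ → ℝ} (h : Prof1 a L) :
    3 / 4 * (∫ y in (0:ℝ)..a, y * L y) * (∫ y in (0:ℝ)..a, L y ^ 2)
      ≤ (∫ y in (0:ℝ)..a, L y) * (∫ y in (0:ℝ)..a, y * L y ^ 2) := by
  have h1 := p1_rp h
  have h2 := p1_bath h
  nlinarith [h1, h2]

/-- **Step 0**, the planar centroid inequality `|F| ≥ 4 β₁ β₂` in profile form: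
`2 Q A ≤ V ^ 3`. -/
theorem p1_I22 {a : ℝ} {L : ℝ → ℝ} (h : Prof1 a L) :
    2 * (∫ y in (0:ℝ)..a, L y ^ 2) * (∫ y in (0:ℝ)..a, y * L y)
      ≤ (∫ y in (0:ℝ)..a, L y) ^ 3 := by
  have h1 := p1_rp h
  have h2 := p1_cheb h
  nlinarith [h1, h2]

end Vale.Agent.Lib.P254.TF
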