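import Mathlib
import Vale.Agent.Lib.P254.TF.Planar1D

/-!
# P254 tail-flow route: a one-dimensional inequality for concave nonincreasing profiles

Reverse Chebyshev with the constant `2/3`: for `L` concave, nonincreasing and nonnegative on
`[0, a]`, `2 (∫ s L)(∫ L^2) ≤ 3 (∫ L)(∫ s L^2)`.  It follows from the sharper bound
`p1_cov_lower` of `Planar1D.lean` (constant `3/4`), which combines the refined planar centroid
inequality `p1_rp` with the bathtub bound `p1_bath`.
-/

open MeasureTheory Set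

namespace Vale.Agent.Lib.P254.TF

theorem one_cross_ge (L : ℝ → ℝ) (a : ℝ) (ha : 0 ≤ a) (hc : ConcaveOn ℝ (Icc 0 a) L)
    (hanti : AntitoneOn L (Icc 0 a)) (h0 : ∀ s ∈ Icc 0 a, 0 ≤ L s) :
    2 * ((∫ s in (0:ℝ)..a, s * L s) * (∫ s in (0:ℝ)..a, (L s) ^ 2)) ≤
      3 * ((∫ s in (0:ℝ)..a, L s) * (∫ s in (0:ℝ)..a, s * (L s) ^ 2)) := by
  rcases ha.eq_or_lt with h | hpos
  · rw [← h]
    simp
  · have hP : Prof1 a L := ⟨hpos, hc, hanti, h0⟩
    have h1 := p1_cov_lower hP
    have h2 := hP.V_nonneg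
    have h3 := hP.X_nonneg
    nlinarith [h1, mul_nonneg h2 h3]

end Vale.Agent.Lib.P254.TF
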