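import Mathlib

/-!
# P254 tail-flow route: a one-dimensional inequality for concave nonincreasing profiles

Chebyshev.  Let `I0 = ∫ L`, `I1 = ∫ s L` and, if `I0 > 0`, `m = I1 / I0`, a point of
`[0, a]`.  Pointwise `(s - m) * L s * (L s - L m) ≤ 0` on `[0, a]` (`L` nonincreasing, `L ≥ 0`).
Integrate: `∫ s L^2 - m ∫ L^2 - L m * (I1 - m I0) ≤ 0`, and `I1 - m I0 = 0`.
-/

open MeasureTheory Set

namespace Vale.Agent.Lib.P254.TF

theorem one_cross_le (L : ℝ → ℝ) (a : ℝ) (ha : 0 ≤ a) (hc : ConcaveOn ℝ (Icc 0 a) L)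
    (hanti : AntitoneOn L (Icc 0 a)) (h0 : ∀ s ∈ Icc 0 a, 0 ≤ L s) :
    (∫ s in (0:ℝ)..a, L s) * (∫ s in (0:ℝ)..a, s * (L s) ^ 2) ≤
      (∫ s in (0:ℝ)..a, s * L s) * (∫ s in (0:ℝ)..a, (L s) ^ 2) := by
  have _ := hc
  have hu : uIcc (0 : ℝ) a = Icc 0 a := uIcc_of_le ha
  have hL : IntervalIntegrable L volume 0 a := by
    apply AntitoneOn.intervalIntegrable
    rw [hu]
    exact hanti
  have hanti2 : AntitoneOn (fun s => L s ^ 2) (Icc 0 a) :=
    fun x hx y hy hxy => pow_le_pow_left₀ (h0 y hy) (hanti hx hy hxy) 2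
  have hL2 : IntervalIntegrable (fun s => L s ^ 2) volume 0 a := by
    apply AntitoneOn.intervalIntegrable
    rw [hu]
    exact hanti2
  have hsL : IntervalIntegrable (fun s => s * L s) volume 0 a :=
    hL.continuousOn_mul continuousOn_id
  have hsL2 : IntervalIntegrable (fun s => s * L s ^ 2) volume 0 a :=
    hL2.continuousOn_mul continuousOn_id
  obtain ⟨I0, hI0⟩ : ∃ I0, I0 = ∫ s in (0:ℝ)..a, L s := ⟨_, rfl⟩
  obtain ⟨I1, hI1⟩ : ∃ I1, I1 = ∫ s in (0:ℝ)..a, s * L s := ⟨_, rfl⟩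
  obtain ⟨J2, hJ2⟩ : ∃ J2, J2 = ∫ s in (0:ℝ)..a, (L s) ^ 2 := ⟨_, rfl⟩
  obtain ⟨K, hK⟩ : ∃ K, K = ∫ s in (0:ℝ)..a, s * (L s) ^ 2 := ⟨_, rfl⟩
  rw [← hI0, ← hI1, ← hJ2, ← hK]
  have hI0n : 0 ≤ I0 := by
    rw [hI0]
    exact intervalIntegral.integral_nonneg ha (fun s hs => h0 s hs)
  have hI1n : 0 ≤ I1 := by
    rw [hI1]
    exact intervalIntegral.integral_nonneg ha (fun s hs => mul_nonneg hs.1 (h0 s hs))
  have hJ2n : 0 ≤ J2 := by
    rw [hJ2]
    exact intervalIntegral.integral_nonneg ha (fun s _ => sq_nonneg _)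
  have hI1a : I1 ≤ a * I0 := by
    have h1 : 0 ≤ ∫ s in (0:ℝ)..a, (a * L s - s * L s) :=
      intervalIntegral.integral_nonneg ha (fun s hs => by
        have h2 := h0 s hs
        have h3 : 0 ≤ (a - s) * L s := mul_nonneg (by linarith [hs.2]) h2
        linarith)
    rw [intervalIntegral.integral_sub (hL.const_mul a) hsL,
      intervalIntegral.integral_const_mul, ← hI0, ← hI1] at h1
    linarith
  rcases hI0n.eq_or_lt with h | hpos
  · rw [← h, zero_mul]
    exact mul_nonneg hI1n hJ2n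
  · obtain ⟨m, hm⟩ : ∃ m, m = I1 / I0 := ⟨_, rfl⟩
    have hmI : m * I0 = I1 := by
      rw [hm]
      field_simp
    have hm0 : 0 ≤ m := by
      rw [hm]
      exact div_nonneg hI1n hpos.le
    have hma : m ≤ a := by
      rw [hm, div_le_iff₀ hpos]
      exact hI1a
    have hmIcc : m ∈ Icc (0 : ℝ) a := ⟨hm0, hma⟩
    have hpt : ∀ s ∈ Icc (0 : ℝ) a,
        0 ≤ m * L s ^ 2 + L m * (s * L s) - s * L s ^ 2 - L m * m * L s := by
      intro s hs
      have hLs := h0 s hs
      have e : m * L s ^ 2 + L m * (s * L s) - s * L s ^ 2 - L m * m * L s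
          = (m - s) * L s * (L s - L m) := by ring
      rw [e]
      rcases le_total s m with hsm | hsm
      · have h1 : L m ≤ L s := hanti hs hmIcc hsm
        exact mul_nonneg (mul_nonneg (by linarith) hLs) (by linarith)
      · have h1 : L s ≤ L m := hanti hmIcc hs hsm
        have h2 : (m - s) * L s ≤ 0 := mul_nonpos_of_nonpos_of_nonneg (by linarith) hLs
        exact mul_nonneg_of_nonpos_of_nonpos h2 (by linarith)
    have hG : 0 ≤ ∫ s in (0:ℝ)..a,
        (m * L s ^ 2 + L m * (s * L s) - s * L s ^ 2 - L m * m * L s) :=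
      intervalIntegral.integral_nonneg ha hpt
    have i1 : IntervalIntegrable (fun s => m * L s ^ 2) volume 0 a := hL2.const_mul m
    have i2 : IntervalIntegrable (fun s => L m * (s * L s)) volume 0 a := hsL.const_mul (L m)
    have i4 : IntervalIntegrable (fun s => L m * m * L s) volume 0 a :=
      hL.const_mul (L m * m)
    rw [intervalIntegral.integral_sub ((i1.add i2).sub hsL2) i4,
      intervalIntegral.integral_sub (i1.add i2) hsL2,
      intervalIntegral.integral_add i1 i2,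
      intervalIntegral.integral_const_mul, intervalIntegral.integral_const_mul,
      intervalIntegral.integral_const_mul, ← hI0, ← hI1, ← hJ2, ← hK] at hG
    have hK_le : K ≤ m * J2 := by
      have h5 : L m * m * I0 = L m * I1 := by rw [mul_assoc, hmI]
      linarith
    calc I0 * K ≤ I0 * (m * J2) := mul_le_mul_of_nonneg_left hK_le hpos.le
      _ = I1 * J2 := by
        rw [← hmI]
        ring

end Vale.Agent.Lib.P254.TF
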