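import Mathlib
import Vale.Agent.Lib.P254.Sym.OneDa

/-!
# P254 tail-flow route: a one-dimensional inequality for concave nonincreasing profiles

The planar centroid inequality in profile form.  It is `adm_first_moment` of
`Sym/OneDa.lean` for the even profile `v t = L |t|` on `[-a, a]` (zero outside): a nonnegative
concave function is log-concave in the four-point form.
-/

open MeasureTheory Set

namespace Vale.Agent.Lib.P254.TF

/-- The even extension by zero of a profile on `[0, a]`. -/
private noncomputable def oi_ext (L : ℝ → ℝ) (a : ℝ) (t : ℝ) : ℝ :=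
  if |t| ≤ a then L |t| else 0

private lemma oi_ext_of_le {L : ℝ → ℝ} {a t : ℝ} (ht0 : 0 ≤ t) (hta : t ≤ a) :
    oi_ext L a t = L t := by
  unfold oi_ext
  rw [abs_of_nonneg ht0, if_pos hta]

private lemma oi_ext_of_gt {L : ℝ → ℝ} {a t : ℝ} (ht0 : 0 ≤ t) (hta : a < t) :
    oi_ext L a t = 0 := by
  unfold oi_ext
  rw [abs_of_nonneg ht0, if_neg (not_le.2 hta)]

private lemma oi_ext_even (L : ℝ → ℝ) (a t : ℝ) : oi_ext L a (-t) = oi_ext L a t := by
  unfold oi_ext
  rw [abs_neg]

/-- Three-point chord inequality for a concave function. -/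
private lemma oi_chord_le {f : ℝ → ℝ} {s : Set ℝ} (hf : ConcaveOn ℝ s f) {x y z : ℝ}
    (hx : x ∈ s) (hz : z ∈ s) (hxy : x ≤ y) (hyz : y ≤ z) :
    (z - y) * f x + (y - x) * f z ≤ (z - x) * f y := by
  rcases eq_or_lt_of_le (hxy.trans hyz) with h | h
  · have hy : y = x := le_antisymm (h ▸ hyz) hxy
    subst hy
    subst h
    simp
  · have hzx : 0 < z - x := sub_pos.mpr h
    have hne : z - x ≠ 0 := hzx.ne'
    have hsum : (z - y) / (z - x) + (y - x) / (z - x) = 1 := by
      rw [← add_div, div_eq_one_iff_eq hne]; ring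
    have key := hf.2 hx hz (div_nonneg (sub_nonneg.mpr hyz) hzx.le)
      (div_nonneg (sub_nonneg.mpr hxy) hzx.le) hsum
    have e : ((z - y) / (z - x)) • x + ((y - x) / (z - x)) • z = y := by
      simp only [smul_eq_mul]
      field_simp
      ring
    rw [e] at key
    simp only [smul_eq_mul] at key
    have h2 := mul_le_mul_of_nonneg_left key hzx.le
    have e2 : (z - x) * ((z - y) / (z - x) * f x + (y - x) / (z - x) * f z)
        = (z - y) * f x + (y - x) * f z := by
      field_simp
    linarith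

/-- The even extension of a nonnegative concave nonincreasing profile is admissible. -/
private lemma oi_adm (L : ℝ → ℝ) (a : ℝ) (ha : 0 ≤ a) (hc : ConcaveOn ℝ (Icc 0 a) L)
    (hanti : AntitoneOn L (Icc 0 a)) (h0 : ∀ s ∈ Icc 0 a, 0 ≤ L s) : Adm (oi_ext L a) := by
  have h0mem : (0:ℝ) ∈ Icc 0 a := ⟨le_rfl, ha⟩
  have hnn : ∀ t, 0 ≤ oi_ext L a t := by
    intro t
    unfold oi_ext
    split_ifs with h
    · exact h0 _ ⟨abs_nonneg t, h⟩
    · exact le_rfl
  have hanti' : ∀ s t, 0 ≤ s → s ≤ t → oi_ext L a t ≤ oi_ext L a s := by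
    intro s t hs hst
    rcases le_or_gt t a with hta | hta
    · rw [oi_ext_of_le (hs.trans hst) hta, oi_ext_of_le hs (hst.trans hta)]
      exact hanti ⟨hs, hst.trans hta⟩ ⟨hs.trans hst, hta⟩ hst
    · rw [oi_ext_of_gt (hs.trans hst) hta]
      exact hnn s
  refine ⟨?_, hnn, oi_ext_even L a, hanti', ⟨a, fun t ht => ?_⟩, ?_⟩
  · -- measurability: a monotone function of the absolute value
    have hw : Antitone (fun s : ℝ => if s < 0 then L 0 else if s ≤ a then L s else 0) := by
      intro s t hst
      show (if t < 0 then L 0 else if t ≤ a then L t else 0)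
        ≤ (if s < 0 then L 0 else if s ≤ a then L s else 0)
      by_cases hs : s < 0
      · rw [if_pos hs]
        by_cases ht : t < 0
        · rw [if_pos ht]
        · rw [if_neg ht]
          push Not at ht
          by_cases hta : t ≤ a
          · rw [if_pos hta]
            exact hanti h0mem ⟨ht, hta⟩ ht
          · rw [if_neg hta]
            exact h0 0 h0mem
      · rw [if_neg hs]
        push Not at hs
        have ht : ¬ t < 0 := not_lt.2 (hs.trans hst)
        rw [if_neg ht]
        by_cases hta : t ≤ a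
        · rw [if_pos hta, if_pos (hst.trans hta)]
          exact hanti ⟨hs, hst.trans hta⟩ ⟨hs.trans hst, hta⟩ hst
        · rw [if_neg hta]
          by_cases hsa : s ≤ a
          · rw [if_pos hsa]
            exact h0 s ⟨hs, hsa⟩
          · rw [if_neg hsa]
    have heq : oi_ext L a
        = (fun s : ℝ => if s < 0 then L 0 else if s ≤ a then L s else 0) ∘ (fun t : ℝ => |t|) := by
      funext t
      show (if |t| ≤ a then L |t| else 0)
        = (if |t| < 0 then L 0 else if |t| ≤ a then L |t| else 0)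
      rw [if_neg (not_lt.2 (abs_nonneg t))]
    rw [heq]
    exact hw.measurable.comp continuous_abs.measurable
  · -- bounded support
    unfold oi_ext
    rw [if_neg (not_le.2 ht)]
  · -- four-point inequality
    intro x y r hx hxy hr
    rcases le_or_gt (y + r) a with hyr | hyr
    · have hy0 : 0 ≤ y := hx.trans hxy
      have hxa : x ≤ a := by linarith
      have hya : y ≤ a := by linarith
      have hxra : x + r ≤ a := by linarith
      rw [oi_ext_of_le hx hxa, oi_ext_of_le (by linarith) hyr, oi_ext_of_le (by linarith) hxra,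
        oi_ext_of_le hy0 hya]
      have hxm : x ∈ Icc 0 a := ⟨hx, hxa⟩
      have hzm : y + r ∈ Icc 0 a := ⟨by linarith, hyr⟩
      have hp : 0 ≤ L x := h0 x hxm
      have hq : 0 ≤ L (y + r) := h0 _ hzm
      have h1 := oi_chord_le hc hxm hzm (show x ≤ x + r by linarith)
        (show x + r ≤ y + r by linarith)
      have h2 := oi_chord_le hc hxm hzm hxy (show y ≤ y + r by linarith)
      rcases eq_or_lt_of_le (show 0 ≤ y + r - x by linarith) with hd | hd
      · have hyx : y = x := by linarith
        have hr0 : r = 0 := by linarith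
        rw [hyx, hr0, add_zero]
      · have hyx : 0 ≤ y - x := by linarith
        have hA1 : 0 ≤ (y - x) * L x + r * L (y + r) :=
          add_nonneg (mul_nonneg hyx hp) (mul_nonneg hr hq)
        have hA2 : 0 ≤ r * L x + (y - x) * L (y + r) :=
          add_nonneg (mul_nonneg hr hp) (mul_nonneg hyx hq)
        have h1' : (y - x) * L x + r * L (y + r) ≤ (y + r - x) * L (x + r) := by linarith
        have h2' : r * L x + (y - x) * L (y + r) ≤ (y + r - x) * L y := by linarith
        have hprod := mul_le_mul h1' h2' hA2 (hA1.trans h1')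
        have hsq := mul_nonneg (mul_nonneg hyx hr) (sq_nonneg (L x - L (y + r)))
        have hkey : (y + r - x) ^ 2 * (L x * L (y + r))
            ≤ (y + r - x) ^ 2 * (L (x + r) * L y) := by
          nlinarith [hprod, hsq]
        exact le_of_mul_le_mul_left hkey (by positivity)
    · rw [oi_ext_of_gt (by linarith) hyr, mul_zero]
      exact mul_nonneg (hnn _) (hnn _)

/-- An even integrable function: the integral is twice the integral over the positive half
line. -/
private lemma oi_even_split {f : ℝ → ℝ} (hf : Integrable f) (hev : ∀ t, f (-t) = f t) :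
    ∫ t, f t = 2 * ∫ t in Ioi 0, f t := by
  have h1 := integral_add_compl (measurableSet_Iic (a := (0:ℝ))) hf
  rw [compl_Iic] at h1
  have h2 : ∫ t in Iic (0:ℝ), f t = ∫ t in Ioi 0, f t := by
    have h3 := integral_comp_neg_Ioi (0:ℝ) f
    rw [neg_zero] at h3
    rw [← h3]
    simp_rw [hev]
  rw [← h1, h2]
  ring

/-- A function on the positive half line that vanishes beyond `a`: its integral is an interval
integral over `[0, a]`. -/
private lemma oi_restrict {f g : ℝ → ℝ} {a : ℝ} (ha : 0 ≤ a)
    (h1 : ∀ t ∈ Ioc 0 a, f t = g t) (h2 : ∀ t, a < t → f t = 0) :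
    ∫ t in Ioi 0, f t = ∫ s in (0:ℝ)..a, g s := by
  rw [intervalIntegral.integral_of_le ha]
  have h3 : ∫ t in Ioi 0, f t = ∫ t in Ioc 0 a, f t := by
    apply setIntegral_eq_of_subset_of_forall_sdiff_eq_zero measurableSet_Ioi Ioc_subset_Ioi_self
    intro t ht
    apply h2
    by_contra h
    exact ht.2 ⟨ht.1, not_lt.1 h⟩
  rw [h3]
  exact setIntegral_congr_fun measurableSet_Ioc h1

theorem one_I2 (L : ℝ → ℝ) (a : ℝ) (ha : 0 ≤ a) (hc : ConcaveOn ℝ (Icc 0 a) L)
    (hanti : AntitoneOn L (Icc 0 a)) (h0 : ∀ s ∈ Icc 0 a, 0 ≤ L s) :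
    2 * ((∫ s in (0:ℝ)..a, s * L s) * (∫ s in (0:ℝ)..a, (L s) ^ 2)) ≤
      (∫ s in (0:ℝ)..a, L s) ^ 3 := by
  have hv := oi_adm L a ha hc hanti h0
  have key := adm_first_moment hv
  have eA : ∫ t, oi_ext L a t = 2 * ∫ s in (0:ℝ)..a, L s := by
    rw [oi_even_split hv.integrable (oi_ext_even L a)]
    congr 1
    exact oi_restrict ha (fun t ht => oi_ext_of_le ht.1.le ht.2)
      (fun t ht => oi_ext_of_gt (ha.trans ht.le) ht)
  have eB : ∫ t, |t| * oi_ext L a t = 2 * ∫ s in (0:ℝ)..a, s * L s := by
    rw [oi_even_split hv.integrable_abs_mul (fun t => by rw [oi_ext_even, abs_neg])]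
    congr 1
    exact oi_restrict ha (fun t ht => by rw [abs_of_pos ht.1, oi_ext_of_le ht.1.le ht.2])
      (fun t ht => by rw [oi_ext_of_gt (ha.trans ht.le) ht, mul_zero])
  have eQ : ∫ t, oi_ext L a t ^ 2 = 2 * ∫ s in (0:ℝ)..a, (L s) ^ 2 := by
    rw [oi_even_split hv.integrable_sq (fun t => by rw [oi_ext_even])]
    congr 1
    exact oi_restrict ha (fun t ht => by rw [oi_ext_of_le ht.1.le ht.2])
      (fun t ht => by rw [oi_ext_of_gt (ha.trans ht.le) ht]; simp)
  rw [eA, eB, eQ] at key
  have e1 : 2 * (∫ s in (0:ℝ)..a, s * L s) * (2 * ∫ s in (0:ℝ)..a, (L s) ^ 2)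
      = 2 * (2 * ((∫ s in (0:ℝ)..a, s * L s) * (∫ s in (0:ℝ)..a, (L s) ^ 2))) := by ring
  have e2 : (2 * ∫ s in (0:ℝ)..a, L s) ^ 3 / 4 = 2 * (∫ s in (0:ℝ)..a, L s) ^ 3 := by ring
  rw [e1, e2] at key
  linarith

end Vale.Agent.Lib.P254.TF
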