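import Vale.Agent.Lib.P254.TF.Step6

/-!
# P254 tail-flow route: from the moment inequalities of one corner to the bracket inequality

Notation: `V` volume, `A` base area, `R` height moment, `M0, M1` base moments, `Q0, Q1` body
moments, `Y00, Y01, Y11` second moments of the base.  With `x_j = A Q_j/(M_j V) - 1`,
`e = 2 A R/V^2 - 1`, `S_ij = A Y_ij/(M_i M_j) - 1`: `hbes` with `a_j = x_j/M_j` gives
`q^2 ≤ (S00 x0^2 + 2 S01 x0 x1 + S11 x1^2) e` with `q = x0^2 + x1^2`, and `hbes` with one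
`a_j = 0` gives `x_j^4 ≤ S_jj x_j^2 e`; `S00, S11 ≤ 1/2`, `-1/3 ≤ S01 ≤ 0` then give the four
Cauchy-Schwarz hypotheses of `step6`; `hA0, hA1` give `x_j ≥ -2/5`; `he0, he1` give
`0 ≤ e ≤ 1/2`.  Finally, with `rho = V^2/(A R) = 2/(1+e)`, `r_j = M_j V/(A Q_j) = 1/(1+x_j)`:
`rho + r_0 + r_1 - 4 ≤ log (rho/2) + log r_0 + log r_1` is `step6`, and `hI2` adds
`0 ≤ log (A^3/(4 M0 M1))`; the sum of the four logarithms is
`4 log V - log (2 R) - log (2 Q0) - log (2 Q1)`.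
-/

namespace Vale.Agent.Lib.P254.TF

/-- The Cauchy-Schwarz hypotheses of `step6` from the bounds on the matrix `S`. -/
theorem pt_bessel (S00 S01 S11 x1 x2 e : ℝ) (h00 : S00 ≤ 1/2) (h11 : S11 ≤ 1/2)
    (h01 : S01 ≤ 0) (h01' : -(1/3) ≤ S01) (he : 0 ≤ e)
    (hb1 : x1 ^ 4 ≤ S00 * x1 ^ 2 * e) (hb2 : x2 ^ 4 ≤ S11 * x2 ^ 2 * e)
    (hb : (x1 ^ 2 + x2 ^ 2) ^ 2 ≤ (S00 * x1 ^ 2 + 2 * S01 * (x1 * x2) + S11 * x2 ^ 2) * e) :
    2 * x1 ^ 2 ≤ e ∧ 2 * x2 ^ 2 ≤ e ∧ (0 ≤ x1 * x2 → 2 * (x1 ^ 2 + x2 ^ 2) ≤ e) ∧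
      6 * (x1 ^ 2 + x2 ^ 2) ^ 2 ≤ (3 * (x1 ^ 2 + x2 ^ 2) + 4 * |x1 * x2|) * e := by
  have hq1 : 0 ≤ x1 ^ 2 := sq_nonneg x1
  have hq2 : 0 ≤ x2 ^ 2 := sq_nonneg x2
  have hs1 : S00 * x1 ^ 2 ≤ 1 / 2 * x1 ^ 2 := mul_le_mul_of_nonneg_right h00 hq1
  have hs2 : S11 * x2 ^ 2 ≤ 1 / 2 * x2 ^ 2 := mul_le_mul_of_nonneg_right h11 hq2
  refine ⟨?_, ?_, ?_, ?_⟩
  · have h2 : x1 ^ 4 ≤ 1 / 2 * x1 ^ 2 * e := le_trans hb1 (mul_le_mul_of_nonneg_right hs1 he)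
    by_contra hcon
    have hcon' : e < 2 * x1 ^ 2 := not_le.mp hcon
    have hpos : 0 < x1 ^ 2 := by linarith
    have h4 : x1 ^ 4 = x1 ^ 2 * x1 ^ 2 := by ring
    nlinarith
  · have h2 : x2 ^ 4 ≤ 1 / 2 * x2 ^ 2 * e := le_trans hb2 (mul_le_mul_of_nonneg_right hs2 he)
    by_contra hcon
    have hcon' : e < 2 * x2 ^ 2 := not_le.mp hcon
    have hpos : 0 < x2 ^ 2 := by linarith
    have h4 : x2 ^ 4 = x2 ^ 2 * x2 ^ 2 := by ring
    nlinarith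
  · intro hp
    have hcross : 2 * S01 * (x1 * x2) ≤ 0 := by
      have h : S01 * (x1 * x2) ≤ 0 := mul_nonpos_of_nonpos_of_nonneg h01 hp
      linarith
    have hQ : S00 * x1 ^ 2 + 2 * S01 * (x1 * x2) + S11 * x2 ^ 2 ≤ 1 / 2 * (x1 ^ 2 + x2 ^ 2) := by
      linarith
    have h2 : (x1 ^ 2 + x2 ^ 2) ^ 2 ≤ 1 / 2 * (x1 ^ 2 + x2 ^ 2) * e :=
      le_trans hb (mul_le_mul_of_nonneg_right hQ he)
    by_contra hcon
    have hcon' : e < 2 * (x1 ^ 2 + x2 ^ 2) := not_le.mp hcon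
    have hpos : 0 < x1 ^ 2 + x2 ^ 2 := by linarith
    nlinarith
  · have hcross : 2 * S01 * (x1 * x2) ≤ 2 / 3 * |x1 * x2| := by
      rcases le_total 0 (x1 * x2) with hp | hp
      · rw [abs_of_nonneg hp]
        have h : S01 * (x1 * x2) ≤ 0 := mul_nonpos_of_nonpos_of_nonneg h01 hp
        linarith
      · rw [abs_of_nonpos hp]
        have ha : 0 ≤ 1 / 3 + S01 := by linarith
        have hb' : 0 ≤ -(x1 * x2) := by linarith
        nlinarith [mul_nonneg ha hb']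
    have hQ : S00 * x1 ^ 2 + 2 * S01 * (x1 * x2) + S11 * x2 ^ 2
        ≤ 1 / 2 * (x1 ^ 2 + x2 ^ 2) + 2 / 3 * |x1 * x2| := by
      linarith
    have h2 : (x1 ^ 2 + x2 ^ 2) ^ 2 ≤ (1 / 2 * (x1 ^ 2 + x2 ^ 2) + 2 / 3 * |x1 * x2|) * e :=
      le_trans hb (mul_le_mul_of_nonneg_right hQ he)
    have h3 : (3 * (x1 ^ 2 + x2 ^ 2) + 4 * |x1 * x2|) * e
        = 6 * ((1 / 2 * (x1 ^ 2 + x2 ^ 2) + 2 / 3 * |x1 * x2|) * e) := by ring
    rw [h3]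
    linarith

/-- The three Cauchy-Schwarz inequalities in normalised variables. -/
theorem pc_core (V A R M0 M1 Q0 Q1 Y00 Y01 Y11 x0 x1 e S00 S01 S11 : ℝ) (hV : 0 < V)
    (hM0 : 0 < M0) (hM1 : 0 < M1)
    (k0 : A * Q0 - M0 * V = M0 * V * x0) (k1 : A * Q1 - M1 * V = M1 * V * x1)
    (kS00 : A * Y00 - M0 ^ 2 = M0 ^ 2 * S00) (kS01 : A * Y01 - M0 * M1 = M0 * M1 * S01)
    (kS11 : A * Y11 - M1 ^ 2 = M1 ^ 2 * S11) (ke : 2 * (A * R) - V ^ 2 = V ^ 2 * e)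
    (hbes : ∀ a0 a1 : ℝ,
      (a0 * (A * Q0 - M0 * V) + a1 * (A * Q1 - M1 * V)) ^ 2 ≤
        (a0 ^ 2 * (A * Y00 - M0 ^ 2) + 2 * (a0 * a1) * (A * Y01 - M0 * M1) +
          a1 ^ 2 * (A * Y11 - M1 ^ 2)) * (2 * (A * R) - V ^ 2)) :
    x0 ^ 4 ≤ S00 * x0 ^ 2 * e ∧ x1 ^ 4 ≤ S11 * x1 ^ 2 * e ∧
      (x0 ^ 2 + x1 ^ 2) ^ 2 ≤ (S00 * x0 ^ 2 + 2 * S01 * (x0 * x1) + S11 * x1 ^ 2) * e := by
  have hV2 : 0 < V ^ 2 := by positivity
  have hM0' : M0 ≠ 0 := hM0.ne'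
  have hM1' : M1 ≠ 0 := hM1.ne'
  refine ⟨?_, ?_, ?_⟩
  · have h := hbes (x0 / M0) 0
    rw [k0, k1, kS00, kS01, kS11, ke] at h
    have e1 : (x0 / M0 * (M0 * V * x0) + 0 * (M1 * V * x1)) ^ 2 = V ^ 2 * x0 ^ 4 := by
      field_simp
      ring
    have e2 : ((x0 / M0) ^ 2 * (M0 ^ 2 * S00) + 2 * (x0 / M0 * 0) * (M0 * M1 * S01) +
        0 ^ 2 * (M1 ^ 2 * S11)) * (V ^ 2 * e) = V ^ 2 * (S00 * x0 ^ 2 * e) := by
      field_simp
      ring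
    rw [e1, e2] at h
    exact le_of_mul_le_mul_left h hV2
  · have h := hbes 0 (x1 / M1)
    rw [k0, k1, kS00, kS01, kS11, ke] at h
    have e1 : (0 * (M0 * V * x0) + x1 / M1 * (M1 * V * x1)) ^ 2 = V ^ 2 * x1 ^ 4 := by
      field_simp
      ring
    have e2 : (0 ^ 2 * (M0 ^ 2 * S00) + 2 * (0 * (x1 / M1)) * (M0 * M1 * S01) +
        (x1 / M1) ^ 2 * (M1 ^ 2 * S11)) * (V ^ 2 * e) = V ^ 2 * (S11 * x1 ^ 2 * e) := by
      field_simp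
      ring
    rw [e1, e2] at h
    exact le_of_mul_le_mul_left h hV2
  · have h := hbes (x0 / M0) (x1 / M1)
    rw [k0, k1, kS00, kS01, kS11, ke] at h
    have e1 : (x0 / M0 * (M0 * V * x0) + x1 / M1 * (M1 * V * x1)) ^ 2
        = V ^ 2 * (x0 ^ 2 + x1 ^ 2) ^ 2 := by
      field_simp
    have e2 : ((x0 / M0) ^ 2 * (M0 ^ 2 * S00) + 2 * (x0 / M0 * (x1 / M1)) * (M0 * M1 * S01) +
        (x1 / M1) ^ 2 * (M1 ^ 2 * S11)) * (V ^ 2 * e)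
        = V ^ 2 * ((S00 * x0 ^ 2 + 2 * S01 * (x0 * x1) + S11 * x1 ^ 2) * e) := by
      field_simp
    rw [e1, e2] at h
    exact le_of_mul_le_mul_left h hV2

/-- The bracket inequality of one corner from its moment inequalities. -/
theorem bracket_of_bounds (V A R M0 M1 Q0 Q1 Y00 Y01 Y11 : ℝ)
    (hV : 0 < V) (hA : 0 < A) (hR : 0 < R) (hM0 : 0 < M0) (hM1 : 0 < M1)
    (hQ0 : 0 < Q0) (hQ1 : 0 < Q1)
    (hI2 : 4 * (M0 * M1) ≤ A ^ 3)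
    (hA0 : 3 * (M0 * V) ≤ 5 * (A * Q0)) (hA1 : 3 * (M1 * V) ≤ 5 * (A * Q1))
    (he0 : V ^ 2 ≤ 2 * (A * R)) (he1 : 4 * (A * R) ≤ 3 * V ^ 2)
    (h00 : 2 * (A * Y00) ≤ 3 * M0 ^ 2) (h11 : 2 * (A * Y11) ≤ 3 * M1 ^ 2)
    (h01le : A * Y01 ≤ M0 * M1) (h01ge : 2 * (M0 * M1) ≤ 3 * (A * Y01))
    (hbes : ∀ a0 a1 : ℝ,
      (a0 * (A * Q0 - M0 * V) + a1 * (A * Q1 - M1 * V)) ^ 2 ≤
        (a0 ^ 2 * (A * Y00 - M0 ^ 2) + 2 * (a0 * a1) * (A * Y01 - M0 * M1) +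
          a1 ^ 2 * (A * Y11 - M1 ^ 2)) * (2 * (A * R) - V ^ 2)) :
    V ^ 2 / (A * R) + M0 * V / (A * Q0) + M1 * V / (A * Q1) - 4 ≤
      4 * Real.log V - Real.log (2 * R) - Real.log (2 * Q0) - Real.log (2 * Q1) := by
  have hM0' : M0 ≠ 0 := hM0.ne'
  have hM1' : M1 ≠ 0 := hM1.ne'
  have hV' : V ≠ 0 := hV.ne'
  -- the normalised variables
  have k0 : A * Q0 - M0 * V = M0 * V * (A * Q0 / (M0 * V) - 1) := by
    field_simp
  have k1 : A * Q1 - M1 * V = M1 * V * (A * Q1 / (M1 * V) - 1) := by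
    field_simp
  have kS00 : A * Y00 - M0 ^ 2 = M0 ^ 2 * (A * Y00 / M0 ^ 2 - 1) := by
    field_simp
  have kS01 : A * Y01 - M0 * M1 = M0 * M1 * (A * Y01 / (M0 * M1) - 1) := by
    field_simp
  have kS11 : A * Y11 - M1 ^ 2 = M1 ^ 2 * (A * Y11 / M1 ^ 2 - 1) := by
    field_simp
  have ke : 2 * (A * R) - V ^ 2 = V ^ 2 * (2 * (A * R) / V ^ 2 - 1) := by
    field_simp
  obtain ⟨hb1, hb2, hb⟩ := pc_core V A R M0 M1 Q0 Q1 Y00 Y01 Y11 _ _ _ _ _ _ hV hM0 hM1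
    k0 k1 kS00 kS01 kS11 ke hbes
  -- the ranges
  have hx0 : -(2 / 5) ≤ A * Q0 / (M0 * V) - 1 := by
    have h : 3 / 5 ≤ A * Q0 / (M0 * V) := by
      rw [le_div_iff₀ (by positivity)]
      linarith
    linarith
  have hx1 : -(2 / 5) ≤ A * Q1 / (M1 * V) - 1 := by
    have h : 3 / 5 ≤ A * Q1 / (M1 * V) := by
      rw [le_div_iff₀ (by positivity)]
      linarith
    linarith
  have hee0 : 0 ≤ 2 * (A * R) / V ^ 2 - 1 := by
    have h : 1 ≤ 2 * (A * R) / V ^ 2 := by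
      rw [le_div_iff₀ (by positivity)]
      linarith
    linarith
  have hee1 : 2 * (A * R) / V ^ 2 - 1 ≤ 1 / 2 := by
    have h : 2 * (A * R) / V ^ 2 ≤ 3 / 2 := by
      rw [div_le_iff₀ (by positivity)]
      linarith
    linarith
  have hS00 : A * Y00 / M0 ^ 2 - 1 ≤ 1 / 2 := by
    have h : A * Y00 / M0 ^ 2 ≤ 3 / 2 := by
      rw [div_le_iff₀ (by positivity)]
      linarith
    linarith
  have hS11 : A * Y11 / M1 ^ 2 - 1 ≤ 1 / 2 := by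
    have h : A * Y11 / M1 ^ 2 ≤ 3 / 2 := by
      rw [div_le_iff₀ (by positivity)]
      linarith
    linarith
  have hS01 : A * Y01 / (M0 * M1) - 1 ≤ 0 := by
    have h : A * Y01 / (M0 * M1) ≤ 1 := by
      rw [div_le_iff₀ (by positivity)]
      linarith
    linarith
  have hS01' : -(1 / 3) ≤ A * Y01 / (M0 * M1) - 1 := by
    have h : 2 / 3 ≤ A * Y01 / (M0 * M1) := by
      rw [le_div_iff₀ (by positivity)]
      linarith
    linarith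
  obtain ⟨hS1, hS2, hB1, hB2⟩ := pt_bessel _ _ _ _ _ _ hS00 hS11 hS01 hS01' hee0 hb1 hb2 hb
  have h := step6 _ _ _ hx0 hx1 hee0 hee1 hS1 hS2 hB1 hB2
  -- rewriting of the logarithms
  have e1 : 1 + (A * Q0 / (M0 * V) - 1) = A * Q0 / (M0 * V) := by ring
  have e2 : 1 + (A * Q1 / (M1 * V) - 1) = A * Q1 / (M1 * V) := by ring
  have e3 : 1 + (2 * (A * R) / V ^ 2 - 1) = 2 * (A * R) / V ^ 2 := by ring
  rw [e1, e2, e3] at h
  have l1 : Real.log (A * Q0 / (M0 * V))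
      = Real.log A + Real.log Q0 - Real.log M0 - Real.log V := by
    rw [Real.log_div (by positivity) (by positivity), Real.log_mul hA.ne' hQ0.ne',
      Real.log_mul hM0.ne' hV.ne']
    ring
  have l2 : Real.log (A * Q1 / (M1 * V))
      = Real.log A + Real.log Q1 - Real.log M1 - Real.log V := by
    rw [Real.log_div (by positivity) (by positivity), Real.log_mul hA.ne' hQ1.ne',
      Real.log_mul hM1.ne' hV.ne']
    ring
  have l3 : Real.log (2 * (A * R) / V ^ 2)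
      = Real.log 2 + Real.log A + Real.log R - 2 * Real.log V := by
    rw [Real.log_div (by positivity) (by positivity), Real.log_mul (by norm_num) (by positivity),
      Real.log_mul hA.ne' hR.ne', Real.log_pow]
    push_cast
    ring
  have d1 : (A * Q0 / (M0 * V) - 1) / (A * Q0 / (M0 * V)) = 1 - M0 * V / (A * Q0) := by
    field_simp
  have d2 : (A * Q1 / (M1 * V) - 1) / (A * Q1 / (M1 * V)) = 1 - M1 * V / (A * Q1) := by
    field_simp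
  have d3 : 2 * (2 * (A * R) / V ^ 2 - 1) / (2 * (A * R) / V ^ 2) = 2 - V ^ 2 / (A * R) := by
    field_simp
  have l4 : Real.log (2 * R) = Real.log 2 + Real.log R := Real.log_mul (by norm_num) hR.ne'
  have l5 : Real.log (2 * Q0) = Real.log 2 + Real.log Q0 := Real.log_mul (by norm_num) hQ0.ne'
  have l6 : Real.log (2 * Q1) = Real.log 2 + Real.log Q1 := Real.log_mul (by norm_num) hQ1.ne'
  have l7 : Real.log 4 = 2 * Real.log 2 := by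
    rw [show (4 : ℝ) = 2 ^ 2 by norm_num, Real.log_pow]
    push_cast
    ring
  have hlog : Real.log 4 + Real.log M0 + Real.log M1 ≤ 3 * Real.log A := by
    have h0 := Real.log_le_log (by positivity) hI2
    rw [Real.log_mul (by norm_num) (by positivity), Real.log_mul hM0.ne' hM1.ne',
      Real.log_pow] at h0
    push_cast at h0
    linarith
  rw [l1, l2, l3, d1, d2, d3] at h
  rw [l4, l5, l6]
  linarith

end Vale.Agent.Lib.P254.TF
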