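import Vale.Agent.Lib.P254.TF.PlanarProf
import Vale.Agent.Lib.P254.TF.OneI2
import Vale.Agent.Lib.P254.TF.OneSecond
import Vale.Agent.Lib.P254.TF.OneCrossLe
import Vale.Agent.Lib.P254.TF.OneCrossGe

/-!
# P254 tail-flow route: moment inequalities for planar convex corners

With the profile `L = prof F` on `[0, wid F]`: `vol F = ∫ L`, `∫_F y 0 = ∫ s L`,
`∫_F y 1 = ∫ L^2/2`, `∫_F y 0 * y 1 = ∫ s L^2/2`, `∫_F (y 0)^2 = ∫ s^2 L`; the four statements
are the one-dimensional inequalities of the files `OneI2`, `OneSecond`, `OneCrossLe`,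
`OneCrossGe` (the second moment of the coordinate `1` by the swap of the coordinates).
-/

open MeasureTheory Set

namespace Vale.Agent.Lib.P254.TF

variable {F : Set (Fin 2 → ℝ)}

/-- The planar case of the centroid inequality: `|F| ≥ 4 β_0 β_1`. -/
theorem planar_I2 (hF : Corner F) :
    4 * ((∫ y in F, y 0) * (∫ y in F, y 1)) ≤ (vol F) ^ 3 := by
  have h := one_I2 (prof F) (wid F) (wid_nonneg hF) (prof_concaveOn hF) (prof_antitoneOn hF)
    (fun s _ => prof_nonneg F s)
  rw [planar_m0 hF, planar_m1 hF, planar_vol hF, intervalIntegral.integral_div]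
  linarith

/-- `Var(y_0) ≤ β_0^2 / 2`: the marginal density of a coordinate is concave nonincreasing. -/
theorem planar_second_zero (hF : Corner F) :
    2 * (vol F * ∫ y in F, (y 0) ^ 2) ≤ 3 * (∫ y in F, y 0) ^ 2 := by
  have h := one_second (prof F) (wid F) (wid_nonneg hF) (prof_concaveOn hF)
    (prof_antitoneOn hF) (fun s _ => prof_nonneg F s)
  rw [planar_m0 hF, planar_m00 hF, planar_vol hF]
  exact h

/-- `Var(y_j) ≤ β_j^2 / 2` for both coordinates. -/
theorem planar_second (hF : Corner F) (j : Fin 2) :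
    2 * (vol F * ∫ y in F, (y j) ^ 2) ≤ 3 * (∫ y in F, y j) ^ 2 := by
  fin_cases j
  · exact planar_second_zero hF
  · have h := planar_second_zero (corner_swap2 hF)
    rw [vol_swap2, integral_swap2, integral_swap2] at h
    simpa using h

/-- `Cov(y_0, y_1) ≤ 0` (Chebyshev: the fibre midpoint is nonincreasing). -/
theorem planar_cross_le (hF : Corner F) :
    vol F * ∫ y in F, y 0 * y 1 ≤ (∫ y in F, y 0) * (∫ y in F, y 1) := by
  have h := one_cross_le (prof F) (wid F) (wid_nonneg hF) (prof_concaveOn hF)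
    (prof_antitoneOn hF) (fun s _ => prof_nonneg F s)
  rw [planar_m0 hF, planar_m1 hF, planar_m01 hF, planar_vol hF, intervalIntegral.integral_div,
    intervalIntegral.integral_div]
  have e : ∀ X Y : ℝ, X * (Y / 2) = X * Y / 2 := fun X Y => by ring
  rw [e, e]
  linarith

/-- `E[y_0 y_1] ≥ (2/3) β_0 β_1`. -/
theorem planar_cross_ge (hF : Corner F) :
    2 * ((∫ y in F, y 0) * (∫ y in F, y 1)) ≤ 3 * (vol F * ∫ y in F, y 0 * y 1) := by
  have h := one_cross_ge (prof F) (wid F) (wid_nonneg hF) (prof_concaveOn hF)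
    (prof_antitoneOn hF) (fun s _ => prof_nonneg F s)
  rw [planar_m0 hF, planar_m1 hF, planar_m01 hF, planar_vol hF, intervalIntegral.integral_div,
    intervalIntegral.integral_div]
  have e : ∀ X Y : ℝ, X * (Y / 2) = X * Y / 2 := fun X Y => by ring
  rw [e, e]
  linarith

end Vale.Agent.Lib.P254.TF
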