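import Vale.Agent.Lib.P254.TF.Planar1D
import Vale.Agent.Lib.P254.Sym.OneDc

/-!
# P254, tail-flow route: two more one-dimensional inequalities

* `p1_second_moment` (Step 4a): for the chord-length profile `L` of a planar convex corner,
  `2 V ∫ y ^ 2 L ≤ 3 A ^ 2`, that is `E y ^ 2 ≤ (3 / 2) (E y) ^ 2` for the first coordinate;
* `tf_eps_le_one` (Step 5, `eps ≤ 1`): for a nonnegative section-area function `v` on `[0, T]`
  that is log-concave in the four-point form, with tail integrals `N = ∫ v` and `R = ∫ N`,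
  `v t * R t ≤ N t ^ 2` for every `t` in `[0, T]`.
-/

namespace Vale.Agent.Lib.P254.TF

open MeasureTheory Set

/-- An even function supported in `[-a, a]` has integral twice its integral over `[0, a]`. -/
lemma p1_even_integral (f : ℝ → ℝ) (a : ℝ) (ha : 0 ≤ a) (heven : ∀ t, f (-t) = f t)
    (hsupp : ∀ t, a < |t| → f t = 0) :
    ∫ t, f t = 2 * ∫ t in (0:ℝ)..a, f t := by
  have h1 : ∫ t, f t = ∫ t, f |t| := by
    congr 1
    funext t
    rcases abs_cases t with ⟨h, _⟩ | ⟨h, _⟩
    · rw [h]
    · rw [h, heven]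
  rw [h1, integral_comp_abs, intervalIntegral.integral_of_le ha]
  congr 1
  refine setIntegral_eq_of_subset_of_forall_sdiff_eq_zero measurableSet_Ioi Ioc_subset_Ioi_self ?_
  intro x hx
  apply hsupp
  have hx0 : 0 < x := hx.1
  have hxa : ¬ (x ∈ Ioc 0 a) := hx.2
  rw [abs_of_pos hx0]
  by_contra h
  push Not at h
  exact hxa ⟨hx0, h⟩

/-- **(4a)** second moment of the first coordinate of a planar convex corner:
`2 V ∫ y ^ 2 L ≤ 3 A ^ 2`. -/
theorem p1_second_moment {a : ℝ} {L : ℝ → ℝ} (h : Prof1 a L) :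
    2 * (∫ y in (0:ℝ)..a, L y) * (∫ y in (0:ℝ)..a, y ^ 2 * L y)
      ≤ 3 * (∫ y in (0:ℝ)..a, y * L y) ^ 2 := by
  have ha := h.pos
  obtain ⟨v, hvdef⟩ : ∃ v : ℝ → ℝ,
      v = fun t => if |t| ≤ a then L (max 0 (min |t| a)) else 0 := ⟨_, rfl⟩
  have hvin : ∀ t, |t| ≤ a → v t = L |t| := by
    intro t ht
    rw [hvdef]
    simp only [if_pos ht]
    rw [min_eq_left ht, max_eq_right (abs_nonneg t)]
  have hvout : ∀ t, a < |t| → v t = 0 := by
    intro t ht
    rw [hvdef]
    simp only [if_neg (not_le.2 ht)]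
  have habs : ∀ t, |t| ≤ a → |t| ∈ Icc 0 a := fun t ht => ⟨abs_nonneg t, ht⟩
  have hvm : Measurable v := by
    have hg : Antitone (fun x : ℝ => L (max 0 (min x a))) := by
      intro x y hxy
      apply h.anti
      · exact ⟨le_max_left _ _, max_le ha.le (min_le_right _ _)⟩
      · exact ⟨le_max_left _ _, max_le ha.le (min_le_right _ _)⟩
      · exact max_le_max le_rfl (min_le_min hxy le_rfl)
    rw [hvdef]
    exact Measurable.ite (measurableSet_le continuous_abs.measurable measurable_const)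
      (hg.measurable.comp continuous_abs.measurable) measurable_const
  have hv0 : ∀ t, 0 ≤ v t := by
    intro t
    rcases le_or_gt |t| a with ht | ht
    · rw [hvin t ht]
      exact h.nonneg _ (habs t ht)
    · rw [hvout t ht]
  have heven : ∀ t, v (-t) = v t := by
    intro t
    rw [hvdef]
    simp only [abs_neg]
  have hconc : ConcaveOn ℝ (Icc (-a) a) v := by
    refine ⟨convex_Icc _ _, ?_⟩
    intro x hx y hy c d hc hd hcd
    have hxa : |x| ≤ a := abs_le.2 hx
    have hya : |y| ≤ a := abs_le.2 hy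
    have hz : c • x + d • y ∈ Icc (-a) a := (convex_Icc (-a) a) hx hy hc hd hcd
    have hza : |c • x + d • y| ≤ a := abs_le.2 hz
    rw [hvin x hxa, hvin y hya, hvin _ hza]
    have h1 : |c • x + d • y| ≤ c • |x| + d • |y| := by
      simp only [smul_eq_mul]
      calc |c * x + d * y| ≤ |c * x| + |d * y| := abs_add_le _ _
        _ = c * |x| + d * |y| := by rw [abs_mul, abs_mul, abs_of_nonneg hc, abs_of_nonneg hd]
    have h2 : c • |x| + d • |y| ∈ Icc 0 a :=
      (convex_Icc 0 a) (habs x hxa) (habs y hya) hc hd hcd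
    have h3 := h.conc.2 (habs x hxa) (habs y hya) hc hd hcd
    exact h3.trans (h.anti (habs _ hza) h2 h1)
  have key := Vale.Agent.Lib.P254.concave_second_moment v a ha.le hvm hv0 heven hconc hvout
  have hin : ∀ t ∈ uIcc 0 a, v t = L t := by
    intro t ht
    rw [uIcc_of_le ha.le] at ht
    have : |t| = t := abs_of_nonneg ht.1
    rw [hvin t (by rw [this]; exact ht.2), this]
  have e0 : ∫ t, v t = 2 * ∫ y in (0:ℝ)..a, L y := by
    rw [p1_even_integral v a ha.le heven hvout]
    congr 1
    exact intervalIntegral.integral_congr hin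
  have e1 : ∫ t, |t| * v t = 2 * ∫ y in (0:ℝ)..a, y * L y := by
    rw [p1_even_integral (fun t => |t| * v t) a ha.le (fun t => by simp [heven])
      (fun t ht => by simp [hvout t ht])]
    congr 1
    apply intervalIntegral.integral_congr
    intro t ht
    have ht' := ht
    rw [uIcc_of_le ha.le] at ht'
    simp only [abs_of_nonneg ht'.1, hin t ht]
  have e2 : ∫ t, t ^ 2 * v t = 2 * ∫ y in (0:ℝ)..a, y ^ 2 * L y := by
    rw [p1_even_integral (fun t => t ^ 2 * v t) a ha.le (fun t => by simp [heven])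
      (fun t ht => by simp [hvout t ht])]
    congr 1
    apply intervalIntegral.integral_congr
    intro t ht
    simp only [hin t ht]
  rw [e0, e1, e2] at key
  nlinarith [key]

/-- **Step 5, `eps ≤ 1`**, in the variables of the tail flow: if the section-area function
`v ≥ 0` is log-concave in the four-point form on `[0, T]`, then `v t * R t ≤ N t ^ 2`, where
`N t = ∫ τ in t..T, v τ` and `R t = ∫ τ in t..T, N τ`. -/
theorem tf_eps_le_one (T : ℝ) (hT : 0 < T) (v : ℝ → ℝ) (hv0 : ∀ t ∈ Icc 0 T, 0 ≤ v t)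
    (hv_int : IntervalIntegrable v volume 0 T)
    (hlogc : ∀ x y r, 0 ≤ x → x ≤ y → 0 ≤ r → y + r ≤ T → v x * v (y + r) ≤ v (x + r) * v y)
    (N R : ℝ → ℝ) (hN : ∀ t, N t = ∫ τ in t..T, v τ) (hR : ∀ t, R t = ∫ τ in t..T, N τ) :
    ∀ t ∈ Icc 0 T, v t * R t ≤ N t ^ 2 := by
  intro t ht
  have hsub : ∀ {p q : ℝ}, p ∈ Icc 0 T → q ∈ Icc 0 T → IntervalIntegrable v volume p q := by
    intro p q hp hq
    apply hv_int.mono_set
    rw [uIcc_of_le hT.le]
    intro x hx
    rcases le_total p q with hpq | hpq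
    · rw [uIcc_of_le hpq] at hx
      exact ⟨hp.1.trans hx.1, hx.2.trans hq.2⟩
    · rw [uIcc_of_ge hpq] at hx
      exact ⟨hq.1.trans hx.1, hx.2.trans hp.2⟩
  have hTm : T ∈ Icc 0 T := ⟨hT.le, le_rfl⟩
  have hNt0 : 0 ≤ N t := by
    rw [hN]
    exact intervalIntegral.integral_nonneg ht.2 (fun u hu => hv0 u ⟨ht.1.trans hu.1, hu.2⟩)
  -- pointwise comparison of the tails
  have hpt : ∀ τ ∈ Icc t T, v t * N τ ≤ v τ * N t := by
    intro τ hτ
    have hτm : τ ∈ Icc 0 T := ⟨ht.1.trans hτ.1, hτ.2⟩
    obtain ⟨d, hd⟩ : ∃ d : ℝ, d = τ - t := ⟨_, rfl⟩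
    have hd0 : 0 ≤ d := by rw [hd]; linarith [hτ.1]
    have hmid : T - d ∈ Icc 0 T := ⟨by rw [hd]; linarith [hτ.2, ht.1], by linarith⟩
    have htle : t ≤ T - d := by rw [hd]; linarith [hτ.2]
    have e1 : N τ = ∫ u in t..(T - d), v (u + d) := by
      rw [hN, intervalIntegral.integral_comp_add_right]
      congr 1
      · rw [hd]; ring
      · ring
    have hii : IntervalIntegrable (fun u => v (u + d)) volume t (T - d) := by
      have h1 := (hsub hτm hTm).comp_add_right d
      have e : τ - d = t := by rw [hd]; ring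
      rw [e] at h1
      exact h1
    have h2 : v t * N τ ≤ v τ * ∫ u in t..(T - d), v u := by
      rw [e1, ← intervalIntegral.integral_const_mul, ← intervalIntegral.integral_const_mul]
      apply intervalIntegral.integral_mono_on htle (hii.const_mul _) ((hsub ht hmid).const_mul _)
      intro u hu
      have h3 := hlogc t u d ht.1 hu.1 hd0 (by linarith [hu.2])
      have e : t + d = τ := by rw [hd]; ring
      rw [e] at h3
      exact h3
    have h4 : ∫ u in t..(T - d), v u ≤ N t := by
      rw [hN, ← intervalIntegral.integral_add_adjacent_intervals (hsub ht hmid) (hsub hmid hTm)]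
      have : 0 ≤ ∫ u in (T - d)..T, v u :=
        intervalIntegral.integral_nonneg (by linarith) (fun u hu => hv0 u ⟨hmid.1.trans hu.1, hu.2⟩)
      linarith
    exact h2.trans (mul_le_mul_of_nonneg_left h4 (hv0 τ hτm))
  have hNc : ContinuousOn N (Icc 0 T) := by
    have hfun : N = fun t => ∫ τ in t..T, v τ := funext hN
    rw [hfun]
    exact Vale.Agent.P254.TailFlow.tail_cont hT hv_int
  have hNi : IntervalIntegrable N volume t T := by
    apply ContinuousOn.intervalIntegrable
    rw [uIcc_of_le ht.2]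
    exact hNc.mono (Icc_subset_Icc ht.1 le_rfl)
  have key : ∫ τ in t..T, v t * N τ ≤ ∫ τ in t..T, v τ * N t :=
    intervalIntegral.integral_mono_on ht.2 (hNi.const_mul _) ((hsub ht hTm).mul_const _) hpt
  rw [intervalIntegral.integral_const_mul, intervalIntegral.integral_mul_const, ← hR, ← hN] at key
  nlinarith [key]

end Vale.Agent.Lib.P254.TF
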