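import Vale.Agent.Lib.P254.TF.Defs

/-!
# P254 tail-flow route: positivity and integrability of the section functions

Paper: a corner `K` of positive volume contains a point `q` with all coordinates positive and a
point `p` of height `top K`; by convexity and down-closedness the section at every height
`t < top K` contains a small box `[0, a] x [0, b]`, so `sv K t > 0` and `sm K j t > 0`.
The section functions are measurable (`measurable_slice`) and bounded.
-/

open MeasureTheory Set

namespace Vale.Agent.Lib.P254.TF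

variable {K : Set (Fin 3 → ℝ)}

theorem le_top (hK : Corner K) : ∀ x ∈ K, x 0 ≤ top K := by
  intro x hx
  exact le_csSup (hK.1.image (continuous_apply 0)).bddAbove (mem_image_of_mem _ hx)

/-- A corner of positive volume has a point with all coordinates positive. -/
lemma sp_pos_point (hK : Corner K) (hV : 0 < vol K) : ∃ q ∈ K, ∀ i, 0 < q i := by
  by_contra hcon
  push Not at hcon
  have hsub : K ⊆ ⋃ i : Fin 3, {x : Fin 3 → ℝ | x i = 0} := by
    intro x hx
    obtain ⟨i, hi⟩ := hcon x hx
    exact mem_iUnion.2 ⟨i, le_antisymm hi (hK.2.2.1 x hx i)⟩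
  have hnull : volume (⋃ i : Fin 3, {x : Fin 3 → ℝ | x i = 0}) = 0 := by
    rw [measure_iUnion_null_iff]
    intro i
    rw [volume_pi]
    exact Measure.pi_hyperplane (fun _ : Fin 3 => (volume : Measure ℝ)) i 0
  have h0 : volume K = 0 := measure_mono_null hsub hnull
  have hV' : 0 < (volume K).toReal := hV
  rw [h0] at hV'
  simp at hV'

/-- Boxes with positive sides have positive volume. -/
lemma sp_vol_box_pos {m : ℕ} {a b : Fin m → ℝ} (h : ∀ j, a j < b j) :
    0 < volume (Icc a b) := by
  rw [Real.volume_Icc_pi]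
  exact pos_iff_ne_zero.2
    (Finset.prod_ne_zero_iff.2 fun i _ => (ENNReal.ofReal_pos.2 (sub_pos.2 (h i))).ne')

/-- Below the top height there is a point of the corner above the height with positive
remaining coordinates. -/
lemma sp_box_point (hK : Corner K) (hV : 0 < vol K) {t : ℝ} (ht : t ∈ Ico 0 (top K)) :
    ∃ z ∈ K, t ≤ z 0 ∧ ∀ j : Fin 2, 0 < z j.succ := by
  obtain ⟨q, hq, hqpos⟩ := sp_pos_point hK hV
  obtain ⟨p, hp, hptop⟩ :=
    hK.1.exists_sSup_image_eq ⟨q, hq⟩ (f := fun x : Fin 3 → ℝ => x 0)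
      (continuous_apply 0).continuousOn
  have hp0 : p 0 = top K := hptop.symm
  have htop : 0 < top K := lt_of_le_of_lt ht.1 ht.2
  have hl0 : 0 ≤ t / top K := div_nonneg ht.1 htop.le
  have hl1 : t / top K < 1 := (div_lt_one htop).2 ht.2
  refine ⟨(1 - t / top K) • q + (t / top K) • p,
    hK.2.1 hq hp (by linarith) hl0 (by ring), ?_, ?_⟩
  · simp only [Pi.add_apply, Pi.smul_apply, smul_eq_mul]
    have h1 : t / top K * p 0 = t := by
      rw [hp0]
      field_simp
    have h2 : 0 ≤ (1 - t / top K) * q 0 := mul_nonneg (by linarith) (hqpos 0).le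
    linarith
  · intro j
    simp only [Pi.add_apply, Pi.smul_apply, smul_eq_mul]
    have h1 : 0 < (1 - t / top K) * q j.succ := mul_pos (by linarith) (hqpos _)
    have h2 : 0 ≤ t / top K * p j.succ := mul_nonneg hl0 (hK.2.2.1 p hp _)
    linarith

/-- The section at a height below a point of the corner contains the box under that point. -/
lemma sp_box_subset (hK : Corner K) {t : ℝ} (ht0 : 0 ≤ t) {z : Fin 3 → ℝ} (hz : z ∈ K)
    (htz : t ≤ z 0) : Icc (0 : Fin 2 → ℝ) (fun j => z j.succ) ⊆ sec K t := by
  intro y hy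
  rw [mem_sec]
  refine hK.2.2.2 z hz _ ?_ ?_
  · intro i
    refine Fin.cases ?_ (fun j => ?_) i
    · simpa using ht0
    · simpa using hy.1 j
  · intro i
    refine Fin.cases ?_ (fun j => ?_) i
    · simpa using htz
    · simpa using hy.2 j

theorem top_pos (hK : Corner K) (hV : 0 < vol K) : 0 < top K := by
  obtain ⟨q, hq, hqpos⟩ := sp_pos_point hK hV
  exact lt_of_lt_of_le (hqpos 0) (le_top hK q hq)

theorem sv_pos (hK : Corner K) (hV : 0 < vol K) {t : ℝ} (ht : t ∈ Ico 0 (top K)) :
    0 < sv K t := by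
  obtain ⟨z, hz, htz, hzpos⟩ := sp_box_point hK hV ht
  have hsub := sp_box_subset hK ht.1 hz htz
  have hpos : 0 < volume (sec K t) :=
    lt_of_lt_of_le (sp_vol_box_pos (fun j => hzpos j)) (measure_mono hsub)
  exact ENNReal.toReal_pos hpos.ne' (isCompact_sec hK.1 t).measure_lt_top.ne

theorem sm_pos (hK : Corner K) (hV : 0 < vol K) (j : Fin 2) {t : ℝ}
    (ht : t ∈ Ico 0 (top K)) : 0 < sm K j t := by
  obtain ⟨z, hz, htz, hzpos⟩ := sp_box_point hK hV ht
  have hsub := sp_box_subset hK ht.1 hz htz
  have hcomp := isCompact_sec hK.1 t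
  show 0 < ∫ y in sec K t, y j
  rw [setIntegral_pos_iff_support_of_nonneg_ae]
  · have hsub2 : Icc (fun i : Fin 2 => z i.succ / 2) (fun i : Fin 2 => z i.succ) ⊆
        Function.support (fun y : Fin 2 → ℝ => y j) ∩ sec K t := by
      intro y hy
      refine ⟨?_, hsub ⟨fun i => ?_, hy.2⟩⟩
      · have h1 : z j.succ / 2 ≤ y j := hy.1 j
        have h2 : 0 < y j := lt_of_lt_of_le (half_pos (hzpos j)) h1
        exact h2.ne'
      · have h1 : z i.succ / 2 ≤ y i := hy.1 i
        exact le_trans (half_pos (hzpos i)).le h1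
    exact lt_of_lt_of_le (sp_vol_box_pos (fun i => half_lt_self (hzpos i))) (measure_mono hsub2)
  · refine (ae_restrict_iff' hcomp.measurableSet).2 (Filter.Eventually.of_forall fun y hy => ?_)
    have h1 := hK.2.2.1 _ (mem_sec.1 hy) j.succ
    simpa using h1
  · exact (continuous_apply j).continuousOn.integrableOn_compact hcomp

theorem sv_intervalIntegrable (hK : Corner K) (a b : ℝ) :
    IntervalIntegrable (sv K) volume a b := by
  obtain ⟨M, hM⟩ := vol_sec_bounded hK.1
  have hmeas : Measurable (sv K) := measurable_vol_sec hK.1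
  rw [intervalIntegrable_iff]
  refine Measure.integrableOn_of_bounded (M := M) measure_Ioc_lt_top.ne
    hmeas.aestronglyMeasurable ?_
  refine Filter.Eventually.of_forall fun t => ?_
  have h0 : 0 ≤ sv K t := ENNReal.toReal_nonneg
  rw [Real.norm_eq_abs, abs_of_nonneg h0]
  exact hM t

theorem sm_intervalIntegrable (hK : Corner K) (j : Fin 2) (a b : ℝ) :
    IntervalIntegrable (sm K j) volume a b := by
  obtain ⟨M, hM⟩ := vol_sec_bounded hK.1
  obtain ⟨R, hR⟩ := hK.1.isBounded.subset_closedBall (0 : Fin 3 → ℝ)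
  have hmeas : Measurable (sm K j) := by
    have h := measurable_slice hK.1 (fun x : Fin 3 → ℝ => x j.succ) (continuous_apply _)
    have h2 : sm K j = fun t => ∫ y in sec K t,
        (fun x : Fin 3 → ℝ => x j.succ) (Fin.cons t y) := by
      funext t
      simp [sm]
    rw [h2]
    exact h
  rw [intervalIntegrable_iff]
  refine Measure.integrableOn_of_bounded (M := |R| * M) measure_Ioc_lt_top.ne
    hmeas.aestronglyMeasurable ?_
  refine Filter.Eventually.of_forall fun t => ?_
  have hfin : volume (sec K t) < ⊤ := (isCompact_sec hK.1 t).measure_lt_top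
  have hb : ∀ y ∈ sec K t, ‖y j‖ ≤ |R| := by
    intro y hy
    have h1 := hR (mem_sec.1 hy)
    rw [mem_closedBall_zero_iff] at h1
    have h2 := norm_le_pi_norm (Fin.cons t y : Fin 3 → ℝ) j.succ
    rw [Fin.cons_succ] at h2
    exact le_trans h2 (le_trans h1 (le_abs_self R))
  have h3 : ‖∫ y in sec K t, y j‖ ≤ |R| * (volume (sec K t)).toReal :=
    norm_setIntegral_le_of_norm_le_const hfin hb
  have h4 : (volume (sec K t)).toReal ≤ M := hM t
  calc ‖sm K j t‖ ≤ |R| * (volume (sec K t)).toReal := h3
    _ ≤ |R| * M := mul_le_mul_of_nonneg_left h4 (abs_nonneg R)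

/-- Positivity of the first moments of a corner of positive volume. -/
theorem mom_pos (hK : Corner K) (hV : 0 < vol K) (i : Fin 3) : 0 < ∫ x in K, x i := by
  obtain ⟨q, hq, hqpos⟩ := sp_pos_point hK hV
  rw [setIntegral_pos_iff_support_of_nonneg_ae]
  · have hsub : Icc (fun k : Fin 3 => q k / 2) q ⊆
        Function.support (fun x : Fin 3 → ℝ => x i) ∩ K := by
      intro x hx
      refine ⟨?_, hK.2.2.2 q hq x (fun k => ?_) hx.2⟩
      · have h1 : q i / 2 ≤ x i := hx.1 i
        have h2 : 0 < x i := lt_of_lt_of_le (half_pos (hqpos i)) h1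
        exact h2.ne'
      · have h1 : q k / 2 ≤ x k := hx.1 k
        exact le_trans (half_pos (hqpos k)).le h1
    exact lt_of_lt_of_le (sp_vol_box_pos (fun k => half_lt_self (hqpos k))) (measure_mono hsub)
  · exact (ae_restrict_iff' hK.1.measurableSet).2
      (Filter.Eventually.of_forall fun x hx => hK.2.2.1 x hx i)
  · exact (continuous_apply i).continuousOn.integrableOn_compact hK.1

/-- For a corner of volume zero all first moments vanish. -/
theorem mom_eq_zero_of_vol (hK : Corner K) (hV : vol K = 0) (i : Fin 3) :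
    ∫ x in K, x i = 0 := by
  have hV' : (volume K).toReal = 0 := hV
  have h0 : volume K = 0 :=
    ((ENNReal.toReal_eq_zero_iff _).1 hV').resolve_right hK.1.measure_lt_top.ne
  exact setIntegral_measure_zero _ h0

end Vale.Agent.Lib.P254.TF
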