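import Vale.Agent.Lib.P254.TF.TailBody
import Vale.Agent.Lib.P254.TF.SecPos
import Vale.Agent.Lib.P254.TF.Planar
import Vale.Agent.Lib.P254.TF.Bessel
import Vale.Agent.Lib.P254.TF.Berw
import Vale.Agent.Lib.P254.TF.LemmaA
import Vale.Agent.Lib.P254.TF.PTCalc

/-!
# P254 tail-flow route: the bracket inequality of one corner
-/

open MeasureTheory Set

namespace Vale.Agent.Lib.P254.TF

variable {K : Set (Fin 3 → ℝ)}

/-- The bracket inequality for one corner of positive volume. -/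
theorem star0 (hK : Corner K) (hV : 0 < vol K) :
    (vol K) ^ 2 / (vol (sec K 0) * ∫ x in K, x 0) +
        (∫ y in sec K 0, y 0) * vol K / (vol (sec K 0) * ∫ x in K, x 1) +
        (∫ y in sec K 0, y 1) * vol K / (vol (sec K 0) * ∫ x in K, x 2) - 4 ≤
      4 * Real.log (vol K) - Real.log (2 * ∫ x in K, x 0) - Real.log (2 * ∫ x in K, x 1) -
        Real.log (2 * ∫ x in K, x 2) := by
  have hT := top_pos hK hV
  have h0 : (0:ℝ) ∈ Ico 0 (top K) := ⟨le_refl 0, hT⟩
  have hA : 0 < vol (sec K 0) := sv_pos hK hV h0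
  have hM0 : 0 < ∫ y in sec K 0, y 0 := sm_pos hK hV 0 h0
  have hM1 : 0 < ∫ y in sec K 0, y 1 := sm_pos hK hV 1 h0
  have hF := corner_sec hK 0
  have hA0 := lemmaA hK 0
  have hA1 := lemmaA hK 1
  exact bracket_of_bounds (vol K) (vol (sec K 0)) (∫ x in K, x 0) (∫ y in sec K 0, y 0)
    (∫ y in sec K 0, y 1) (∫ x in K, x 1) (∫ x in K, x 2) (∫ y in sec K 0, (y 0) ^ 2)
    (∫ y in sec K 0, y 0 * y 1) (∫ y in sec K 0, (y 1) ^ 2) hV hA (mom_pos hK hV 0) hM0 hM1
    (mom_pos hK hV 1) (mom_pos hK hV 2) (planar_I2 hF) hA0 hA1 (eps_nonneg hK) (eps_le_half hK)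
    (planar_second hF 0) (planar_second hF 1) (planar_cross_le hF) (planar_cross_ge hF)
    (fun a0 a1 => bessel hK a0 a1)

end Vale.Agent.Lib.P254.TF
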