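import Mathlib

/-!
# P254 tail-flow route: the two-variable calculus inequality

Paper (team doc `P254_I2`, section `I2_3 PROOF`, Step 6, the pair sig = 2/5, E = 1/2, with the
Cauchy-Schwarz hypotheses in the refined form below): `chi x = log (1+x) - x/(1+x)`,
`om e = 2e/(1+e) - log (1+e)`.

Proof given here.  Two quantitative facts about the logarithm are used:
`log (1 + x) ≤ x (6 + x) / (6 + 4 x)` for `x ≥ 0` and the truncated power series of
`log (1 - s)`.  Equal signs: `chi (-s) ≤ s^2` on `[0, 2/5]`, `chi u ≤ u^2 / 2` for `u ≥ 0`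
and `om e ≥ e / 2` on `[0, 1/2]`.  Opposite signs `x1 = -s`, `x2 = u`: the hypotheses give
`s^2 ≤ e / 2`, `s ≤ 2/5` and `s^2 + u^2 ≤ 5 e / 6`.  Since `chi (-s) - s^2 / 2` and
`u^2 / 2 - chi u` are nondecreasing, `chi (-s) + chi u ≤ chi (-S) + chi U` whenever `s ≤ S`
and `s^2 + u^2 ≤ S^2 + U^2`.  For `e ≤ 0.29` a linear bound suffices; the range
`0.29 ≤ e ≤ 1/2` is cut into six pieces on which `om e` is bounded below by its value at the
left end and `chi (-S) + chi U` is evaluated at rational `S`, `U`.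
-/

namespace Vale.Agent.Lib.P254.TF

open Set

/-- The function `chi x = log (1 + x) - x / (1 + x)`. -/
noncomputable def s6_chi (x : ℝ) : ℝ := Real.log (1 + x) - x / (1 + x)

/-- The function `om e = 2 e / (1 + e) - log (1 + e)`. -/
noncomputable def s6_om (e : ℝ) : ℝ := 2 * e / (1 + e) - Real.log (1 + e)

/-- A function with nonnegative derivative on `[0, b)` is nondecreasing there. -/
lemma s6_mono_of_deriv {f f' : ℝ → ℝ} {b : ℝ}
    (hd : ∀ t, 0 ≤ t → t < b → HasDerivAt f (f' t) t)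
    (hpos : ∀ t, 0 < t → t < b → 0 ≤ f' t) {x y : ℝ} (hx : 0 ≤ x) (hxy : x ≤ y) (hy : y < b) :
    f x ≤ f y := by
  have key : MonotoneOn f (Ico 0 b) := by
    apply monotoneOn_of_deriv_nonneg (convex_Ico 0 b)
    · intro t ht
      exact (hd t ht.1 ht.2).continuousAt.continuousWithinAt
    · intro t ht
      rw [interior_Ico] at ht
      exact (hd t ht.1.le ht.2).differentiableAt.differentiableWithinAt
    · intro t ht
      rw [interior_Ico] at ht
      rw [(hd t ht.1.le ht.2).deriv]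
      exact hpos t ht.1 ht.2
  exact key ⟨hx, lt_of_le_of_lt hxy hy⟩ ⟨hx.trans hxy, hy⟩ hxy

/-- Pade upper bound for the logarithm. -/
lemma s6_log_pade {x : ℝ} (hx : 0 ≤ x) : Real.log (1 + x) ≤ x * (6 + x) / (6 + 4 * x) := by
  have h := s6_mono_of_deriv (f := fun t : ℝ => t * (6 + t) / (6 + 4 * t) - Real.log (1 + t))
    (f' := fun t : ℝ => 4 * t ^ 3 / ((6 + 4 * t) ^ 2 * (1 + t))) (b := x + 1) ?_ ?_
    le_rfl hx (by linarith)
  · simp only [zero_mul, zero_div, add_zero, Real.log_one, sub_zero] at h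
    linarith
  · intro t ht _
    have h1 : (6 : ℝ) + 4 * t ≠ 0 := by positivity
    have h2 : (1 : ℝ) + t ≠ 0 := by positivity
    have hA : HasDerivAt (fun t : ℝ => t * (6 + t)) (1 * (6 + t) + t * 1) t :=
      (hasDerivAt_id t).mul ((hasDerivAt_id t).const_add 6)
    have hB : HasDerivAt (fun t : ℝ => 6 + 4 * t) (4 * 1) t :=
      ((hasDerivAt_id t).const_mul 4).const_add 6
    have hC : HasDerivAt (fun t : ℝ => Real.log (1 + t)) (1 / (1 + t)) t :=
      ((hasDerivAt_id t).const_add 1).log h2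
    have hD : HasDerivAt (fun t : ℝ => t * (6 + t) / (6 + 4 * t) - Real.log (1 + t))
        (((1 * (6 + t) + t * 1) * (6 + 4 * t) - t * (6 + t) * (4 * 1)) / (6 + 4 * t) ^ 2
          - 1 / (1 + t)) t := (hA.div hB h1).sub hC
    refine hD.congr_deriv ?_
    field_simp
    ring
  · intro t ht _
    positivity

/-- Series upper bound for `log (1 - s)`, four terms. -/
lemma s6_log_series {s : ℝ} (h0 : 0 ≤ s) (h1 : s < 1) :
    Real.log (1 - s) ≤ -(s + s ^ 2 / 2 + s ^ 3 / 3 + s ^ 4 / 4) := by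
  have hs : |s| < 1 := by rw [abs_of_nonneg h0]; exact h1
  have h := Real.hasSum_pow_div_log_of_abs_lt_one hs
  have h2 := sum_le_hasSum (Finset.range 4) (fun i _ => by positivity) h
  simp only [Finset.sum_range_succ, Finset.sum_range_zero] at h2
  norm_num at h2
  linarith

/-- Series upper bound for `log (1 - s)`, six terms. -/
lemma s6_log_series6 {s : ℝ} (h0 : 0 ≤ s) (h1 : s < 1) :
    Real.log (1 - s)
      ≤ -(s + s ^ 2 / 2 + s ^ 3 / 3 + s ^ 4 / 4 + s ^ 5 / 5 + s ^ 6 / 6) := by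
  have hs : |s| < 1 := by rw [abs_of_nonneg h0]; exact h1
  have h := Real.hasSum_pow_div_log_of_abs_lt_one hs
  have h2 := sum_le_hasSum (Finset.range 6) (fun i _ => by positivity) h
  simp only [Finset.sum_range_succ, Finset.sum_range_zero] at h2
  norm_num at h2
  linarith

lemma s6_chi_neg_eq (s : ℝ) : s6_chi (-s) = Real.log (1 - s) + s / (1 - s) := by
  unfold s6_chi
  rw [show (1 : ℝ) + -s = 1 - s by ring, neg_div]
  ring

lemma s6_chi_hasDerivAt {x : ℝ} (hx : -1 < x) : HasDerivAt s6_chi (x / (1 + x) ^ 2) x := by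
  have h2 : (1 : ℝ) + x ≠ 0 := by linarith
  have hC : HasDerivAt (fun t : ℝ => Real.log (1 + t)) (1 / (1 + x)) x :=
    ((hasDerivAt_id x).const_add 1).log h2
  have hB : HasDerivAt (fun t : ℝ => 1 + t) 1 x := (hasDerivAt_id x).const_add 1
  have hD : HasDerivAt (fun t : ℝ => t / (1 + t)) ((1 * (1 + x) - x * 1) / (1 + x) ^ 2) x :=
    (hasDerivAt_id x).div hB h2
  have hE : HasDerivAt s6_chi (1 / (1 + x) - (1 * (1 + x) - x * 1) / (1 + x) ^ 2) x :=
    hC.sub hD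
  refine hE.congr_deriv ?_
  field_simp
  ring

lemma s6_chi_le_pade {u : ℝ} (hu : 0 ≤ u) :
    s6_chi u ≤ u ^ 2 * (3 + u) / ((6 + 4 * u) * (1 + u)) := by
  have h := s6_log_pade hu
  have h1 : (0 : ℝ) < 6 + 4 * u := by positivity
  have h2 : (0 : ℝ) < 1 + u := by positivity
  have e : u ^ 2 * (3 + u) / ((6 + 4 * u) * (1 + u)) = u * (6 + u) / (6 + 4 * u) - u / (1 + u) := by
    field_simp
    ring
  rw [e]
  unfold s6_chi
  linarith

lemma s6_chi_le_half_sq {u : ℝ} (hu : 0 ≤ u) : s6_chi u ≤ u ^ 2 / 2 := by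
  refine (s6_chi_le_pade hu).trans ?_
  have h1 : (0 : ℝ) < 6 + 4 * u := by positivity
  have h2 : (0 : ℝ) < 1 + u := by positivity
  rw [div_le_div_iff₀ (by positivity) (by norm_num)]
  nlinarith [mul_nonneg (pow_nonneg hu 2) hu, mul_nonneg (pow_nonneg hu 2) (pow_nonneg hu 2)]

/-- Quadratic bound for `chi (-s)` on `[0, S0]`. -/
lemma s6_chi_neg_le_quad {s S0 k : ℝ} (h0 : 0 ≤ s) (hs : s ≤ S0) (hS0 : S0 < 1)
    (hk : 1 / 2 + S0 / 6 + S0 ^ 2 / 12 + S0 ^ 3 / 4 ≤ k * (1 - S0)) :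
    s6_chi (-s) ≤ k * s ^ 2 := by
  have hS00 : 0 ≤ S0 := h0.trans hs
  have hk0 : 0 ≤ k := by
    by_contra hneg
    push Not at hneg
    have : k * (1 - S0) ≤ 0 := mul_nonpos_of_nonpos_of_nonneg hneg.le (by linarith)
    nlinarith [pow_nonneg hS00 2, pow_nonneg hS00 3]
  have hlog := s6_log_series h0 (by linarith)
  have h2 : (0 : ℝ) < 1 - s := by linarith
  have hkey : 1 / 2 + s / 6 + s ^ 2 / 12 + s ^ 3 / 4 ≤ k * (1 - s) := by
    have e1 : s ^ 2 ≤ S0 ^ 2 := pow_le_pow_left₀ h0 hs 2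
    have e2 : s ^ 3 ≤ S0 ^ 3 := pow_le_pow_left₀ h0 hs 3
    have e3 : k * (1 - S0) ≤ k * (1 - s) := mul_le_mul_of_nonneg_left (by linarith) hk0
    linarith
  rw [s6_chi_neg_eq]
  have h3 : s / (1 - s) ≤ s + s ^ 2 / 2 + s ^ 3 / 3 + s ^ 4 / 4 + k * s ^ 2 := by
    rw [div_le_iff₀ h2]
    have e : (s + s ^ 2 / 2 + s ^ 3 / 3 + s ^ 4 / 4 + k * s ^ 2) * (1 - s) - s
        = s ^ 2 * (k * (1 - s) - (1 / 2 + s / 6 + s ^ 2 / 12 + s ^ 3 / 4)) := by ring
    have h4 : 0 ≤ s ^ 2 * (k * (1 - s) - (1 / 2 + s / 6 + s ^ 2 / 12 + s ^ 3 / 4)) :=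
      mul_nonneg (sq_nonneg s) (by linarith)
    linarith
  linarith

/-- Six-term upper bound for `chi (-S)`. -/
lemma s6_chi_neg_le_U6 {S : ℝ} (h0 : 0 ≤ S) (h1 : S < 1) :
    s6_chi (-S)
      ≤ S / (1 - S) - (S + S ^ 2 / 2 + S ^ 3 / 3 + S ^ 4 / 4 + S ^ 5 / 5 + S ^ 6 / 6) := by
  rw [s6_chi_neg_eq]
  linarith [s6_log_series6 h0 h1]

lemma s6_chi_mono {u v : ℝ} (hu : 0 ≤ u) (huv : u ≤ v) : s6_chi u ≤ s6_chi v := by
  have h1 : (0 : ℝ) < 1 + u := by positivity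
  have h2 : (0 : ℝ) < 1 + v := by linarith
  have hl := Real.one_sub_inv_le_log_of_pos (div_pos h2 h1)
  rw [Real.log_div h2.ne' h1.ne', inv_div] at hl
  unfold s6_chi
  have e : 1 - (1 + u) / (1 + v) - (v / (1 + v) - u / (1 + u)) = (v - u) * u / ((1 + u) * (1 + v)) := by
    field_simp
    ring
  have h3 : 0 ≤ (v - u) * u / ((1 + u) * (1 + v)) := by
    apply div_nonneg (mul_nonneg (by linarith) hu) (by positivity)
  linarith

/-- `u^2 / 2 - chi u` is nondecreasing on `[0, ∞)`. -/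
lemma s6_chi_sub_mono {u v : ℝ} (hu : 0 ≤ u) (huv : u ≤ v) :
    u ^ 2 / 2 - s6_chi u ≤ v ^ 2 / 2 - s6_chi v := by
  refine s6_mono_of_deriv (f := fun t : ℝ => t ^ 2 / 2 - s6_chi t)
    (f' := fun t : ℝ => t - t / (1 + t) ^ 2) (b := v + 1) ?_ ?_ hu huv (by linarith)
  · intro t ht _
    have h1 : HasDerivAt (fun t : ℝ => t ^ 2 / 2) ((2 : ℕ) * t ^ (2 - 1) * 1 / 2) t :=
      ((hasDerivAt_id t).pow 2).div_const 2
    refine (h1.sub (s6_chi_hasDerivAt (by linarith))).congr_deriv ?_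
    norm_num
  · intro t ht _
    have h1 : (0 : ℝ) < (1 + t) ^ 2 := by positivity
    have h2 : t / (1 + t) ^ 2 ≤ t := by
      rw [div_le_iff₀ h1]
      have h3 : (1 : ℝ) ≤ (1 + t) ^ 2 := by nlinarith
      nlinarith [mul_le_mul_of_nonneg_left h3 ht.le]
    linarith

/-- `chi (-s) - s^2 / 2` is nondecreasing on `[0, 1)`. -/
lemma s6_chi_neg_sub_mono {s S : ℝ} (hs : 0 ≤ s) (hsS : s ≤ S) (hS : S < 1) :
    s6_chi (-s) - s ^ 2 / 2 ≤ s6_chi (-S) - S ^ 2 / 2 := by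
  refine s6_mono_of_deriv (f := fun t : ℝ => s6_chi (-t) - t ^ 2 / 2)
    (f' := fun t : ℝ => t / (1 - t) ^ 2 - t) (b := 1) ?_ ?_ hs hsS hS
  · intro t _ ht
    have h1 : HasDerivAt (fun t : ℝ => t ^ 2 / 2) ((2 : ℕ) * t ^ (2 - 1) * 1 / 2) t :=
      ((hasDerivAt_id t).pow 2).div_const 2
    have h2 : HasDerivAt (fun t : ℝ => s6_chi (-t)) (-t / (1 + -t) ^ 2 * -1) t :=
      (s6_chi_hasDerivAt (x := -t) (by linarith)).comp t (hasDerivAt_neg' t)
    refine (h2.sub h1).congr_deriv ?_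
    have h3 : (1 : ℝ) - t ≠ 0 := by linarith
    have h4 : (1 : ℝ) + -t ≠ 0 := by linarith
    field_simp
    ring
  · intro t ht0 ht1
    have h1 : (0 : ℝ) < (1 - t) ^ 2 := by
      have : (0 : ℝ) < 1 - t := by linarith
      positivity
    have h2 : t ≤ t / (1 - t) ^ 2 := by
      rw [le_div_iff₀ h1]
      have h3 : (1 - t) ^ 2 ≤ 1 := by nlinarith
      nlinarith [mul_le_mul_of_nonneg_left h3 ht0.le]
    linarith

lemma s6_chi_neg_mono {s S : ℝ} (hs : 0 ≤ s) (hsS : s ≤ S) (hS : S < 1) :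
    s6_chi (-s) ≤ s6_chi (-S) := by
  have h1 := s6_chi_neg_sub_mono hs hsS hS
  have h2 : s ^ 2 ≤ S ^ 2 := pow_le_pow_left₀ hs hsS 2
  linarith

lemma s6_om_mono {a b : ℝ} (ha : 0 ≤ a) (hab : a ≤ b) (hb : b ≤ 1) : s6_om a ≤ s6_om b := by
  have h1 : (0 : ℝ) < 1 + a := by positivity
  have h2 : (0 : ℝ) < 1 + b := by linarith
  have hl := Real.log_le_sub_one_of_pos (div_pos h2 h1)
  rw [Real.log_div h2.ne' h1.ne'] at hl
  unfold s6_om
  have e : 2 * b / (1 + b) - 2 * a / (1 + a) - ((1 + b) / (1 + a) - 1)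
      = (b - a) * (1 - b) / ((1 + a) * (1 + b)) := by
    field_simp
    ring
  have h3 : 0 ≤ (b - a) * (1 - b) / ((1 + a) * (1 + b)) := by
    apply div_nonneg (mul_nonneg (by linarith) (by linarith)) (by positivity)
  linarith

lemma s6_om_ge_pade {e : ℝ} (he : 0 ≤ e) :
    e * (6 + e - e ^ 2) / ((1 + e) * (6 + 4 * e)) ≤ s6_om e := by
  have h := s6_log_pade he
  have h1 : (0 : ℝ) < 6 + 4 * e := by positivity
  have h2 : (0 : ℝ) < 1 + e := by positivity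
  have e' : e * (6 + e - e ^ 2) / ((1 + e) * (6 + 4 * e))
      = 2 * e / (1 + e) - e * (6 + e) / (6 + 4 * e) := by
    field_simp
    ring
  rw [e']
  unfold s6_om
  linarith

/-- `om e ≥ c e` on `[0, E]` as soon as the Pade lower bound has slope at least `c` at `E`. -/
lemma s6_om_ge_lin {c E e : ℝ} (hc : 0 ≤ c) (he : 0 ≤ e) (heE : e ≤ E) (hE : E ≤ 1)
    (hcE : c * ((1 + E) * (6 + 4 * E)) ≤ 6 + E - E ^ 2) : c * e ≤ s6_om e := by
  refine le_trans ?_ (s6_om_ge_pade he)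
  have h1 : (0 : ℝ) < (1 + e) * (6 + 4 * e) := by positivity
  rw [le_div_iff₀ h1]
  have key : c * ((1 + e) * (6 + 4 * e)) ≤ 6 + e - e ^ 2 := by
    nlinarith [mul_nonneg hc (mul_nonneg (by linarith : (0 : ℝ) ≤ E - e)
        (by linarith : (0 : ℝ) ≤ 10 + 4 * E + 4 * e)),
      mul_nonneg (by linarith : (0 : ℝ) ≤ E - e) (by linarith : (0 : ℝ) ≤ 1 - E),
      mul_nonneg (by linarith : (0 : ℝ) ≤ E - e) he]
  nlinarith [mul_le_mul_of_nonneg_left key he]

/-- The vertex bound: `chi (-s) + chi u ≤ chi (-S) + chi U` when `s ≤ S` and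
`s^2 + u^2 ≤ S^2 + U^2`. -/
lemma s6_vertex {s u S U : ℝ} (hs : 0 ≤ s) (hsS : s ≤ S) (hS : S < 1) (hu : 0 ≤ u)
    (hU : 0 ≤ U) (hq : s ^ 2 + u ^ 2 ≤ S ^ 2 + U ^ 2) :
    s6_chi (-s) + s6_chi u ≤ s6_chi (-S) + s6_chi U := by
  have h1 := s6_chi_neg_sub_mono hs hsS hS
  rcases le_total u U with huU | huU
  · have h2 := s6_chi_mono hu huU
    have h3 := s6_chi_neg_mono hs hsS hS
    linarith
  · have h2 := s6_chi_sub_mono hU huU
    linarith

/-- Both variables nonnegative. -/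
lemma s6_caseB {u1 u2 e : ℝ} (h1 : 0 ≤ u1) (h2 : 0 ≤ u2) (he1 : e ≤ 1 / 2)
    (hB : 2 * (u1 ^ 2 + u2 ^ 2) ≤ e) : s6_chi u1 + s6_chi u2 ≤ s6_om e := by
  have he0 : 0 ≤ e := by nlinarith [sq_nonneg u1, sq_nonneg u2]
  have hA := s6_chi_le_half_sq h1
  have hB' := s6_chi_le_half_sq h2
  have hom : 1 / 2 * e ≤ s6_om e :=
    s6_om_ge_lin (by norm_num) he0 he1 (by norm_num) (by norm_num)
  linarith

/-- Both variables nonpositive. -/
lemma s6_caseA {s1 s2 e : ℝ} (h1 : 0 ≤ s1) (h1' : s1 ≤ 2 / 5) (h2 : 0 ≤ s2) (h2' : s2 ≤ 2 / 5)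
    (he1 : e ≤ 1 / 2) (hB : 2 * (s1 ^ 2 + s2 ^ 2) ≤ e) :
    s6_chi (-s1) + s6_chi (-s2) ≤ s6_om e := by
  have he0 : 0 ≤ e := by nlinarith [sq_nonneg s1, sq_nonneg s2]
  have hA := s6_chi_neg_le_quad (k := 1) h1 h1' (by norm_num) (by norm_num)
  have hB' := s6_chi_neg_le_quad (k := 1) h2 h2' (by norm_num) (by norm_num)
  have hom : 1 / 2 * e ≤ s6_om e :=
    s6_om_ge_lin (by norm_num) he0 he1 (by norm_num) (by norm_num)
  linarith

/-- One piece of the range of `e` in the case of opposite signs. -/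
lemma s6_piece {s u e e0 e1 S U : ℝ} (hs0 : 0 ≤ s) (hsS : s ≤ S) (hS : S < 1) (hu : 0 ≤ u)
    (hU : 0 ≤ U) (he0 : 0 ≤ e0) (h0e : e0 ≤ e) (he1 : e ≤ e1) (he11 : e1 ≤ 1)
    (hq : 6 * (s ^ 2 + u ^ 2) ≤ 5 * e) (hSU : 5 * e1 ≤ 6 * (S ^ 2 + U ^ 2))
    (hnum : S / (1 - S) - (S + S ^ 2 / 2 + S ^ 3 / 3 + S ^ 4 / 4 + S ^ 5 / 5 + S ^ 6 / 6)
        + U ^ 2 * (3 + U) / ((6 + 4 * U) * (1 + U))
      ≤ e0 * (6 + e0 - e0 ^ 2) / ((1 + e0) * (6 + 4 * e0))) :
    s6_chi (-s) + s6_chi u ≤ s6_om e := by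
  have h1 := s6_vertex hs0 hsS hS hu hU (by linarith)
  have h2 := s6_chi_neg_le_U6 (hs0.trans hsS) hS
  have h3 := s6_chi_le_pade hU
  have h4 := s6_om_ge_pade he0
  have h5 := s6_om_mono he0 h0e (he1.trans he11)
  linarith

/-- Variables of opposite signs. -/
lemma s6_mixed {s u e : ℝ} (hs0 : 0 ≤ s) (hs1 : s ≤ 2 / 5) (hu : 0 ≤ u) (he1 : e ≤ 1 / 2)
    (hS1 : 2 * s ^ 2 ≤ e) (hq : 6 * (s ^ 2 + u ^ 2) ≤ 5 * e) :
    s6_chi (-s) + s6_chi u ≤ s6_om e := by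
  have he0 : 0 ≤ e := by nlinarith [sq_nonneg s]
  rcases le_or_gt e (29 / 100) with h | h
  · -- linear regime
    have hs : s ≤ 381 / 1000 := by
      by_contra hc
      push Not at hc
      nlinarith [mul_pos (sub_pos.2 hc) (by linarith : (0 : ℝ) < s + 381 / 1000)]
    have hA := s6_chi_neg_le_quad (k := 955 / 1000) hs0 hs (by norm_num) (by norm_num)
    have hU := s6_chi_le_half_sq hu
    have hom : 645 / 1000 * e ≤ s6_om e :=
      s6_om_ge_lin (by norm_num) he0 h (by norm_num) (by norm_num)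
    nlinarith [sq_nonneg u, sq_nonneg s]
  rcases le_or_gt e (305 / 1000) with h' | h'
  · have hs : s ≤ 3906 / 10000 := by
      by_contra hc
      push Not at hc
      nlinarith [mul_pos (sub_pos.2 hc) (by linarith : (0 : ℝ) < s + 3906 / 10000)]
    exact s6_piece (e0 := 29 / 100) (e1 := 305 / 1000) (S := 3906 / 10000) (U := 3188 / 10000)
      hs0 hs (by norm_num) hu (by norm_num) (by norm_num) h.le h' (by norm_num) hq
      (by norm_num) (by norm_num)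
  rcases le_or_gt e (32 / 100) with h'' | h''
  · exact s6_piece (e0 := 305 / 1000) (e1 := 32 / 100) (S := 2 / 5) (U := 3266 / 10000)
      hs0 hs1 (by norm_num) hu (by norm_num) (by norm_num) h'.le h'' (by norm_num) hq
      (by norm_num) (by norm_num)
  rcases le_or_gt e (345 / 1000) with h3 | h3
  · exact s6_piece (e0 := 32 / 100) (e1 := 345 / 1000) (S := 2 / 5) (U := 3571 / 10000)
      hs0 hs1 (by norm_num) hu (by norm_num) (by norm_num) h''.le h3 (by norm_num) hq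
      (by norm_num) (by norm_num)
  rcases le_or_gt e (38 / 100) with h4 | h4
  · exact s6_piece (e0 := 345 / 1000) (e1 := 38 / 100) (S := 2 / 5) (U := 3959 / 10000)
      hs0 hs1 (by norm_num) hu (by norm_num) (by norm_num) h3.le h4 (by norm_num) hq
      (by norm_num) (by norm_num)
  rcases le_or_gt e (43 / 100) with h5 | h5
  · exact s6_piece (e0 := 38 / 100) (e1 := 43 / 100) (S := 2 / 5) (U := 4454 / 10000)
      hs0 hs1 (by norm_num) hu (by norm_num) (by norm_num) h4.le h5 (by norm_num) hq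
      (by norm_num) (by norm_num)
  · exact s6_piece (e0 := 43 / 100) (e1 := 1 / 2) (S := 2 / 5) (U := 5067 / 10000)
      hs0 hs1 (by norm_num) hu (by norm_num) (by norm_num) h5.le he1 (by norm_num) hq
      (by norm_num) (by norm_num)

/-- From the Cauchy-Schwarz hypothesis: `6 (x1^2 + x2^2) ≤ 5 e`. -/
lemma s6_q_le {x1 x2 e : ℝ} (he0 : 0 ≤ e)
    (hB2 : 6 * (x1 ^ 2 + x2 ^ 2) ^ 2 ≤ (3 * (x1 ^ 2 + x2 ^ 2) + 4 * |x1 * x2|) * e) :
    6 * (x1 ^ 2 + x2 ^ 2) ≤ 5 * e := by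
  have habs : 2 * |x1 * x2| ≤ x1 ^ 2 + x2 ^ 2 := by
    rw [abs_mul]
    nlinarith [sq_nonneg (|x1| - |x2|), sq_abs x1, sq_abs x2]
  obtain ⟨q, hq⟩ : ∃ q : ℝ, q = x1 ^ 2 + x2 ^ 2 := ⟨_, rfl⟩
  rw [← hq] at hB2 habs ⊢
  have hq0 : 0 ≤ q := by rw [hq]; positivity
  have h5 : 6 * q ^ 2 ≤ 5 * q * e := by
    nlinarith [mul_nonneg (by linarith : (0 : ℝ) ≤ q - 2 * |x1 * x2|) he0]
  by_contra hcon
  push Not at hcon
  nlinarith [mul_nonneg hq0 (by linarith : (0 : ℝ) ≤ 6 * q - 5 * e)]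

theorem step6 (x1 x2 e : ℝ) (h1 : -(2/5) ≤ x1) (h2 : -(2/5) ≤ x2) (he0 : 0 ≤ e)
    (he1 : e ≤ 1/2) (hS1 : 2 * x1 ^ 2 ≤ e) (hS2 : 2 * x2 ^ 2 ≤ e)
    (hB1 : 0 ≤ x1 * x2 → 2 * (x1 ^ 2 + x2 ^ 2) ≤ e)
    (hB2 : 6 * (x1 ^ 2 + x2 ^ 2) ^ 2 ≤ (3 * (x1 ^ 2 + x2 ^ 2) + 4 * |x1 * x2|) * e) :
    (Real.log (1 + x1) - x1 / (1 + x1)) + (Real.log (1 + x2) - x2 / (1 + x2)) ≤
      2 * e / (1 + e) - Real.log (1 + e) := by
  have hq := s6_q_le he0 hB2
  have key : s6_chi x1 + s6_chi x2 ≤ s6_om e := by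
    rcases le_total 0 x1 with a | a <;> rcases le_total 0 x2 with b | b
    · exact s6_caseB a b he1 (hB1 (mul_nonneg a b))
    · have h := s6_mixed (s := -x2) (u := x1) (by linarith) (by linarith) a he1
        (by nlinarith) (by nlinarith)
      rw [neg_neg] at h
      linarith
    · have h := s6_mixed (s := -x1) (u := x2) (by linarith) (by linarith) b he1
        (by nlinarith) (by nlinarith)
      rw [neg_neg] at h
      linarith
    · have hq' := hB1 (mul_nonneg_of_nonpos_of_nonpos a b)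
      have h := s6_caseA (s1 := -x1) (s2 := -x2) (by linarith) (by linarith) (by linarith)
        (by linarith) he1 (by nlinarith)
      rw [neg_neg, neg_neg] at h
      exact h
  exact key

end Vale.Agent.Lib.P254.TF
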