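import Vale.Agent.Lib.P254.TailFlow

/-!
# P254 / tail-flow route: the second moment of the height of a tail body

For a function `v` on `[0,T]` that is nonnegative and log-concave in the four-point form (as the
section volumes of a convex body are), with tail integrals `N t = ∫ τ in t..T, v τ` and
`R t = ∫ τ in t..T, N τ`, we prove `v t * R t ≤ N t ^ 2` for every `t` in `[0,T]`.
-/

namespace Vale.Agent.Lib.P254.TF

open MeasureTheory Set

/-- Hazard comparison: `v t * ∫_s^T v ≤ v s * ∫_t^T v` for `0 ≤ t ≤ s ≤ T`. -/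
theorem tail_hazard (T : ℝ) (v : ℝ → ℝ) (hv_int : IntervalIntegrable v volume 0 T)
    (hv0 : ∀ t ∈ Icc 0 T, 0 ≤ v t)
    (h4 : ∀ x y r, 0 ≤ x → x ≤ y → 0 ≤ r → y + r ≤ T → v x * v (y + r) ≤ v (x + r) * v y)
    {t s : ℝ} (ht : 0 ≤ t) (hts : t ≤ s) (hsT : s ≤ T) :
    v t * (∫ τ in s..T, v τ) ≤ v s * ∫ τ in t..T, v τ := by
  have hT : 0 ≤ T := by linarith
  have hint : ∀ a b, 0 ≤ a → a ≤ T → 0 ≤ b → b ≤ T → IntervalIntegrable v volume a b := by
    intro a b ha haT hb hbT
    apply hv_int.mono_set
    exact uIcc_subset_uIcc (mem_uIcc_of_le ha haT) (mem_uIcc_of_le hb hbT)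
  have hs0 : 0 ≤ v s := hv0 s ⟨by linarith, hsT⟩
  -- the shifted integrand
  have hshift : IntervalIntegrable (fun τ => v (τ - (s - t))) volume s T := by
    have h := (hint t (T - (s - t)) ht (by linarith) (by linarith) (by linarith)).comp_sub_right
      (s - t)
    have e1 : t + (s - t) = s := by ring
    have e2 : T - (s - t) + (s - t) = T := by ring
    rw [e1, e2] at h
    exact h
  have h1 : v t * (∫ τ in s..T, v τ) = ∫ τ in s..T, v t * v τ := by
    rw [intervalIntegral.integral_const_mul]
  have h2 : (∫ τ in s..T, v t * v τ) ≤ ∫ τ in s..T, v s * v (τ - (s - t)) := by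
    apply intervalIntegral.integral_mono_on hsT
    · exact (hint s T (by linarith) hsT hT le_rfl).const_mul _
    · exact hshift.const_mul _
    · intro τ hτ
      have h := h4 t (τ - (s - t)) (s - t) ht (by linarith [hτ.1]) (by linarith)
        (by linarith [hτ.2])
      have e1 : τ - (s - t) + (s - t) = τ := by ring
      have e2 : t + (s - t) = s := by ring
      rw [e1, e2] at h
      exact h
  have h3 : (∫ τ in s..T, v s * v (τ - (s - t))) = v s * ∫ σ in t..(T - (s - t)), v σ := by
    rw [intervalIntegral.integral_const_mul, intervalIntegral.integral_comp_sub_right]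
    have e1 : s - (s - t) = t := by ring
    rw [e1]
  have h4' : (∫ σ in t..(T - (s - t)), v σ) ≤ ∫ σ in t..T, v σ := by
    have hadd := intervalIntegral.integral_add_adjacent_intervals
      (hint t (T - (s - t)) ht (by linarith) (by linarith) (by linarith))
      (hint (T - (s - t)) T (by linarith) (by linarith) hT le_rfl)
    have hnn : 0 ≤ ∫ σ in (T - (s - t))..T, v σ := by
      apply intervalIntegral.integral_nonneg (by linarith)
      intro u hu
      exact hv0 u ⟨by linarith [hu.1], hu.2⟩
    linarith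
  calc v t * (∫ τ in s..T, v τ) = ∫ τ in s..T, v t * v τ := h1
    _ ≤ ∫ τ in s..T, v s * v (τ - (s - t)) := h2
    _ = v s * ∫ σ in t..(T - (s - t)), v σ := h3
    _ ≤ v s * ∫ σ in t..T, v σ := mul_le_mul_of_nonneg_left h4' hs0

/-- The second-moment bound of the tail-flow route in one-dimensional form:
`v t * R t ≤ N t ^ 2`. -/
theorem tail_second_le (T : ℝ) (v N R : ℝ → ℝ) (hv_int : IntervalIntegrable v volume 0 T)
    (hv0 : ∀ t ∈ Icc 0 T, 0 ≤ v t)
    (h4 : ∀ x y r, 0 ≤ x → x ≤ y → 0 ≤ r → y + r ≤ T → v x * v (y + r) ≤ v (x + r) * v y)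
    (hN : ∀ t, N t = ∫ τ in t..T, v τ) (hR : ∀ t, R t = ∫ τ in t..T, N τ) :
    ∀ t ∈ Icc 0 T, v t * R t ≤ N t ^ 2 := by
  intro t ht
  rcases ht.2.eq_or_lt with hTt | hlt
  · -- `t = T`: both tails vanish
    subst hTt
    rw [hR, hN]
    simp
  have hTpos : 0 < T := lt_of_le_of_lt ht.1 hlt
  have hint : ∀ a b, 0 ≤ a → a ≤ T → 0 ≤ b → b ≤ T → IntervalIntegrable v volume a b := by
    intro a b ha haT hb hbT
    apply hv_int.mono_set
    exact uIcc_subset_uIcc (mem_uIcc_of_le ha haT) (mem_uIcc_of_le hb hbT)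
  have hNf : N = fun t => ∫ τ in t..T, v τ := funext hN
  have hNc : ContinuousOn N (Icc 0 T) := by
    rw [hNf]
    exact Vale.Agent.P254.TailFlow.tail_cont hTpos hv_int
  have hNint : IntervalIntegrable N volume t T := by
    apply ContinuousOn.intervalIntegrable
    rw [uIcc_of_le ht.2]
    exact hNc.mono (Icc_subset_Icc ht.1 le_rfl)
  have hvint : IntervalIntegrable v volume t T := hint t T ht.1 ht.2 hTpos.le le_rfl
  have h1 : v t * R t = ∫ s in t..T, v t * N s := by
    rw [hR, intervalIntegral.integral_const_mul]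
  have h2 : (∫ s in t..T, v t * N s) ≤ ∫ s in t..T, v s * N t := by
    apply intervalIntegral.integral_mono_on ht.2
    · exact hNint.const_mul _
    · exact hvint.mul_const _
    · intro s hs
      have h := tail_hazard T v hv_int hv0 h4 ht.1 hs.1 hs.2
      rw [hN s, hN t]
      exact h
  have h3 : (∫ s in t..T, v s * N t) = N t ^ 2 := by
    rw [intervalIntegral.integral_mul_const, ← hN t]
    ring
  linarith

end Vale.Agent.Lib.P254.TF
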